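import Vale.Agent.P227.AlgVar
import Vale.Agent.P227.AlgMax

/-! The third moment inequality in the ring of smooth functions. -/

set_option linter.all false

namespace Vale.Agent.P254

open Matrix MeasureTheory Filter Topology Set Vale.Agent.P227

variable {n : ℕ}

section Ring

variable {R : Type} [CommRing R] (H : Matrix (Fin n) (Fin n) R)

theorem alg_q3_slice (A B : Fin n → Fin n → Fin n → R) :
    q3 H A B = ∑ i, ∑ a, H i a * q2 H (A i) (B a) := by
  unfold q3 q2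
  refine Finset.sum_congr rfl fun i _ => ?_
  calc ∑ j, ∑ k, ∑ a, ∑ b, ∑ c, H i a * H j b * H k c * A i j k * B a b c
      = ∑ j, ∑ a, ∑ k, ∑ b, ∑ c, H i a * H j b * H k c * A i j k * B a b c :=
        Finset.sum_congr rfl fun j _ => Finset.sum_comm
    _ = ∑ a, ∑ j, ∑ k, ∑ b, ∑ c, H i a * H j b * H k c * A i j k * B a b c := Finset.sum_comm
    _ = _ := by
        simp only [Finset.mul_sum]
        refine Finset.sum_congr rfl fun a _ => Finset.sum_congr rfl fun j _ =>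
          Finset.sum_congr rfl fun k _ => Finset.sum_congr rfl fun b _ =>
          Finset.sum_congr rfl fun c _ => ?_
        ring

theorem alg_q3_swap (A B : Fin n → Fin n → Fin n → R) :
    q3 H (fun i j k => A j i k) (fun i j k => B j i k) = q3 H A B := by
  rw [av_q3_prod, av_q3_prod]
  refine Fintype.sum_equiv
    ⟨fun v => (v.2.1, v.1, v.2.2.1, v.2.2.2.2.1, v.2.2.2.1, v.2.2.2.2.2),
      fun v => (v.2.1, v.1, v.2.2.1, v.2.2.2.2.1, v.2.2.2.1, v.2.2.2.2.2),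
      fun _ => rfl, fun _ => rfl⟩ _ _ fun v => ?_
  simp only [Equiv.coe_fn_mk]
  ring

theorem alg_q2_tr (A B : Matrix (Fin n) (Fin n) R) :
    q2 H A B = trace (A * (H * B * Hᵀ)ᵀ) := by
  rw [← mx_contract_trace]
  unfold q2
  refine Finset.sum_congr rfl fun i _ => Finset.sum_congr rfl fun j _ => ?_
  simp only [Matrix.mul_apply, transpose_apply, Finset.sum_mul, Finset.mul_sum]
  rw [Finset.sum_comm]
  refine Finset.sum_congr rfl fun a _ => Finset.sum_congr rfl fun b _ => ?_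
  ring

theorem alg_q2_lin (P : Fin n → Matrix (Fin n) (Fin n) R) (j b : Fin n)
    (A B : Matrix (Fin n) (Fin n) R) (hA : A = ∑ c, H j c • P c) (hB : B = ∑ c, H b c • P c) :
    q2 H A B = (H * (Matrix.of fun c e => q2 H (P c) (P e)) * Hᵀ) j b := by
  have h : ∀ c e, q2 H (P c) (P e) = trace (P c * (H * P e * Hᵀ)ᵀ) := fun c e => alg_q2_tr H _ _
  rw [alg_q2_tr H A B, hA, hB]
  simp only [Matrix.sum_mul, Matrix.mul_sum, transpose_sum, trace_sum, smul_mul_assoc,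
    mul_smul_comm, transpose_smul, trace_smul, smul_eq_mul, ← h]
  simp only [Matrix.mul_apply, transpose_apply, Matrix.of_apply, Finset.sum_mul, Finset.mul_sum]
  refine Finset.sum_congr rfl fun e _ => Finset.sum_congr rfl fun c _ => ?_
  ring

end Ring

section Set

variable {R X : Type} [CommRing R] [Algebra ℝ R] (S : Setup n R X)

theorem alg_c (h1 : S.Ex 1 = 1) (b : ℝ) : S.Ex (algebraMap ℝ R b) = b := by
  rw [Algebra.algebraMap_eq_smul_one, map_smul, h1, smul_eq_mul, mul_one]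

theorem alg_cm (b : ℝ) (f : R) : S.Ex (algebraMap ℝ R b * f) = b * S.Ex f := by
  rw [← Algebra.smul_def, map_smul, smul_eq_mul]

theorem alg_x0 (i : Fin n) : S.Ex (S.x i) = 0 := by
  have h := S.av_ibpD i 1
  rw [Derivation.map_one_eq_zero, map_zero, mul_one] at h
  exact h.symm

theorem alg_A (i j : Fin n) : S.Ex (S.x i * S.x j) = S.Ex (S.H i j) := by
  rw [← S.av_ibpD, S.avD_x]

theorem alg_x3 (i j k : Fin n) : S.Ex (S.x i * S.x j * S.x k) = 2 * S.Ex (S.H i j * S.x k) := by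
  have h1 := S.av_ibpD i (S.x j * S.x k)
  rw [Derivation.leibniz, S.avD_x, S.avD_x, smul_eq_mul, smul_eq_mul, map_add, ← S.av_ibpD,
    ← S.av_ibpD, S.av_Hsym i k, S.avD_H j k i, S.av_Hsym j i] at h1
  rw [mul_assoc, ← h1, mul_comm (S.H i j), ← S.av_ibpD]
  ring

theorem alg_sq (f : R) : 0 ≤ S.Ex (f ^ 2) :=
  S.pos _ fun p => by rw [map_pow]; exact sq_nonneg _

theorem alg_bessel (h1 : S.Ex 1 = 1) (i j : Fin n) (t : Fin n → ℝ) :
    ∑ k, t k * S.Ex (S.x i * S.x j * S.x k) - ∑ k, ∑ l, t k * t l * S.Ex (S.x k * S.x l) ≤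
      S.Ex (S.H i j ^ 2) - S.Ex (S.H i j) ^ 2 := by
  obtain ⟨y, hy⟩ : ∃ y : R, y = ∑ k, algebraMap ℝ R (t k) * S.x k := ⟨_, rfl⟩
  have h0 := alg_sq S (S.H i j - algebraMap ℝ R (S.Ex (S.H i j)) - y)
  have e : (S.H i j - algebraMap ℝ R (S.Ex (S.H i j)) - y) ^ 2 =
      S.H i j ^ 2 + algebraMap ℝ R (S.Ex (S.H i j) ^ 2) + y * y -
        algebraMap ℝ R (2 * S.Ex (S.H i j)) * S.H i j - algebraMap ℝ R 2 * (S.H i j * y) +
        algebraMap ℝ R (2 * S.Ex (S.H i j)) * y := by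
    simp only [map_mul, map_pow, map_ofNat]
    ring
  have y0 : S.Ex y = 0 := by
    simp only [hy, map_sum, alg_cm, alg_x0, mul_zero, Finset.sum_const_zero]
  have y1 : 2 * S.Ex (S.H i j * y) = ∑ k, t k * S.Ex (S.x i * S.x j * S.x k) := by
    simp only [hy, Finset.mul_sum, map_sum, alg_x3]
    refine Finset.sum_congr rfl fun k _ => ?_
    rw [mul_left_comm (S.H i j), alg_cm]
    ring
  have y2 : S.Ex (y * y) = ∑ k, ∑ l, t k * t l * S.Ex (S.x k * S.x l) := by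
    rw [hy, Finset.sum_mul_sum]
    simp only [map_sum]
    refine Finset.sum_congr rfl fun k _ => Finset.sum_congr rfl fun l _ => ?_
    rw [← alg_cm, map_mul (algebraMap ℝ R)]
    exact congrArg S.Ex (by ring)
  rw [e] at h0
  simp only [map_add, map_sub, alg_cm, alg_c S h1, y0, y1, y2] at h0
  nlinarith

theorem alg_Γ (f g : R) :
    S.mxΓ f g = (fun i => S.d i f) ⬝ᵥ S.H *ᵥ (fun i => S.d i g) := by
  simp only [Setup.mxΓ, dotProduct, mulVec, Finset.mul_sum]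
  refine Finset.sum_congr rfl fun i _ => Finset.sum_congr rfl fun j _ => ?_
  ring

theorem alg_adj (f g : R) : S.Ex (f * S.L g) = -S.Ex (S.mxΓ g f) := by
  rw [S.av_L, mul_neg, map_neg, mul_comm, dv_adj S.Ex S.avD S.x S.av_ibpD, alg_Γ]
  simp only [S.avD_apply, dotProduct, mulVec]

theorem alg_Γ_symm (f g : R) : S.mxΓ f g = S.mxΓ g f := by
  unfold Setup.mxΓ
  rw [Finset.sum_comm]
  refine Finset.sum_congr rfl fun i _ => Finset.sum_congr rfl fun j _ => ?_
  rw [S.av_Hsym j i]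
  ring

theorem alg_Γ_add (f g : R) :
    S.mxΓ (f + g) (f + g) = S.mxΓ f f + S.mxΓ f g + S.mxΓ g f + S.mxΓ g g := by
  simp only [Setup.mxΓ, map_add, ← Finset.sum_add_distrib]
  refine Finset.sum_congr rfl fun i _ => Finset.sum_congr rfl fun j _ => ?_
  ring

theorem alg_q2_Ex (A : Fin n → Fin n → R) : 0 ≤ S.Ex (q2 S.H A A) := by
  refine S.pos _ fun p => ?_
  rw [S.mx_ev_q2]
  have hs : (S.H.map (S.ev p)).IsSymm := by
    ext i j
    simp only [transpose_apply, map_apply, S.av_Hsym j i]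
  have := q2_lower hs le_rfl (fun v => by
    simpa using (S.avPsd_H p).dotProduct_mulVec_nonneg v) (fun i j => S.ev p (A i j))
  simpa using this

theorem alg_boch (h : R) : S.Ex (S.mxΓ h h) ≤ S.Ex (S.L h * S.L h) := by
  set g : Fin n → R := fun b => S.d b h with hg
  have hL : dv S.avD S.x g = -S.L h := by rw [S.av_L, neg_neg]
  have hb := bochner S.Ex S.avD S.x S.av_ibpD S.avD_comm g g
  have h1 : ∑ j, ∑ k, S.avD j (S.x k) * g k * g j = S.mxΓ h h := by
    simp only [S.avD_x, Setup.mxΓ, hg]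
    refine Finset.sum_congr rfl fun i _ => Finset.sum_congr rfl fun j _ => ?_
    ring
  have h2 : ∑ j, ∑ k, S.avD j (g k) * S.avD k (g j) = q2 S.H (S.D2 h) (S.D2 h) := by
    simp only [S.avD_apply, q2, Setup.D2, hg, Finset.sum_mul, Finset.mul_sum]
    refine Finset.sum_congr rfl fun j _ => ?_
    rw [Finset.sum_comm]
    refine Finset.sum_congr rfl fun b _ => ?_
    rw [Finset.sum_comm]
    refine Finset.sum_congr rfl fun a _ => Finset.sum_congr rfl fun k _ => ?_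
    rw [S.comm j b, S.av_Hsym b k]
    ring
  rw [h1, h2, hL, neg_mul_neg] at hb
  linarith [alg_q2_Ex S (S.D2 h)]

theorem alg_poin (h1 : S.Ex 1 = 1) {f w : R} {b : ℝ} (hw : S.L w = f + algebraMap ℝ R b) :
    S.Ex (f ^ 2) - S.Ex f ^ 2 ≤ S.Ex (S.mxΓ f f) := by
  have e0 := S.Ex_L w
  rw [hw, map_add, alg_c S h1] at e0
  have e1 := alg_adj S f w
  rw [hw, mul_add, map_add, mul_comm f (algebraMap ℝ R b), alg_cm, ← sq] at e1
  have e2 := alg_boch S w
  have e3 : S.L w * S.L w = f ^ 2 + algebraMap ℝ R (2 * b) * f + algebraMap ℝ R (b ^ 2) := by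
    rw [hw]
    simp only [map_mul, map_pow, map_ofNat]
    ring
  rw [e3, map_add, map_add, alg_cm, alg_c S h1] at e2
  have e4 : 0 ≤ S.Ex (S.mxΓ (f + w) (f + w)) := by
    rw [alg_Γ]
    exact S.avPsd_H.form _
  rw [alg_Γ_add, alg_Γ_symm S f w, map_add, map_add, map_add] at e4
  have hb : b = -S.Ex f := by linarith
  rw [hb] at e1 e2
  nlinarith

theorem alg_four : ∑ i, ∑ j, S.Ex (S.H i j ^ 2) =
    S.Ex (∑ i, ∑ j, S.mxΓ (S.H i j) (S.H i j)) +
      S.Ex (∑ i, ∑ j, S.H i j * (S.H * S.mxQ * S.H) i j) +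
      S.Ex (∑ i, ∑ j, S.H i j * (S.H * S.mxU * S.H) i j) := by
  simp only [map_sum, ← Finset.sum_add_distrib]
  refine Finset.sum_congr rfl fun i _ => Finset.sum_congr rfl fun j _ => ?_
  have h1 := alg_adj S (S.H i j) (S.H i j)
  have h2 : S.L (S.H i j) = -S.H i j + (S.H * S.mxQ * S.H) i j + (S.H * S.mxU * S.H) i j :=
    congrFun (congrFun S.mx_L_H i) j
  rw [h2, mul_add, mul_add, mul_neg, map_add, map_add, map_neg, ← sq] at h1
  linarith

theorem alg_five : S.Ex (∑ i, ∑ j, S.mxΓ (S.H i j) (S.H i j)) ≤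
    S.Ex (∑ i, ∑ j, S.H i j * (S.H * S.mxQ * S.H) i j) := by
  obtain ⟨P, hP⟩ : ∃ P : Fin n → Matrix (Fin n) (Fin n) R,
      ∀ a, P a = S.avM a (S.avHs S.ψ) := ⟨_, fun _ => rfl⟩
  have hPa : ∀ a i j, P a i j = S.D3 S.ψ a i j := fun a i j => by rw [hP]; rfl
  have hPT : ∀ a, (P a)ᵀ = P a := fun a => by
    ext i j
    rw [transpose_apply, hPa, hPa, S.mx_D3_23]
  set θ : Fin n → Fin n → Fin n → R := fun i j k => (S.H * P i) j k with hθ
  set η : Fin n → Fin n → Fin n → R := fun i j k => θ i k j with hη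
  have h1 : q3 S.H θ θ = ∑ i, ∑ j, S.H i j * (S.H * S.mxQ * S.H) i j := by
    rw [← alg_q3_swap, alg_q3_slice]
    refine Finset.sum_congr rfl fun j _ => Finset.sum_congr rfl fun b _ => ?_
    have e : ∀ j, (Matrix.of fun i k => θ i j k) = ∑ c, S.H j c • P c := by
      intro j
      ext i k
      simp only [hθ, Matrix.mul_apply, Matrix.sum_apply, Matrix.smul_apply, smul_eq_mul, hPa,
        Matrix.of_apply]
      exact Finset.sum_congr rfl fun c _ => by rw [S.mx_D3_12]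
    have e2 : (Matrix.of fun c e => q2 S.H (P c) (P e)) = S.mxQ := by
      ext c e
      simp only [Matrix.of_apply, Setup.mxQ, hP]
      rfl
    have e3 := alg_q2_lin S.H P j b _ _ (e j) (e b)
    rw [S.av_HT, e2] at e3
    exact congrArg (S.H j b * ·) e3
  have h2 : q3 S.H η η = q3 S.H θ θ := av_q3_swap S.H θ θ
  have h3 : q3 S.H θ η = ∑ i, ∑ j, S.mxΓ (S.H i j) (S.H i j) := by
    rw [alg_q3_slice]
    unfold Setup.mxΓ
    rw [mx_sum4_swap]
    refine Finset.sum_congr rfl fun a _ => Finset.sum_congr rfl fun b _ => ?_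
    have e1 : q2 S.H (θ a) (η b) = q2 S.H (S.H * P a) ((S.H * P b)ᵀ) := rfl
    have e2 : ∑ i, ∑ j, S.H a b * S.d a (S.H i j) * S.d b (S.H i j) =
        S.H a b * ∑ i, ∑ j, S.avM a S.H i j * S.avM b S.H i j := by
      simp only [Finset.mul_sum, S.avM_apply, mul_assoc]
    rw [e1, e2, alg_q2_tr, mx_contract_trace, S.avM_H, S.avM_H, ← hP, ← hP]
    simp only [transpose_mul, transpose_neg, transpose_transpose, S.av_HT, hPT, Matrix.mul_neg,
      Matrix.neg_mul, neg_neg, Matrix.mul_assoc]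
  have h4 : q3 S.H η θ = q3 S.H θ η := av_q3_symm S.H S.av_Hsym _ _
  have h5 := S.av_q3_Ex (θ - η)
  rw [av_q3_sub_left, av_q3_sub_right, av_q3_sub_right, h2, h4, h1, h3] at h5
  simp only [map_sub] at h5
  linarith

theorem alg_psdB {β : Fin n → ℝ} (hβ : ∀ i, 0 ≤ β i) :
    S.AvPsd (diagonal fun i => algebraMap ℝ R (β i)) := by
  intro p
  rw [diagonal_map (map_zero _)]
  simp only [AlgHom.commutes, Algebra.algebraMap_self, RingHom.id_apply]
  exact PosSemidef.diagonal hβ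

theorem alg_psdU {β : Fin n → ℝ}
    (hU : ∀ p, ((Matrix.of fun i j => S.ev p (S.D2 S.U i j)) - diagonal β).PosSemidef) :
    S.AvPsd (S.mxU - diagonal fun i => algebraMap ℝ R (β i)) := by
  intro p
  have e : (S.mxU - diagonal fun i => algebraMap ℝ R (β i)).map (S.ev p) =
      (Matrix.of fun i j => S.ev p (S.D2 S.U i j)) - diagonal β := by
    ext i j
    simp only [map_apply, Matrix.sub_apply, Setup.mxU, Matrix.of_apply, map_sub, diagonal_apply]
    split_ifs <;> simp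
  rw [e]
  exact hU p

theorem alg_six {β : Fin n → ℝ} (hβ : ∀ i, 0 ≤ β i)
    (hU : ∀ p, ((Matrix.of fun i j => S.ev p (S.D2 S.U i j)) - diagonal β).PosSemidef) :
    2 * ∑ i, ∑ j, β i * S.Ex (S.H i j ^ 2) - ∑ i, β i * S.Ex (S.H i i) ≤
      S.Ex (∑ i, ∑ j, S.H i j * (S.H * S.mxU * S.H) i j) := by
  set B : Matrix (Fin n) (Fin n) R := diagonal fun i => algebraMap ℝ R (β i) with hB
  have h1 := S.avPsd_H.trace ((alg_psdU S hU).conj S.H)
  have h2 := (alg_psdB S hβ).trace (S.avPsd_H.conj (S.H - 1))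
  rw [← hB] at h1 h2
  have e1 : ∑ i, ∑ j, S.H i j * (S.H * S.mxU * S.H) i j = trace (S.H * (S.H * S.mxU * S.H)) := by
    rw [mx_contract_trace, ← trace_transpose, transpose_mul, transpose_transpose, S.av_HT,
      trace_mul_comm]
  have e2 : trace (S.H * (S.Hᵀ * (S.mxU - B) * S.H)) =
      trace (S.H * (S.H * S.mxU * S.H)) - trace (B * (S.H * S.H * S.H)) := by
    rw [S.av_HT, Matrix.mul_sub, Matrix.sub_mul, Matrix.mul_sub, trace_sub]
    congr 1
    rw [show S.H * (S.H * B * S.H) = (S.H * S.H) * (B * S.H) by simp only [Matrix.mul_assoc],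
      trace_mul_comm]
    simp only [Matrix.mul_assoc]
  have e3 : trace (B * ((S.H - 1)ᵀ * S.H * (S.H - 1))) =
      trace (B * (S.H * S.H * S.H)) - trace (B * (S.H * S.H)) - trace (B * (S.H * S.H)) +
        trace (B * S.H) := by
    rw [transpose_sub, S.av_HT, transpose_one]
    simp only [Matrix.mul_sub, Matrix.sub_mul, Matrix.mul_one, Matrix.one_mul, trace_sub]
    ring
  have e4 : S.Ex (trace (B * (S.H * S.H))) = ∑ i, ∑ j, β i * S.Ex (S.H i j ^ 2) := by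
    simp only [trace, diag_apply, hB, diagonal_mul, map_sum, alg_cm]
    refine Finset.sum_congr rfl fun i _ => ?_
    simp only [Matrix.mul_apply, map_sum, Finset.mul_sum]
    exact Finset.sum_congr rfl fun j _ => by rw [S.av_Hsym j i, sq]
  have e5 : S.Ex (trace (B * S.H)) = ∑ i, β i * S.Ex (S.H i i) := by
    simp only [trace, diag_apply, hB, diagonal_mul, map_sum, alg_cm]
  rw [e2, map_sub] at h1
  rw [e3, map_add, map_sub, map_sub, e4, e5] at h2
  rw [e1]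
  linarith

theorem alg_seven (h1 : S.Ex 1 = 1) {β : Fin n → ℝ} (hβ : ∀ i, 0 ≤ β i)
    (hU : ∀ p, ((Matrix.of fun i j => S.ev p (S.D2 S.U i j)) - diagonal β).PosSemidef)
    (i : Fin n) : β i * S.Ex (S.H i i) ^ 2 ≤ S.Ex (S.H i i) := by
  have hv : ∀ M : Matrix (Fin n) (Fin n) R, (S.H * M * S.H) i i = S.H i ⬝ᵥ M *ᵥ S.H i := by
    intro M
    rw [Matrix.mul_assoc]
    simp only [Matrix.mul_apply, dotProduct, mulVec, S.av_Hsym _ i]
  have e0 := S.Ex_L (S.H i i)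
  have h2 : S.L (S.H i i) = -S.H i i + (S.H * S.mxQ * S.H) i i + (S.H * S.mxU * S.H) i i :=
    congrFun (congrFun S.mx_L_H i) i
  rw [h2, map_add, map_add, map_neg, hv, hv] at e0
  have e1 : 0 ≤ S.Ex (S.H i ⬝ᵥ S.mxQ *ᵥ S.H i) := by
    refine S.pos _ fun p => ?_
    have := S.mx_Q_nonneg p (fun j => S.ev p (S.H i j))
    simpa only [dotProduct, mulVec, map_sum, map_mul, map_apply] using this
  have e2 := (alg_psdU S hU).form (S.H i)
  rw [Matrix.sub_mulVec, dotProduct_sub, map_sub] at e2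
  have e3 : S.Ex (S.H i ⬝ᵥ (diagonal fun i => algebraMap ℝ R (β i)) *ᵥ S.H i) =
      ∑ j, β j * S.Ex (S.H i j ^ 2) := by
    simp only [dotProduct, mulVec_diagonal, map_sum]
    refine Finset.sum_congr rfl fun j _ => ?_
    rw [← alg_cm]
    congr 1
    ring
  have e4 : β i * S.Ex (S.H i i ^ 2) ≤ ∑ j, β j * S.Ex (S.H i j ^ 2) :=
    Finset.single_le_sum (f := fun j => β j * S.Ex (S.H i j ^ 2))
      (fun j _ => mul_nonneg (hβ j) (alg_sq S _)) (Finset.mem_univ i)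
  have e5 := alg_bessel S h1 i i 0
  simp only [Pi.zero_apply, zero_mul, Finset.sum_const_zero, sub_zero] at e5
  have e6 : β i * S.Ex (S.H i i) ^ 2 ≤ β i * S.Ex (S.H i i ^ 2) :=
    mul_le_mul_of_nonneg_left (by linarith) (hβ i)
  linarith

end Set

/-- Write `A i j = Ex (x i * x j)`, `H = S.H`, `Γ = S.mxΓ`, `ψ3 = S.D3 S.ψ`.
(1) `av_ibpD`, `avD_x`: `Ex (x i) = 0`, `A i j = Ex (H i j)`; `c i j k = Ex (H i j * x k) =
Ex (avD k (H i j))` is symmetric (`avD_H`, `av_Hsym`) and `Ex (x i * x j * x k) = 2 c i j k`.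
(2) Bessel: expand `0 ≤ Ex ((H i j - A i j - ∑ k, t i j k • x k) ^ 2)` to bound the bracket by
`W i j = Ex (H i j ^ 2) - A i j ^ 2`.
(3) Poincare: `W i j ≤ Ex (Γ (H i j) (H i j))`. With `L w = H i j + b` one has `b = - A i j`
(`Ex_L`), `Ex (f * L g) = - Ex (Γ f g)` (`av_L`, `dv_adj`), Bochner
`Ex (Γ w w) ≤ Ex ((L w) ^ 2)` (see the proof of `Setup.kernel`), and `0 ≤ Ex (Γ (H i j + w) (H i j + w))`.
(4) `mx_L_H` tested with `H`: `∑ Ex (H i j ^ 2) = G + Ex tr (H * (H * Q * H)) + Ex tr (H * (H * U'' * H))`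
with `G = ∑ Ex (Γ (H i j) (H i j))`.
(5) `G ≤ Ex tr (H * (H * Q * H))`: let `θ i j k = ∑ c, H j c * ψ3 i c k`, `θ' i j k = θ i k j`;
`q3 H θ θ = q3 H θ' θ' = tr (H ^ 3 * Q)`, `q3 H θ θ' = ∑ Γ (H i j) (H i j)` (`mx_dH`), and
`0 ≤ Ex (q3 H (θ - θ') (θ - θ'))` (`av_q3_Ex`).
(6) `tr (H * (H * U'' * H)) ≥ ∑ β i * (H ^ 3) i i` (`AvPsd.conj`, `AvPsd.trace`) and
`(H ^ 3) i i ≥ 2 (H ^ 2) i i - H i i` because `(H - 1) * H * (H - 1)` is positive semidefinite.
(7) First claim: `Ex (L (H i i)) = 0` and `mx_L_H`, `mx_Q_nonneg` give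
`A i i ≥ Ex ((H * diagonal β * H) i i) ≥ β i * Ex (H i i ^ 2) ≥ β i * A i i ^ 2`. -/
theorem setup_key {R X : Type} [CommRing R] [Algebra ℝ R] (S : Setup n R X) (h1 : S.Ex 1 = 1)
    {β : Fin n → ℝ} (hβ : ∀ i, 0 ≤ β i)
    (hU : ∀ p, ((Matrix.of fun i j => S.ev p (S.D2 S.U i j)) - diagonal β).PosSemidef)
    (hP : ∀ i j, ∃ (w : R) (b : ℝ), S.L w = S.H i j + algebraMap ℝ R b)
    (t : Fin n → Fin n → Fin n → ℝ) :
    (∀ i, β i * S.Ex (S.x i * S.x i) ^ 2 ≤ S.Ex (S.x i * S.x i)) ∧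
      ∑ i, ∑ j, (1 + 2 * β i) * (∑ k, t i j k * S.Ex (S.x i * S.x j * S.x k) -
          ∑ k, ∑ l, t i j k * t i j l * S.Ex (S.x k * S.x l)) ≤
        ∑ i, ∑ j, (1 - 2 * β i) * S.Ex (S.x i * S.x j) ^ 2 + ∑ i, β i * S.Ex (S.x i * S.x i) := by
  refine ⟨fun i => by rw [alg_A]; exact alg_seven S h1 hβ hU i, ?_⟩
  have a1 : ∑ i, ∑ j, (1 + 2 * β i) * (∑ k, t i j k * S.Ex (S.x i * S.x j * S.x k) -
      ∑ k, ∑ l, t i j k * t i j l * S.Ex (S.x k * S.x l)) ≤
      ∑ i, ∑ j, (1 + 2 * β i) * (S.Ex (S.H i j ^ 2) - S.Ex (S.H i j) ^ 2) :=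
    Finset.sum_le_sum fun i _ => Finset.sum_le_sum fun j _ =>
      mul_le_mul_of_nonneg_left (alg_bessel S h1 i j (t i j)) (by linarith [hβ i])
  refine a1.trans ?_
  have a2 : ∑ i, ∑ j, (S.Ex (S.H i j ^ 2) - S.Ex (S.H i j) ^ 2) ≤
      S.Ex (∑ i, ∑ j, S.mxΓ (S.H i j) (S.H i j)) := by
    simp only [map_sum]
    refine Finset.sum_le_sum fun i _ => Finset.sum_le_sum fun j _ => ?_
    obtain ⟨w, b, hw⟩ := hP i j
    exact alg_poin S h1 hw
  have a3 := alg_four S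
  have a4 := alg_five S
  have a5 := alg_six S hβ hU
  simp only [alg_A]
  have e1 : ∑ i, ∑ j, (1 + 2 * β i) * (S.Ex (S.H i j ^ 2) - S.Ex (S.H i j) ^ 2) =
      ∑ i, ∑ j, S.Ex (S.H i j ^ 2) + 2 * ∑ i, ∑ j, β i * S.Ex (S.H i j ^ 2) -
        ∑ i, ∑ j, S.Ex (S.H i j) ^ 2 - 2 * ∑ i, ∑ j, β i * S.Ex (S.H i j) ^ 2 := by
    simp only [Finset.mul_sum, ← Finset.sum_add_distrib, ← Finset.sum_sub_distrib]
    refine Finset.sum_congr rfl fun i _ => Finset.sum_congr rfl fun j _ => ?_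
    ring
  have e2 : ∑ i, ∑ j, (1 - 2 * β i) * S.Ex (S.H i j) ^ 2 =
      ∑ i, ∑ j, S.Ex (S.H i j) ^ 2 - 2 * ∑ i, ∑ j, β i * S.Ex (S.H i j) ^ 2 := by
    simp only [Finset.mul_sum, ← Finset.sum_sub_distrib]
    refine Finset.sum_congr rfl fun i _ => Finset.sum_congr rfl fun j _ => ?_
    ring
  simp only [Finset.sum_sub_distrib] at a2
  rw [e1, e2]
  linarith

end Vale.Agent.P254
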