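import Vale.Agent.P254.ANon
import Vale.Agent.P254.Alg

/-! The third moment inequality for smooth potentials. -/

set_option linter.all false

namespace Vale.Agent.P254

open Matrix MeasureTheory Filter Topology Set Vale.Agent.P227

variable {n : ℕ}

theorem key_smooth {U : E n → ℝ} (hU : Gd U) {c : ℝ} (hc : 0 < c) {β : Fin n → ℝ}
    (hβ : ∀ i, 0 ≤ β i)
    (hE : ∀ x (v : Fin n → ℝ), c * (v ⬝ᵥ v) + v ⬝ᵥ diagonal β *ᵥ v ≤ v ⬝ᵥ hs U x *ᵥ v)
    (h1 : ∫ x, Real.exp (-U x) = 1) (h0 : ∀ i, ∫ x : E n, x i * Real.exp (-U x) = 0)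
    (t : Fin n → Fin n → Fin n → ℝ) :
    (∀ i, β i * (∫ x : E n, x i * x i * Real.exp (-U x)) ^ 2 ≤
      ∫ x : E n, x i * x i * Real.exp (-U x)) ∧
      ∑ i, ∑ j, (1 + 2 * β i) * (∑ k, t i j k * (∫ x : E n, x i * x j * x k * Real.exp (-U x)) -
          ∑ k, ∑ l, t i j k * t i j l * ∫ x : E n, x k * x l * Real.exp (-U x)) ≤
        ∑ i, ∑ j, (1 - 2 * β i) * (∫ x : E n, x i * x j * Real.exp (-U x)) ^ 2 +
          ∑ i, β i * ∫ x : E n, x i * x i * Real.exp (-U x) := by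
  have hd0 : ∀ v : Fin n → ℝ, 0 ≤ v ⬝ᵥ diagonal β *ᵥ v := fun v => by
    simpa using (PosSemidef.diagonal (fun i => hβ i)).dotProduct_mulVec_nonneg v
  have hEU : Ell (hs U) c := fun x => ⟨hU.c2.hs_symm x, fun v => by linarith [hE x v, hd0 v]⟩
  obtain ⟨ψ, hψ⟩ := exists_so hU hc hEU h0
  obtain ⟨hS0, -, -⟩ := hψ.solv hU hc hEU
  obtain ⟨S, hd, hx, -, hUe, hH, hev, hEx, hL⟩ := hψ.setup hU hc hEU
  have hreg := reg_so hU hψ
  obtain ⟨⟨M, hX⟩, ⟨c0, hc0, hE0⟩, -⟩ := hψ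
  obtain ⟨c1, K, hc1, hE1, -⟩ := hE0.inv hc0 hX.2.2.2
  have hk := fun k => Hk.inv (k := k) hE0 hc0 (hreg k)
  have hP : ∀ i j, ∃ (w : Sc n) (b : ℝ), S.L w = S.H i j + algebraMap ℝ (Sc n) b := by
    intro i j
    obtain ⟨N, hN⟩ := (hk 0 i j).hn
    obtain ⟨w, M', a, hw, ha, he⟩ := hS0 _ N (hN.mo.yn hN.nonneg)
    have hr := fun k => reg_lin k hc1 hE1 (hk k) ((hk k i j).mk.add (ha.mk k)) hw.1
      ⟨M', hw.2.2.2⟩ he
    obtain ⟨b, v, hv⟩ := ha
    refine ⟨⟨w, Sm.of_hs hw.1 hr⟩ + ⟨lf v, (Gd.lf v).sm⟩, b, Subtype.ext (funext fun p => ?_)⟩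
    rw [hL]
    change Lop _ 0 (fun x => w x + lf v x) p = (S.H i j).1 p + b
    rw [Lop_add _ _ hw.1 (lf_c2 v), Lop_lf, he, hv, hH]
    ring
  have e1 : S.Ex 1 = 1 := by
    rw [hEx, ← h1]
    exact integral_congr_ae (ae_of_all _ fun x => one_mul _)
  have e2 : ∀ i j, S.Ex (S.x i * S.x j) = ∫ x : E n, x i * x j * Real.exp (-U x) := fun i j => by
    rw [hEx]
    exact integral_congr_ae (ae_of_all _ fun x => by
      simp only [← hev, map_mul]
      simp only [hev, hx])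
  have e3 : ∀ i j k, S.Ex (S.x i * S.x j * S.x k) =
      ∫ x : E n, x i * x j * x k * Real.exp (-U x) := fun i j k => by
    rw [hEx]
    exact integral_congr_ae (ae_of_all _ fun x => by
      simp only [← hev, map_mul]
      simp only [hev, hx])
  have h := setup_key S e1 hβ (fun p => by
    have e : (Matrix.of fun i j => S.ev p (S.D2 S.U i j)) = hs U p := by
      ext i j
      rw [of_apply, hev, Setup.D2, hd, hd, hUe]; rfl
    rw [e]
    refine PosSemidef.of_dotProduct_mulVec_nonneg ?_ fun v => ?_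
    · simpa [Matrix.IsHermitian] using ((hU.c2.hs_symm p).sub (isSymm_diagonal β)).eq
    · have h2 : 0 ≤ c * (v ⬝ᵥ v) :=
        mul_nonneg hc.le (Finset.sum_nonneg fun i _ => mul_self_nonneg _)
      simp only [star_trivial, sub_mulVec, dotProduct_sub]
      linarith [hE p v]) hP t
  simpa only [e2, e3] using h

end Vale.Agent.P254
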