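import Vale.Agent.P254.GdL
import Vale.Agent.P227.Linear

/-! Linear theory modulo affine functions, without symmetry assumptions. -/

set_option linter.all false

namespace Vale.Agent.P254

open Matrix MeasureTheory Filter Topology Set Vale.Agent.P227

variable {n : ℕ}

/-- affine functions -/
def Af (a : E n → ℝ) : Prop := ∃ (b : ℝ) (v : Fin n → ℝ), ∀ x, a x = b + lf v x

/-- normalized functions with Hölder Hessian -/
def Xa (w : E n → ℝ) (M : ℝ) : Prop := C2 w ∧ (∀ i, pd i w 0 = 0) ∧ w 0 = 0 ∧ HM (hs w) M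

/-- solvability up to affine functions -/
def Sv (A : E n → Mat n) (κ : ℝ) : Prop :=
  ∀ (g : E n → ℝ) (N : ℝ), Yn g N → ∃ w M a, Xa w M ∧ Af a ∧ ∀ x, Lop A κ w x = g x + a x

/-- a priori estimate -/
def Ap (A : E n → Mat n) (κ C : ℝ) : Prop :=
  ∀ (w : E n → ℝ) (M N : ℝ), Xa w M → Yn (Lop A κ w) N → HM (hs w) (C * N)

section basic

variable {f g w u a a' : E n → ℝ} {M N r s t : ℝ}

theorem lf_zero (v : Fin n → ℝ) : lf v (0 : E n) = 0 := by simp [lf]

theorem lf_ee (v : Fin n → ℝ) (i : Fin n) : lf v (ee i) = v i := by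
  simp [lf, ee, Pi.single_apply]

theorem lf_add (v : Fin n → ℝ) (x y : E n) : lf v (x + y) = lf v x + lf v y := by
  simp only [lf, PiLp.add_apply, mul_add, Finset.sum_add_distrib]

theorem lf_smul_left (t : ℝ) (v : Fin n → ℝ) (x : E n) : lf (t • v) x = t * lf v x := by
  simp only [lf, Pi.smul_apply, smul_eq_mul, Finset.mul_sum, mul_assoc]

theorem lf_add_left (v v' : Fin n → ℝ) (x : E n) : lf (v + v') x = lf v x + lf v' x := by
  simp only [lf, Pi.add_apply, add_mul, Finset.sum_add_distrib]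

theorem Lop_lf (A : E n → Mat n) (κ : ℝ) (v : Fin n → ℝ) (x : E n) :
    Lop A κ (lf v) x = (κ - 1) * lf v x := by
  simp only [Lop, hs_lf, eu_lf, Matrix.zero_apply, mul_zero, Finset.sum_const_zero]
  ring

theorem Af.const (b : ℝ) : Af fun _ : E n => b := ⟨b, 0, fun x => by simp [lf]⟩

theorem Af.lf (v : Fin n → ℝ) : Af (lf v) := ⟨0, v, fun x => by simp⟩

theorem Af.add (h : Af a) (h' : Af a') : Af fun x => a x + a' x := by
  obtain ⟨b, v, e⟩ := h
  obtain ⟨b', v', e'⟩ := h'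
  exact ⟨b + b', v + v', fun x => by simp only [e, e', lf_add_left]; ring⟩

theorem Af.const_mul (h : Af a) (t : ℝ) : Af fun x => t * a x := by
  obtain ⟨b, v, e⟩ := h
  exact ⟨t * b, t • v, fun x => by simp only [e, lf_smul_left]; ring⟩

theorem Af.sub (h : Af a) (h' : Af a') : Af fun x => a x - a' x := by
  simpa [sub_eq_add_neg] using h.add (h'.const_mul (-1))

theorem Af.eq (h : Af a) (x : E n) : a x = a 0 + ∑ i, (a (ee i) - a 0) * x i := by
  obtain ⟨b, v, e⟩ := h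
  simp only [e, lf_ee, lf_zero, add_zero, add_sub_cancel_left]
  rfl

theorem Af.lim {F : Filter ℕ} [F.NeBot] {s : ℕ → E n → ℝ} (h : ∀ k, Af (s k))
    (hl : ∀ x, Tendsto (fun k => s k x) F (𝓝 (a x))) : Af a :=
  ⟨a 0, fun i => a (ee i) - a 0, fun x => tendsto_nhds_unique (hl x)
    (((hl 0).add (tendsto_finsetSum _ fun i _ => ((hl (ee i)).sub (hl 0)).mul_const (x i))).congr
      fun k => ((h k).eq x).symm)⟩

theorem Af.c2 (h : Af a) : C2 a := by
  obtain ⟨b, v, e⟩ := h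
  rw [funext e]
  exact (C2.const b).add (lf_c2 v)

theorem Af.hs (h : Af a) : hs a = fun _ => 0 := by
  obtain ⟨b, v, e⟩ := h
  rw [funext e, hs_add (C2.const b) (lf_c2 v), hs_const, hs_lf]
  simp

theorem Af.yn (h : Af a) : Yn a 0 := by
  simpa using h.c2.yn le_rfl (M := 0) fun x i j => by simp [h.hs]

theorem yn_af (hf : Yn f N) (h : Af a) : Yn (fun x => f x + a x) N := by
  simpa using hf.add h.yn

theorem Af.lop (h : Af a) (A : E n → Mat n) (κ : ℝ) : Af (Lop A κ a) := by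
  obtain ⟨b, v, e⟩ := h
  refine ⟨κ * b, (κ - 1) • v, fun x => ?_⟩
  rw [funext e, Lop_add _ _ (C2.const b) (lf_c2 v), Lop_const, Lop_lf, lf_smul_left]

theorem Af.mk (h : Af a) (k : ℕ) : Mk k a := by
  obtain ⟨b, v, e⟩ := h
  cases k with
  | zero => trivial
  | succ k =>
    have hd : Differentiable ℝ a := by
      rw [funext e]; exact ((C2.const b).add (lf_c2 v)).1
    refine ⟨hd, fun i => ?_⟩
    have e2 : pd i a = fun _ => v i := by
      rw [funext e, pd_add (C2.const b).1 (lf_c2 v).1, pd_const, pd_lf]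
      simp
    rw [e2]
    exact ⟨⟨_, (Hn.const _).mo⟩, (Hk.const k _).mk⟩

theorem af_of_d2 (hf : Continuous f) (h : ∀ x y z, d2 f x y z = 0) : Af f := by
  obtain ⟨hd, hp⟩ := dc1 (N := 0) (r := 1) hf one_pos fun x y d _ _ => by simp [h]
  have h1 : ∀ i x, pd i f x = pd i f 0 := by
    intro i x
    have hl : IsLocallyConstant (pd i f) := by
      rw [IsLocallyConstant.iff_eventually_eq]
      intro y
      filter_upwards [Metric.closedBall_mem_nhds y one_pos] with z hz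
      rw [mem_closedBall_iff_norm] at hz
      have := hp i y (z - y) hz
      rw [add_sub_cancel, zero_mul] at this
      exact sub_eq_zero.1 (abs_nonpos_iff.1 this)
    exact hl.apply_eq_of_preconnectedSpace x 0
  refine ⟨f 0, fun i => pd i f 0, fun x => ?_⟩
  have h2 := taylor_seg (x := 0) (y := x) (b := 0) hd (c := fun i => pd i f 0)
    fun i t _ _ => by rw [h1]; simp
  rw [zero_add, mul_zero, zero_mul, abs_nonpos_iff] at h2
  simp only [lf, mul_comm]
  linarith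

theorem Xa.growth (h : Xa w M) (x : E n) :
    |w x| ≤ n ^ 2 * M * ‖x‖ ^ 2 ∧ ∀ i, |pd i w x| ≤ n * M * ‖x‖ := by
  obtain ⟨hw, he, h0, hM⟩ := h
  have h1 : ∀ x i, |pd i w x| ≤ n * M * ‖x‖ := fun x i => by
    have := pd_lip hw (fun x i j => (hM i j).1 x) i x 0
    rwa [he, sub_zero, sub_zero] at this
  refine ⟨?_, h1 x⟩
  have h2 := mvt (x := 0) (y := x) (b := n * M * ‖x‖) hw.1 fun i ξ hξ => by
    rw [zero_add]
    have := (hM i i).nonneg
    exact (h1 ξ i).trans (by gcongr)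
  rw [zero_add, h0, sub_zero] at h2
  refine h2.trans (le_of_eq ?_); ring

theorem Xa.sub (hw : Xa w s) (hu : Xa u t) : Xa (fun x => w x - u x) (s + t) := by
  refine ⟨hw.1.sub hu.1, fun i => ?_, ?_, fun i j => ?_⟩
  · rw [pd_sub hw.1.1 hu.1.1]
    show pd i w 0 - pd i u 0 = 0
    rw [hw.2.1, hu.2.1, sub_zero]
  · show w 0 - u 0 = 0
    rw [hw.2.2.1, hu.2.2.1, sub_zero]
  · rw [hs_sub hw.1 hu.1]; exact (hw.2.2.2 i j).sub (hu.2.2.2 i j)

theorem Xa.const_mul (hw : Xa w s) (t : ℝ) : Xa (fun x => t * w x) (|t| * s) := by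
  refine ⟨hw.1.const_mul t, fun i => ?_, ?_, fun i j => ?_⟩
  · rw [pd_const_mul]
    show t * pd i w 0 = 0
    rw [hw.2.1, mul_zero]
  · show t * w 0 = 0
    rw [hw.2.2.1, mul_zero]
  · rw [hs_const_mul]; exact (hw.2.2.2 i j).const_mul t

theorem Xa.add (hw : Xa w s) (hu : Xa u t) : Xa (fun x => w x + u x) (s + t) := by
  simpa using hw.sub (hu.const_mul (-1))

theorem Xa.zero (hr : 0 ≤ r) : Xa (fun _ : E n => (0 : ℝ)) r := by
  refine ⟨C2.const 0, fun i => by rw [pd_const], rfl, fun i j => ?_⟩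
  rw [hs_const]
  exact (Hn.const 0).mono (by simpa using hr)

theorem Xa.symm_bdd (h : Xa w r) (x : E n) : (hs w x).IsSymm ∧ ∀ i j, |hs w x i j| ≤ r :=
  ⟨h.1.hs_symm x, fun i j => (h.2.2.2 i j).1 x⟩

/-- subtract the affine part at the origin -/
theorem exists_xa (hw : C2 w) (hM : HM (hs w) M) : ∃ a, Af a ∧ Xa (fun x => w x - a x) M := by
  have ha : Af fun x => w 0 + lf (fun i => pd i w 0) x := ⟨_, _, fun _ => rfl⟩
  refine ⟨_, ha, hw.sub ha.c2, fun i => ?_, by simp [lf_zero], ?_⟩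
  · rw [pd_sub hw.1 ha.c2.1, pd_add (C2.const _).1 (lf_c2 _).1, pd_const, pd_lf]
    simp
  · rw [hs_sub hw ha.c2, ha.hs]
    simpa using hM

theorem compactA {W : ℕ → E n → ℝ} (h : ∀ k, Xa (W k) M) :
    ∃ u, Xa u M ∧ ∀ x, Tendsto (fun k => W k x) UF (𝓝 (u x)) ∧
      (∀ i, Tendsto (fun k => pd i (W k) x) UF (𝓝 (pd i u x))) ∧
      ∀ i j, Tendsto (fun k => hs (W k) x i j) UF (𝓝 (hs u x i j)) := by
  choose u hu using fun x => UF_lim (s := fun k => W k x) fun k => ((h k).growth x).1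
  choose p hp using fun i x => UF_lim (s := fun k => pd i (W k) x) fun k => ((h k).growth x).2 i
  choose H hH using fun i j x => UF_lim (s := fun k => hs (W k) x i j) fun k =>
    ((h k).2.2.2 i j).1 x
  have h1 : ∀ x, DifferentiableAt ℝ u x ∧ ∀ i, pd i u x = p i x := by
    intro x
    refine diff_of_bound (C := n * (n * |M|)) one_pos fun y hy => ?_
    have h2 := (((hu (x + y)).sub (hu x)).sub
      (tendsto_finsetSum Finset.univ fun i _ => (hp i x).const_mul (y i))).abs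
    refine le_of_tendsto' h2 fun k => ?_
    have h3 := taylor_seg (x := x) (y := y) (b := n * |M| * √‖y‖) (h k).1.1
      (c := fun i => pd i (W k) x) fun i t h0 h1 => by
        have h4 := pd_lip (h k).1
          (fun x i j => (((h k).2.2.2 i j).1 x).trans (le_abs_self M)) i (x + t • y) x
        rw [add_sub_cancel_left] at h4
        refine h4.trans (mul_le_mul_of_nonneg_left ?_ (by positivity))
        exact (norm_smul_le01 y h0 h1).trans (le_sqrt_of_le_one hy)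
    refine h3.trans (le_of_eq ?_); ring
  have e1 : ∀ i, pd i u = p i := fun i => funext fun x => (h1 x).2 i
  have h2 : ∀ i x, DifferentiableAt ℝ (p i) x ∧ ∀ j, pd j (p i) x = H j i x := by
    intro i x
    refine diff_of_bound (C := n * M) one_pos fun y _ => ?_
    have h2 := (((hp i (x + y)).sub (hp i x)).sub
      (tendsto_finsetSum Finset.univ fun j _ => (hH j i x).const_mul (y j))).abs
    exact le_of_tendsto' h2 fun k =>
      taylor1 ((h k).1.2 i) (fun j a b => ((h k).2.2.2 j i).2 a b) x y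
  have e2 : ∀ x i j, hs u x i j = H i j x := fun x i j => by rw [hs_apply, e1, (h2 j x).2]
  refine ⟨u, ⟨⟨fun x => (h1 x).1, fun i x => by rw [e1]; exact (h2 i x).1⟩, fun i => ?_, ?_,
    fun i j => ⟨fun x => ?_, fun x y => ?_⟩⟩, fun x => ⟨hu x, fun i => ?_, fun i j => ?_⟩⟩
  · rw [e1]
    exact tendsto_nhds_unique ((hp i 0).congr fun k => (h k).2.1 i) tendsto_const_nhds
  · exact tendsto_nhds_unique ((hu 0).congr fun k => (h k).2.2.1) tendsto_const_nhds
  · show |hs u x i j| ≤ M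
    rw [e2]
    exact le_of_tendsto' (hH i j x).abs fun k => ((h k).2.2.2 i j).1 x
  · show |hs u x i j - hs u y i j| ≤ _
    rw [e2, e2]
    exact le_of_tendsto' ((hH i j x).sub (hH i j y)).abs fun k => ((h k).2.2.2 i j).2 x y
  · rw [e1]; exact hp i x
  · rw [e2]; exact hH i j x

end basic

theorem alin_nice {lam : ℝ} {g : E n → ℝ} (hl : 0 < lam) (hg : Continuous g) (h : PG g) {r B : ℝ}
    (hr : 0 < r) (hB : 0 ≤ B) (h2 : ∀ x y z, ‖y‖ ≤ r → ‖z‖ ≤ r → |d2 g x y z| ≤ B * ‖y‖ * ‖z‖)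
    (h3 : ∀ x y z d, ‖y‖ ≤ r → ‖z‖ ≤ r → ‖d‖ ≤ r →
      |d2 g (x + d) y z - d2 g x y z| ≤ B * ‖y‖ * ‖z‖ * √‖d‖) :
    ∃ w M a, Xa w M ∧ Af a ∧ ∀ x, Lop (fun _ => 1) (-lam) w x = g x + a x := by
  obtain ⟨hW, M, hM⟩ := bsW_C2 hl hg h hr hB h2 h3
  obtain ⟨a, ha, hX⟩ := exists_xa hW hM
  refine ⟨_, _, _, hX.const_mul (-1), ha.lop (fun _ => 1) (-lam), fun x => ?_⟩
  rw [Lop_const_mul, Lop_sub _ _ hW ha.c2, bsW_eq hl hg h hW hM]
  ring

theorem alin_moll {lam : ℝ} (hl : 0 < lam) {g : E n → ℝ} {N e : ℝ} (hg : Yn g N)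
    (e0 : 0 < e) (e1 : e ≤ 1) : Yn (Ps g (e ^ 2 • 1) 1) N ∧
      ∃ w M a, Xa w M ∧ Af a ∧
        ∀ x, Lop (fun _ => 1) (-lam) w x = Ps g (e ^ 2 • 1) 1 x + a x := by
  have hc := hg.continuous
  obtain ⟨hN, g1, g2, rfl, h1, c2, p2, h2⟩ := hg
  have c1 := h1.continuous
  have p1 := h1.pg
  have hS : (e ^ 2 • (1 : Mat n)).PosSemidef := bs_psd (by positivity)
  have es : Ps (g1 + g2) (e ^ 2 • (1 : Mat n)) 1
      = Ps g1 (e ^ 2 • 1) 1 + Ps g2 (e ^ 2 • 1) 1 := funext fun x => Ps_add c1 p1 c2 p2 _ _ x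
  have b2 : ∀ x y z, |d2 (Ps g2 (e ^ 2 • (1 : Mat n)) 1) x y z| ≤ N * ‖y‖ * ‖z‖ := fun x y z => by
    rw [Ps_d2 c2 p2, inv_one, one_smul, one_smul]
    exact Ps_abs_le (fun ξ => h2 ξ y z) _ _ _
  have hY : Yn (Ps (g1 + g2) (e ^ 2 • 1) 1) N := by
    refine ⟨hN, _, _, es, fun x y => ?_, continuous_Ps c2 p2 (fun _ => hS) continuous_const
      (fun _ => le_rfl) continuous_const continuous_id, ?_, b2⟩
    · have := bs_Ps_diff c1 p1 (e ^ 2 • (1 : Mat n)) 1 y (x - y)
      rw [add_sub_cancel] at this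
      rw [this]
      refine Ps_abs_le (fun ξ => ?_) _ _ _
      have := h1 (ξ + (1 : ℝ)⁻¹ • (x - y)) ξ
      simpa using this
    · obtain ⟨C, k, -, hb⟩ := bs_bound p2
      exact ⟨C, k, fun x => hb _ _ x (by positivity) le_rfl (by nlinarith)⟩
  have hm : ∀ x h, |g1 ((1 : ℝ)⁻¹ • x + h) - g1 x| ≤ N * md ‖h‖ := fun x h => by
    simpa using h1 (x + h) x
  have hI := one_le_Ic (n := n)
  have hmd := md_nonneg (e / 1)
  have hse : 0 < √e := Real.sqrt_pos.2 e0
  set A := 8 * Ic n * N * md (e / 1) / e ^ 2 + Ic n * N with hA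
  have hA0 : 0 ≤ A := by positivity
  have ed : ∀ x y z, d2 (Ps (g1 + g2) (e ^ 2 • (1 : Mat n)) 1) x y z
      = d2 (Ps g1 (e ^ 2 • 1) 1) x y z + d2 (Ps g2 (e ^ 2 • 1) 1) x y z := fun x y z => by
    rw [es]; simp only [d2, Pi.add_apply]; ring
  refine ⟨hY, alin_nice (B := A + A / √e) hl hY.continuous hY.pg e0
    (by positivity) (fun x y z hy hz => ?_) fun x y z d hy hz hd => ?_⟩
  · rw [ed]
    refine (aadd (kern2 c1 p1 hS e0 e0.le one_pos hN (fun v => (bs_quad e v).ge)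
      (fun v => (bs_quad e v).le) (hm x) hy hz) (b2 x y z)).trans ?_
    calc _ = (2 * Ic n * N * md (e / 1) / e ^ 2 + 1 * N + 0) * ‖y‖ * ‖z‖ := by field_simp; ring
      _ ≤ _ := by
        rw [hA]
        gcongr
        · norm_num
        · positivity
  · have hde : ‖d‖ / e ≤ √‖d‖ / √e := by
      rw [← Real.sqrt_div (norm_nonneg d)]
      exact le_sqrt_of_le_one ((div_le_one e0).2 hd)
    have k3 := kern3 c1 p1 hS e0 e0.le one_pos hN (fun v => (bs_quad e v).ge)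
      (fun v => (bs_quad e v).le) (hm x) hy hz hd
    have k1 := kern1 (s := 1) (x := x) (bs_d2_cont c2 y z) hS e0 (fun v => (bs_quad e v).ge)
      (fun ξ => h2 ξ y z) hd
    rw [ed, ed, Ps_d2 c2 p2, Ps_d2 c2 p2, inv_one, one_smul, one_smul]
    refine le_trans (le_of_eq (congrArg _ (by ring))) ((aadd k3 k1).trans ?_)
    calc _ = A * ‖y‖ * ‖z‖ * (‖d‖ / e) := by rw [hA]; field_simp
      _ ≤ A * ‖y‖ * ‖z‖ * (√‖d‖ / √e) := by gcongr
      _ = (0 + A / √e) * ‖y‖ * ‖z‖ * √‖d‖ := by ring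
      _ ≤ _ := by gcongr

theorem sv_base {lam C : ℝ} (hl : 0 < lam) (h : Ap (fun _ : E n => 1) (-lam) C) :
    Sv (fun _ : E n => 1) (-lam) := by
  intro g N hg
  have H := fun k : ℕ => alin_moll (e := 1 / ((k : ℝ) + 1)) hl hg (by positivity)
    (by rw [div_le_one (by positivity)]; linarith [(Nat.cast_nonneg k : (0 : ℝ) ≤ k)])
  choose w M b hX hb hL using fun k => (H k).2
  have hX' : ∀ k, Xa (w k) (C * N) := fun k =>
    ⟨(hX k).1, (hX k).2.1, (hX k).2.2.1, h _ _ _ (hX k) (by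
      rw [funext (hL k)]; exact yn_af (H k).1 (hb k))⟩
  obtain ⟨u, hu, hlim⟩ := compactA hX'
  have t1 : ∀ x, Tendsto (fun k => Lop (fun _ => 1) (-lam) (w k) x) UF
      (𝓝 (Lop (fun _ => 1) (-lam) u x)) := fun x =>
    Lop_tendsto (κ := fun _ => -lam) tendsto_const_nhds (hlim x).1 (hlim x).2.1 (hlim x).2.2
  have t2 : ∀ x, Tendsto (fun k : ℕ => Ps g ((1 / ((k : ℝ) + 1)) ^ 2 • (1 : Mat n)) 1 x) UF
      (𝓝 (g x)) := fun x => by
    have c : Continuous fun e : ℝ => Ps g (e ^ 2 • (1 : Mat n)) 1 x :=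
      continuous_Ps hg.continuous hg.pg (fun e => bs_psd (by positivity)) (by fun_prop)
        (fun _ => le_rfl) continuous_const continuous_const
    have := (c.tendsto 0).comp (tendsto_one_div_add_atTop_nhds_zero_nat.mono_left UF_le)
    rw [zero_pow two_ne_zero, bs_zero] at this
    exact this
  refine ⟨u, _, fun x => Lop (fun _ => 1) (-lam) u x - g x, hu, Af.lim (F := UF) hb fun x =>
    ((t1 x).sub (t2 x)).congr fun k => by rw [hL k]; ring, fun x => by ring⟩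

theorem fixed_pointA {A : E n → Mat n} {κ C r : ℝ} (hS : Sv A κ) (hAP : Ap A κ C) (hC : 0 < C)
    (hr : 0 ≤ r) (φ : E n → ℝ → Mat n → ℝ)
    (hφ : ∀ x, ContinuousOn (fun p : ℝ × Mat n => φ x p.1 p.2)
      {p | p.2.IsSymm ∧ ∀ i j, |p.2 i j| ≤ r})
    (h1 : ∀ w, Xa w r → Yn (fun x => φ x (w x) (hs w x)) (r / C))
    (h2 : ∀ w u M, 0 ≤ M → Xa w r → Xa u r → HM (fun x => hs w x - hs u x) M →
      Yn (fun x => φ x (w x) (hs w x) - φ x (u x) (hs u x)) (M / (2 * C))) :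
    ∃ w a, Xa w r ∧ Af a ∧ ∀ x, Lop A κ w x = φ x (w x) (hs w x) + a x := by
  have step : ∀ w : {w : E n → ℝ // Xa w r}, ∃ (w' : {w : E n → ℝ // Xa w r}) (a : E n → ℝ),
      Af a ∧ ∀ x, Lop A κ w'.1 x = φ x (w.1 x) (hs w.1 x) + a x := by
    rintro ⟨w, hw⟩
    obtain ⟨w', M, b, hX, hb, he⟩ := hS _ _ (h1 w hw)
    have h3 := hAP w' M (r / C) hX (by rw [funext he]; exact yn_af (h1 w hw) hb)
    rw [mul_div_cancel₀ _ hC.ne'] at h3
    exact ⟨⟨w', hX.1, hX.2.1, hX.2.2.1, h3⟩, b, hb, he⟩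
  choose T b hb hT using step
  let V : ℕ → {w : E n → ℝ // Xa w r} := fun k => T^[k] ⟨_, Xa.zero hr⟩
  have hV : ∀ k, V (k + 1) = T (V k) := fun k => Function.iterate_succ_apply' T k _
  have hVe : ∀ k x, Lop A κ (V (k + 1)).1 x = φ x ((V k).1 x) (hs (V k).1 x) + b (V k) x :=
    fun k x => by rw [hV]; exact hT _ x
  have hd : ∀ k, Xa (fun x => (V (k + 1)).1 x - (V k).1 x) (2 * r * (1 / 2) ^ k) := by
    intro k
    induction k with
    | zero => simpa [two_mul] using (V 1).2.sub (V 0).2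
    | succ k ih =>
      have hX := (V (k + 1 + 1)).2.sub (V (k + 1)).2
      have h3 := h2 _ _ (2 * r * (1 / 2) ^ k) (by positivity) (V (k + 1)).2 (V k).2 (by
        have := ih.2.2.2
        rwa [hs_sub (V (k + 1)).2.1 (V k).2.1] at this)
      have h4 := hAP _ _ _ hX (by
        have e : Lop A κ (fun x => (V (k + 1 + 1)).1 x - (V (k + 1)).1 x) = fun x =>
            φ x ((V (k + 1)).1 x) (hs (V (k + 1)).1 x) - φ x ((V k).1 x) (hs (V k).1 x) +
              (b (V (k + 1)) x - b (V k) x) := by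
          funext x
          rw [Lop_sub A κ (V _).2.1 (V _).2.1, hVe, hVe]
          ring
        rw [e]
        exact yn_af h3 ((hb _).sub (hb _)))
      refine ⟨hX.1, hX.2.1, hX.2.2.1, h4.mono (le_of_eq ?_)⟩
      rw [pow_succ]
      field_simp
  obtain ⟨u, hu, hlim⟩ := compactA (W := fun k => (V k).1) fun k => (V k).2
  have hz : ∀ a : ℝ, Tendsto (fun k : ℕ => a * (2 * r * (1 / 2) ^ k)) atTop (𝓝 0) := fun a => by
    simpa using ((tendsto_pow_atTop_nhds_zero_of_lt_one (r := (1 / 2 : ℝ)) (by norm_num)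
      (by norm_num)).const_mul (2 * r)).const_mul a
  have hL : ∀ x, Tendsto (fun k => Lop A κ (V (k + 1)).1 x) UF (𝓝 (Lop A κ u x)) := fun x => by
    refine Lop_tendsto (κ := fun _ => κ) (W := fun k => (V (k + 1)).1) tendsto_const_nhds
      (tendsto_of_close UF_le (hlim x).1 (hz (n ^ 2 * ‖x‖ ^ 2)) fun k => ?_)
      (fun i => tendsto_of_close UF_le ((hlim x).2.1 i) (hz (n * ‖x‖)) fun k => ?_)
      (fun i j => tendsto_of_close UF_le ((hlim x).2.2 i j) (hz 1) fun k => ?_)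
    · exact ((hd k).growth x).1.trans (le_of_eq (by ring))
    · have := ((hd k).growth x).2 i
      rw [pd_sub (V _).2.1.1 (V _).2.1.1] at this
      exact this.trans (le_of_eq (by ring))
    · have := ((hd k).2.2.2 i j).1 x
      rw [hs_sub (V _).2.1 (V _).2.1] at this
      rw [one_mul]
      exact this
  have hP : ∀ x, Tendsto (fun k => φ x ((V k).1 x) (hs (V k).1 x)) UF
      (𝓝 (φ x (u x) (hs u x))) := fun x => by
    have h3 : Tendsto (fun k => ((V k).1 x, hs (V k).1 x)) UF (𝓝 (u x, hs u x)) :=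
      (hlim x).1.prodMk_nhds (tendsto_pi_nhds.2 fun i => tendsto_pi_nhds.2 fun j =>
        (hlim x).2.2 i j)
    exact (hφ x (u x, hs u x) (hu.symm_bdd x)).tendsto.comp
      (tendsto_nhdsWithin_iff.2 ⟨h3, Eventually.of_forall fun k => (V k).2.symm_bdd x⟩)
  refine ⟨u, fun x => Lop A κ u x - φ x (u x) (hs u x), hu,
    Af.lim (F := UF) (s := fun k => b (V k)) (fun k => hb _) fun x =>
      ((hL x).sub (hP x)).congr fun k => by rw [hVe]; ring, fun x => by ring⟩

theorem sv_step {A D : E n → Mat n} {κ t C K s : ℝ} (hC : 0 < C) (hK : 0 ≤ K) (hD : HM D K)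
    (hS : Sv A κ) (hAP : Ap A κ C)
    (hs' : |s| * (2 * n ^ 2 * K + |t| * n ^ 2) * (2 * C) ≤ 1) :
    Sv (fun x => A x + s • D x) (κ + s * t) := by
  intro g N hg
  have hN := hg.1
  set L := 2 * (n : ℝ) ^ 2 * K + |t| * n ^ 2 with hL
  have hb : ∀ M, 0 ≤ M → |-s| * (L * M) ≤ M / (2 * C) := fun M hM => by
    rw [abs_neg, le_div_iff₀ (by positivity)]
    nlinarith [mul_le_mul_of_nonneg_right hs' hM]
  obtain ⟨w, b, hw, hb', he⟩ := fixed_pointA hS hAP hC (r := 2 * C * N) (by positivity)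
    (fun x a T => g x + -s * (∑ i, ∑ j, D x i j * T i j + t * a))
    (fun x => by fun_prop)
    (fun w hw => by
      refine (hg.add ((yn_lin hK hD hw.1 (by positivity) hw.2.2.2).const_mul (-s))).mono ?_
      have h1 := hb (2 * C * N) (by positivity)
      have h2 : 2 * C * N / (2 * C) = N := by field_simp
      have h3 : 2 * C * N / C = 2 * N := by field_simp
      rw [h3]
      linarith)
    (fun w u M hM hw hu h => by
      rw [← hs_sub hw.1 hu.1] at h
      have h1 := ((yn_lin (t := t) hK hD (hw.1.sub hu.1) hM h).const_mul (-s)).mono (hb M hM)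
      rw [hs_sub hw.1 hu.1] at h1
      have e : (fun x => g x + -s * (∑ i, ∑ j, D x i j * hs w x i j + t * w x) -
          (g x + -s * (∑ i, ∑ j, D x i j * hs u x i j + t * u x))) = fun x =>
          -s * (∑ i, ∑ j, D x i j * (hs w x - hs u x) i j + t * (w x - u x)) := by
        funext x
        simp only [Matrix.sub_apply, mul_sub, Finset.sum_sub_distrib]
        ring
      rw [e]
      exact h1)
  refine ⟨w, _, b, hw, hb', fun x => ?_⟩
  have h1 := he x
  have h2 : ∑ i, ∑ j, (A x + s • D x) i j * hs w x i j =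
      ∑ i, ∑ j, A x i j * hs w x i j + s * ∑ i, ∑ j, D x i j * hs w x i j := by
    simp only [Matrix.add_apply, Matrix.smul_apply, smul_eq_mul, add_mul, Finset.sum_add_distrib,
      Finset.mul_sum, mul_assoc]
  simp only [Lop] at h1 ⊢
  rw [h2]
  linarith

theorem sv_of_path {A B : E n → Mat n} {κ0 κ1 C K : ℝ} (hC : 0 < C) (hK : 0 ≤ K)
    (hA : HM A K) (hB : HM B K)
    (hAP : ∀ θ : ℝ, 0 ≤ θ → θ ≤ 1 →
      Ap (fun x => (1 - θ) • A x + θ • B x) ((1 - θ) * κ0 + θ * κ1) C)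
    (h0 : Sv A κ0) : Sv B κ1 := by
  obtain ⟨m, hm⟩ := exists_nat_gt ((2 * n ^ 2 * (K + K) + |κ1 - κ0| * n ^ 2) * (2 * C))
  have hm0 : (0 : ℝ) < m := lt_of_le_of_lt (by positivity) hm
  have key : ∀ j : ℕ, j ≤ m → Sv (fun x => (1 - (j : ℝ) / m) • A x + ((j : ℝ) / m) • B x)
      ((1 - (j : ℝ) / m) * κ0 + (j : ℝ) / m * κ1) := by
    intro j
    induction j with
    | zero => intro _; simpa using h0
    | succ j ih =>
      intro hj
      have hj' : (j : ℝ) ≤ m := by exact_mod_cast (Nat.le_succ j).trans hj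
      have h1 := sv_step (t := κ1 - κ0) (s := 1 / m) hC (by positivity) (hB.sub' hA)
        (ih (by omega)) (hAP _ (by positivity) ((div_le_one hm0).2 hj')) (by
          rw [abs_of_pos (by positivity), mul_assoc, one_div, inv_mul_le_iff₀ hm0]
          linarith)
      have e1 : (fun x => (1 - ((j + 1 : ℕ) : ℝ) / m) • A x + (((j + 1 : ℕ) : ℝ) / m) • B x) =
          fun x => (1 - (j : ℝ) / m) • A x + ((j : ℝ) / m) • B x + (1 / (m : ℝ)) • (B x - A x) := by
        funext x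
        ext i j
        simp only [Matrix.add_apply, Matrix.smul_apply, Matrix.sub_apply, smul_eq_mul]
        push_cast
        ring
      have e2 : (1 - ((j + 1 : ℕ) : ℝ) / m) * κ0 + ((j + 1 : ℕ) : ℝ) / m * κ1 =
          (1 - (j : ℝ) / m) * κ0 + (j : ℝ) / m * κ1 + 1 / m * (κ1 - κ0) := by
        push_cast
        ring
      rw [e1, e2]
      exact h1
  simpa [div_self hm0.ne'] using key m le_rfl

theorem normalize_badA {A : E n → Mat n} {κ C : ℝ} (hC : 0 < C) (h : ¬ Ap A κ C) :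
    ∃ W : E n → ℝ, Xa W 1 ∧ Yn (Lop A κ W) (1 / C) ∧ ∀ M, 0 ≤ M → HM (hs W) M → 1 ≤ M := by
  simp only [Ap, not_forall] at h
  obtain ⟨w, M, N, hX, hY, hbad⟩ := h
  obtain ⟨m, -, hm, hmin⟩ := HM.exists_min ⟨M, hX.2.2.2⟩
  have hN := hY.1
  have h1 : C * N < m := not_le.1 fun h => hbad (hm.mono h)
  have hm0 : 0 < m := lt_of_le_of_lt (by positivity) h1
  have hX' : Xa w m := ⟨hX.1, hX.2.1, hX.2.2.1, hm⟩
  refine ⟨fun x => m⁻¹ * w x, ?_, ?_, fun M' hM' h => ?_⟩
  · have := hX'.const_mul m⁻¹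
    rwa [abs_of_pos (inv_pos.2 hm0), inv_mul_cancel₀ hm0.ne'] at this
  · rw [funext (Lop_const_mul A κ m⁻¹ w)]
    refine (hY.const_mul m⁻¹).mono ?_
    rw [abs_of_pos (inv_pos.2 hm0), inv_mul_le_iff₀ hm0, mul_one_div, le_div_iff₀ hC]
    linarith
  · have h2 : HM (hs w) (m * M') := fun i j => by
      have := (h i j).const_mul m
      rw [hs_const_mul, abs_of_pos hm0] at this
      simpa [mul_inv_cancel_left₀ hm0.ne'] using this
    have h3 := hmin _ (by positivity) h2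
    nlinarith

theorem yn_d2 {g : E n → ℝ} {N : ℝ} (h : Yn g N) (x y z : E n) :
    |d2 g x y z| ≤ N * (2 * md ‖z‖ + ‖y‖ * ‖z‖) := by
  obtain ⟨hN, g1, g2, rfl, h1, -, -, h2⟩ := h
  have t1 := h1 (x + y + z) (x + y)
  have t2 := h1 (x + z) x
  have t3 := h2 x y z
  simp only [add_sub_cancel_left] at t1 t2
  simp only [d2, Pi.add_apply] at t3 ⊢
  rw [abs_le] at t1 t2 t3 ⊢
  constructor <;> nlinarith [t1.1, t1.2, t2.1, t2.2, t3.1, t3.2]

theorem uniform_Ap {A : E n → Mat n} {c lam : ℝ} (hc : 0 < c) (hA : Ell A c)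
    (hk : ∀ k i j, Hk k fun x => A x i j)
    (hdec : ∀ ε : ℝ, 0 < ε → ∃ R : ℝ, ∀ p h i j, R ≤ ‖p‖ →
      |A (p + h) i j - A p i j| ≤ ε * md ‖h‖)
    (hker : ∀ (h a : E n → ℝ) (κ : ℝ), κ ≤ 1 → C2 h → (∀ k i j, Hk k fun x => hs h x i j) → Af a →
      (∀ x, Lop A κ h x = a x) → ∀ x, hs h x = 0) :
    ∃ C, 0 < C ∧ ∀ κ, -lam ≤ κ → κ ≤ 1 → Ap A κ C := by
  obtain ⟨K, hK0, hK⟩ := exists_HM fun i j => (hk 0 i j).hn
  obtain ⟨Ch, hCh, hH⟩ := schauder_hol n hc hK0
  obtain ⟨Cf, hCf, hF⟩ := schauder_far n hc hK0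
  obtain ⟨η, q, hη, hq, hF⟩ := hF (1 / (4 * Ch)) (by positivity)
  obtain ⟨R, hR⟩ := hdec η hη
  by_contra hcon
  push Not at hcon
  have hpos : ∀ k : ℕ, (0 : ℝ) < k + 1 + 2 * Ch * (1 + Cf) := fun k => by positivity
  choose κ hκ1 hκ2 hbad using fun k : ℕ => hcon _ (hpos k)
  choose W hW hY hmin using fun k : ℕ => normalize_badA (hpos k) (hbad k)
  have hz : ∀ k, ∃ z : E n, ‖z‖ ≤ |R| / q ∧ 1 / (4 * Ch) ≤ ∑ i, ∑ j, |hs (W k) z i j| := by
    intro k
    by_contra hno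
    push Not at hno
    set N := 1 / ((k : ℝ) + 1 + 2 * Ch * (1 + Cf)) with hN
    have hN0 : 0 < N := one_div_pos.2 (hpos k)
    have h1 : ∀ x i j, |hs (W k) x i j| ≤ Cf * N + 1 / (4 * Ch) := by
      intro x i j
      rcases le_total ‖x‖ (|R| / q) with hx | hx
      · have h2 := hno x hx
        have h3 : |hs (W k) x i j| ≤ ∑ i, ∑ j, |hs (W k) x i j| :=
          (Finset.single_le_sum (fun j _ => abs_nonneg (hs (W k) x i j)) (Finset.mem_univ j)).trans
            (Finset.single_le_sum (f := fun i => ∑ j, |hs (W k) x i j|)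
              (fun i _ => Finset.sum_nonneg fun j _ => abs_nonneg _) (Finset.mem_univ i))
        have h4 : 0 ≤ Cf * N := by positivity
        linarith
      · have h2 := hF A (W k) (κ k) N 1 x hA hK (hκ2 k) (hW k).1 ⟨1, (hW k).2.2.2⟩ (hY k)
          zero_le_one (fun x i j => ((hW k).2.2.2 i j).1 x) (fun s hs _ h i j => hR _ _ _ _ (by
            rw [norm_smul, Real.norm_eq_abs, abs_of_pos (hq.trans_le hs)]
            rw [div_le_iff₀ hq] at hx
            have := le_abs_self R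
            nlinarith [norm_nonneg x])) i j
        rwa [mul_one] at h2
    have h2 := hmin k _ (by positivity) (hH A (W k) (κ k) N _ hA hK (hκ2 k) (hW k).1
      ⟨1, (hW k).2.2.2⟩ (hY k) (by positivity) h1)
    have h3 : Ch * (N + (Cf * N + 1 / (4 * Ch))) = Ch * (1 + Cf) * N + 1 / 4 := by
      field_simp; ring
    have h4 : Ch * (1 + Cf) * N ≤ 1 / 2 := by
      rw [hN, mul_one_div, div_le_iff₀ (hpos k)]
      have : (0 : ℝ) ≤ k := Nat.cast_nonneg k
      linarith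
    linarith
  choose z hz1 hz2 using hz
  obtain ⟨u, hu, hlim⟩ := compactA hW
  obtain ⟨z', hz'⟩ := UF_limE hz1
  obtain ⟨κ', hκ'⟩ := UF_lim (s := κ) (b := |lam| + 1) fun k => by
    have := hκ1 k
    have := hκ2 k
    have := le_abs_self lam
    have := abs_nonneg lam
    rw [abs_le]; constructor <;> linarith
  have hL : ∀ x, Tendsto (fun k => Lop A (κ k) (W k) x) UF (𝓝 (Lop A κ' u x)) := fun x =>
    Lop_tendsto hκ' (hlim x).1 (hlim x).2.1 (hlim x).2.2
  have hN : Tendsto (fun k : ℕ => 1 / ((k : ℝ) + 1 + 2 * Ch * (1 + Cf))) atTop (𝓝 0) :=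
    tendsto_const_nhds.div_atTop (tendsto_atTop_add_const_right _ _
      (tendsto_atTop_add_const_right _ _ tendsto_natCast_atTop_atTop))
  have hcont : Continuous (Lop A κ' u) :=
    ((continuous_finsetSum _ fun i _ => continuous_finsetSum _ fun j _ =>
      (hK i j).continuous.mul (hu.2.2.2 i j).continuous).sub
      (continuous_finsetSum _ fun i _ => (differentiable_coord i).continuous.mul
        (hu.1.2 i).continuous)).add (continuous_const.mul hu.1.1.continuous)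
  have haf : Af (Lop A κ' u) := af_of_d2 hcont fun x y z =>
    tendsto_nhds_unique ((((hL _).sub (hL _)).sub (hL _)).add (hL _))
      (squeeze_zero_norm (fun k => yn_d2 (hY k) x y z) (by
        simpa using (hN.mul_const (2 * md ‖z‖ + ‖y‖ * ‖z‖)).mono_left UF_le))
  have hzero := hker u _ κ' (le_of_tendsto' hκ' hκ2) hu.1
    (fun k => reg_lin k hc hA (hk k) (haf.mk k) hu.1 ⟨1, hu.2.2.2⟩ fun _ => rfl) haf
    (fun _ => rfl) z'
  have hsq : Tendsto (fun k => √‖z k - z'‖) UF (𝓝 0) := by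
    have := (tendsto_iff_norm_sub_tendsto_zero.1 hz').sqrt
    simpa using this
  have hfin : Tendsto (fun k => ∑ i, ∑ j, |hs (W k) (z k) i j|) UF (𝓝 (∑ _i : Fin n, ∑ _j : Fin n,
      |(0 : ℝ)|)) := by
    refine tendsto_finsetSum _ fun i _ => tendsto_finsetSum _ fun j _ => Tendsto.abs ?_
    have h1 := (hlim z').2.2 i j
    rw [hzero] at h1
    have h2 : Tendsto (fun k => hs (W k) (z k) i j - hs (W k) z' i j) UF (𝓝 0) :=
      squeeze_zero_norm (fun k => by simpa using ((hW k).2.2.2 i j).2 (z k) z') hsq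
    simpa using h1.add h2
  have h5 := ge_of_tendsto' hfin hz2
  have h6 : 0 < 1 / (4 * Ch) := by positivity
  simp only [abs_zero, Finset.sum_const_zero] at h5
  linarith

theorem sv_main {A : E n → Mat n} {c : ℝ} (hc : 0 < c) (hA : Ell A c)
    (hk : ∀ k i j, Hk k fun x => A x i j)
    (hdec : ∀ ε : ℝ, 0 < ε → ∃ R : ℝ, ∀ p h i j, R ≤ ‖p‖ →
      |A (p + h) i j - A p i j| ≤ ε * md ‖h‖)
    (hker : ∀ (h a : E n → ℝ) (κ : ℝ), κ ≤ 1 → C2 h → (∀ k i j, Hk k fun x => hs h x i j) → Af a →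
      (∀ x, Lop A κ h x = a x) → ∀ x, hs h x = 0) :
    Sv A 0 ∧ Sv A 1 ∧ ∃ C, 0 < C ∧ Ap A 1 C := by
  obtain ⟨K, hK0, hK⟩ := exists_HM fun i j => (hk 0 i j).hn
  have hK1 : 0 ≤ max K 1 := hK0.trans (le_max_left _ _)
  obtain ⟨lam, C, hlam, hC, hS⟩ := schauder_neg n (lt_min hc one_pos) hK1
  have hE1 : Ell (fun _ : E n => (1 : Mat n)) (min c 1) := Ell_one.mono (min_le_right _ _)
  have hH1 : HM (fun _ : E n => (1 : Mat n)) (max K 1) := HM_one.mono (le_max_right _ _)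
  have hK' : HM A (max K 1) := hK.mono (le_max_left _ _)
  have h0 : Sv A (-lam) := sv_of_path hC hK1 hH1 hK'
    (fun θ h0 h1 w M N hX hY => hS _ w _ N (hE1.comb (hA.mono (min_le_left _ _)) h0 h1)
      (hH1.comb hK' h0 h1) (le_of_eq (by ring)) hX.1 ⟨M, hX.2.2.2⟩ hY)
    (sv_base hlam fun w M N hX hY => hS _ w _ N hE1 hH1 le_rfl hX.1 ⟨M, hX.2.2.2⟩ hY)
  obtain ⟨C', hC', hAP⟩ := uniform_Ap (lam := lam) hc hA hk hdec hker
  have key : ∀ t, 0 ≤ t → t ≤ 1 → Sv A t := fun t ht0 ht1 =>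
    sv_of_path hC' hK0 hK hK (fun θ h0 h1 => by
      have e : (fun x => (1 - θ) • A x + θ • A x) = A := by
        funext x; rw [← add_smul]; simp
      rw [e]
      exact hAP _ (by nlinarith) (by nlinarith)) h0
  exact ⟨key 0 le_rfl zero_le_one, key 1 zero_le_one le_rfl, C', hC',
    hAP 1 (by linarith) le_rfl⟩

end Vale.Agent.P254
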