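import Vale.Agent.P227.AlgVar
import Vale.Agent.P227.AlgMax

/-! Symmetry of the operator `L` of a setup. -/

set_option linter.all false

namespace Vale.Agent.P254

open Matrix Vale.Agent.P227

variable {n : ℕ} {R X : Type} [CommRing R] [Algebra ℝ R] (S : Setup n R X)

theorem d_alg (i : Fin n) (b : ℝ) : S.d i (algebraMap ℝ R b) = 0 := (S.d i).map_algebraMap b

theorem L_x (i : Fin n) : S.L (S.x i) = -S.x i := by
  have h : ∀ a b, S.D2 (S.x i) a b = 0 := fun a b => by
    rw [Setup.D2, S.dx]
    split_ifs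
    · exact (S.d a).map_one_eq_zero
    · exact map_zero _
  simp only [Setup.L, h, mul_zero, Finset.sum_const_zero, zero_sub, Setup.eul, S.dx, mul_ite,
    mul_one, Finset.sum_ite_eq', Finset.mem_univ, if_true]

theorem Ex_x (i : Fin n) : S.Ex (S.x i) = 0 := by
  have := S.Ex_L (S.x i)
  rwa [L_x, map_neg, neg_eq_zero] at this

theorem Gam_symm (f g : R) : S.mxΓ f g = S.mxΓ g f := by
  unfold Setup.mxΓ
  rw [Finset.sum_comm]
  exact Finset.sum_congr rfl fun i _ => Finset.sum_congr rfl fun j _ => by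
    rw [S.mx_H_symm j i]; ring

theorem Ex_L_mul (f g : R) : S.Ex (S.L f * g) = -S.Ex (S.mxΓ f g) := by
  rw [S.av_L, neg_mul, map_neg, dv_adj S.Ex S.avD S.x S.av_ibpD]
  congr 2
  simp only [S.avD_apply, Finset.mul_sum, Setup.mxΓ]
  exact Finset.sum_congr rfl fun i _ => Finset.sum_congr rfl fun j _ => by ring

theorem L_symm (f g : R) : S.Ex (S.L f * g) = S.Ex (f * S.L g) := by
  rw [mul_comm f, Ex_L_mul, Ex_L_mul, Gam_symm]

theorem Ex_sq_nonneg (f : R) : 0 ≤ S.Ex (f * f) :=
  S.pos _ fun p => by rw [map_mul]; exact mul_self_nonneg _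

theorem Gam_nonneg (f : R) : 0 ≤ S.Ex (S.mxΓ f f) := by
  have := S.avPsd_H.form fun i => S.d i f
  refine this.trans (le_of_eq ?_)
  congr 1
  simp only [dotProduct, mulVec, Finset.mul_sum, Setup.mxΓ]
  exact Finset.sum_congr rfl fun i _ => Finset.sum_congr rfl fun j _ => by ring

/-- an eigenfunction equation with affine right side has no linear part -/
theorem lin_part {h l : R} {b : ℝ} (hl : S.L l = -l)
    (he : S.L h + h = algebraMap ℝ R b + l) : S.Ex (l * l) = 0 := by
  have h0 : S.Ex l = 0 := by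
    have := S.Ex_L l
    rwa [hl, map_neg, neg_eq_zero] at this
  have h1 := congrArg (fun f => S.Ex (f * l)) he
  simp only [add_mul, map_add, L_symm, hl, mul_neg, map_neg, neg_add_cancel,
    ← Algebra.smul_def, map_smul, h0, smul_zero, zero_add] at h1
  exact h1.symm

end Vale.Agent.P254
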