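import Vale.Agent.P254.GdL
import Vale.Agent.P227.Final3

/-! Approximation of a tilted uniform measure by smooth potentials. -/

set_option linter.all false

namespace Vale.Agent.P254

open Matrix MeasureTheory Filter Topology Set Vale.Agent.P227

variable {n : ℕ}

/-- Take a dense sequence `c` (`TopologicalSpace.denseSeq`) and let `ρ k` be the largest distance
from `c k` to a point of `K` (positive because `K` has two different points). For `y ∉ K`
separate (`geometric_hahn_banach_closed_point`), `u` the Riesz vector: `p = - M • u` has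
`‖y - p‖ ^ 2 - ‖x - p‖ ^ 2 ≥ 1` for all `x ∈ K` if `M` is large, hence `‖x - p‖ + e ≤ ‖y - p‖` on `K`
for some `e > 0`, and this survives a move of `p` by less than `e / 2`. -/
theorem body_balls {K : Set (E n)} (hn : 0 < n) (hK : Body K) : ∃ (c : ℕ → E n) (ρ : ℕ → ℝ),
    (∀ k, 0 < ρ k) ∧ ∀ x, x ∈ K ↔ ∀ k, ‖x - c k‖ ≤ ρ k := by
  have hne : K.Nonempty := hK.2.2.mono interior_subset
  have h1 : ∀ p : E n, ∃ z ∈ K, ∀ x ∈ K, ‖x - p‖ ≤ ‖z - p‖ := fun p =>
    hK.1.exists_isMaxOn hne (f := fun x => ‖x - p‖) (by fun_prop)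
  choose z hz hmax using h1
  refine ⟨TopologicalSpace.denseSeq (E n),
    fun k => ‖z (TopologicalSpace.denseSeq (E n) k) - TopologicalSpace.denseSeq (E n) k‖,
    fun k => ?_, fun y => ⟨fun hy k => hmax _ y hy, fun h => by_contra fun hy => ?_⟩⟩
  · simp only
    generalize TopologicalSpace.denseSeq (E n) k = p
    refine lt_of_not_ge fun h0 => ?_
    have : Nonempty (Fin n) := ⟨⟨0, hn⟩⟩
    have := Module.punctured_nhds_neBot ℝ (E n) p
    have h2 : K ⊆ {p} := fun x hx =>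
      sub_eq_zero.1 (norm_le_zero_iff.1 ((hmax p x hx).trans h0))
    have h3 := hK.2.2.mono (interior_mono h2)
    rw [interior_singleton] at h3
    exact Set.not_nonempty_empty h3
  · obtain ⟨f, u, hf, hu⟩ := geometric_hahn_banach_closed_point hK.2.1 hK.1.isClosed hy
    obtain ⟨D, hD⟩ : ∃ D, D = ‖z y - y‖ := ⟨_, rfl⟩
    have hD0 : 0 ≤ D := hD ▸ norm_nonneg _
    obtain ⟨M, hM0, hM⟩ : ∃ M : ℝ, 0 ≤ M ∧ M * (f y - u) = D ^ 2 + 2 * D + 1 :=
      ⟨(D ^ 2 + 2 * D + 1) / (f y - u), div_nonneg (by positivity) (by linarith),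
        div_mul_cancel₀ _ (by linarith)⟩
    obtain ⟨w, hw⟩ : ∃ w : E n, ∀ v, inner ℝ w v = f v :=
      ⟨(InnerProductSpace.toDual ℝ (E n)).symm f, fun v => InnerProductSpace.toDual_symm_apply⟩
    obtain ⟨k, hk⟩ := (TopologicalSpace.denseRange_denseSeq (E n)).exists_dist_lt
      (y - M • w) one_pos
    have h2 := h k
    simp only at h2
    generalize TopologicalSpace.denseSeq (E n) k = c at hk h2
    have h3 := hmax y _ (hz c)
    have h4 := hf _ (hz c)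
    generalize z c = x at h2 h3 h4
    rw [dist_eq_norm] at hk
    rw [← hD] at h3
    have e1 : x - c = (y - c) + (x - y) := by abel
    have e2 : y - c = M • w + (y - M • w - c) := by abel
    have e3 : inner ℝ (y - c) (x - y) = M * (f x - f y) + inner ℝ (y - M • w - c) (x - y) := by
      rw [← map_sub, ← hw, ← real_inner_smul_left, ← inner_add_left, ← e2]
    have e4 := real_inner_le_norm (y - M • w - c) (x - y)
    have e5 : ‖y - M • w - c‖ * ‖x - y‖ ≤ 1 * D :=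
      mul_le_mul hk.le h3 (norm_nonneg _) zero_le_one
    have e6 : ‖x - y‖ ^ 2 ≤ D ^ 2 := pow_le_pow_left₀ (norm_nonneg _) h3 2
    have e7 : ‖y - c‖ ^ 2 ≤ ‖x - c‖ ^ 2 := pow_le_pow_left₀ (norm_nonneg _) h2 2
    have e8 : M * (f x - f y) ≤ M * (u - f y) := mul_le_mul_of_nonneg_left (by linarith) hM0
    rw [e1, norm_add_sq_real, e3] at e7
    nlinarith

theorem appr_hs_qf {Q : Mat n} (h : Q.IsSymm) : hs (qf Q) = fun _ => (2 : ℝ) • Q := by
  funext x
  ext i j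
  rw [hs_apply, pd_qf h, pd_const_mul, pd_lin]
  simp only [Matrix.smul_apply, smul_eq_mul, h.apply i j]

theorem appr_gd_qf {Q : Mat n} (h : PD Q 0) : Gd (qf Q) :=
  ⟨qf_contDiff Q, fun x v => by
    have := h.2 v
    rw [appr_hs_qf h.1]
    simp only [smul_mulVec, dotProduct_smul, smul_eq_mul]
    linarith, 0, (2 : ℝ) • Q, fun x _ => by rw [appr_hs_qf h.1]⟩

theorem appr_pd_diag {β : Fin n → ℝ} (hβ : ∀ i, 0 ≤ β i) : PD (diagonal β) 0 :=
  ⟨isSymm_diagonal β, fun v => by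
    rw [zero_mul]
    refine Finset.sum_nonneg fun i _ => ?_
    rw [mulVec_diagonal]
    nlinarith [mul_nonneg (hβ i) (mul_self_nonneg (v i))]⟩

theorem appr_pot (θ : Fin n → ℝ) (B : Mat n) :
    pot (θ, B) = fun x => 1 / 2 * qf B x + lf (-θ) x := by
  funext x
  simp only [pot, qf, lf, dotProduct, Pi.neg_apply, neg_mul, Finset.sum_neg_distrib]
  ring

/-- `pot p = qf (p.2) / 2 - lf p.1`; `pd_qf`, `pd_lin`, `hs_lf`. -/
theorem pot_gd (θ β : Fin n → ℝ) (hβ : ∀ i, 0 ≤ β i) :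
    Gd (pot (θ, diagonal β)) ∧ hs (pot (θ, diagonal β)) = fun _ => diagonal β := by
  have h1 := (appr_gd_qf (appr_pd_diag hβ)).const_mul (a := 1 / 2) (by norm_num)
  rw [appr_pot]
  refine ⟨h1.add (Gd.lf _), ?_⟩
  rw [hs_add h1.c2 (lf_c2 _), hs_const_mul, appr_hs_qf (isSymm_diagonal β), hs_lf]
  funext x
  simp [smul_smul]

/-- `fn_prof` with `m = 1` gives the profile `θ s = fnv s + s`; subtract `qf Q` and use
`Prof.hs_form`, `Prof.low`, `Prof.good`, `Gd.shift` with `Q = (1 / ρ ^ 2) • 1`. -/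
theorem fnv_gd (c : E n) {ρ : ℝ} (hρ : 0 < ρ) : Gd fun x => fnv (‖x - c‖ ^ 2 / ρ ^ 2) := by
  obtain ⟨θ1, θ2, C, P⟩ := fn_prof (m := 1) one_pos
  have hQ : PD ((1 / ρ ^ 2) • (1 : Mat n)) (1 / ρ ^ 2 * 1) :=
    PD.smul ⟨isSymm_one, fun v => by simp⟩ (by positivity)
  have hq : ∀ x : E n, qf ((1 / ρ ^ 2) • (1 : Mat n)) x = ‖x‖ ^ 2 / ρ ^ 2 := fun x => by
    rw [qf_smul, qf, one_mulVec, fn_dot_self]
    ring
  generalize (1 / ρ ^ 2) • (1 : Mat n) = Q at hQ hq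
  have hG := Gd.of_good (P.good hQ (by positivity))
  have c2 := c2_of_contDiff (qf_contDiff Q)
  have h1 : Gd fun x => (1 * fnv (qf Q x) + qf Q x / 1) - qf Q x := by
    obtain ⟨R, Q', hR⟩ := hG.2.2
    refine ⟨hG.1.sub (qf_contDiff Q), fun x v => ?_, R, Q' - (2 : ℝ) • Q, fun x hx => ?_⟩
    · have a1 := P.hs_form hQ.1 x v
      have a2 := P.low (qf Q x)
      have a3 := P.nn (qf Q x)
      have a4 : 0 ≤ v ⬝ᵥ Q *ᵥ v := le_trans (mul_nonneg (by positivity)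
        (Finset.sum_nonneg fun i _ => mul_self_nonneg (v i))) (hQ.2 v)
      rw [hs_sub hG.c2 c2, appr_hs_qf hQ.1]
      simp only [sub_mulVec, dotProduct_sub, smul_mulVec, dotProduct_smul, smul_eq_mul]
      rw [a1]
      nlinarith [mul_nonneg a3 (sq_nonneg (v ⬝ᵥ Q *ᵥ x.ofLp)), mul_le_mul_of_nonneg_right a2 a4]
    · rw [hs_sub hG.c2 c2, appr_hs_qf hQ.1]
      simp only [hR x hx]
  have h2 := h1.shift (-c)
  simpa only [one_mul, div_one, add_sub_cancel_right, hq, ← sub_eq_add_neg] using h2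

theorem appr_low (θ : Fin n → ℝ) {β : Fin n → ℝ} (hβ : ∀ i, 0 ≤ β i) (c : E n) {ρ : ℝ}
    (hρ : 0 < ρ) : ∃ a b : ℝ, 0 < a ∧ ∀ x : E n,
      a * ‖x‖ ^ 2 - b ≤ pot (θ, diagonal β) x + fnv (‖x - c‖ ^ 2 / ρ ^ 2) := by
  obtain ⟨L, hL⟩ : ∃ L : ℝ, L = n * ∑ i, |θ i| := ⟨_, rfl⟩
  obtain ⟨a, ha, ha0⟩ : ∃ a : ℝ, a = 1 / ρ ^ 2 ∧ 0 < a := ⟨_, rfl, by positivity⟩
  refine ⟨a / 4, L ^ 2 / a + a * ‖c‖ ^ 2 + 2, by positivity, fun x => ?_⟩
  have h1 := abs_sum_coord_le x (c := θ) (b := ∑ i, |θ i|) fun i =>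
    Finset.single_le_sum (f := fun i => |θ i|) (fun _ _ => abs_nonneg _) (Finset.mem_univ i)
  rw [← hL] at h1
  have h2 := (abs_le.1 h1).2
  have h3 : θ ⬝ᵥ x.ofLp = ∑ i, x i * θ i := dotProduct_comm _ _
  have h4 := (appr_pd_diag hβ).2 x.ofLp
  have h5 := fnv_lower (r := ‖x - c‖ ^ 2 / ρ ^ 2) (by positivity)
  have h6 : ‖x - c‖ ^ 2 / ρ ^ 2 = a * ‖x - c‖ ^ 2 := by rw [ha]; ring
  have h7 : ‖x‖ ≤ ‖x - c‖ + ‖c‖ := by simpa using norm_add_le (x - c) c
  have h8 : ‖x‖ ^ 2 ≤ 2 * ‖x - c‖ ^ 2 + 2 * ‖c‖ ^ 2 := by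
    nlinarith [pow_le_pow_left₀ (norm_nonneg _) h7 2, sq_nonneg (‖x - c‖ - ‖c‖)]
  have h9 : 0 ≤ a⁻¹ * (a / 2 * ‖x‖ - L) ^ 2 := by positivity
  have h10 : a⁻¹ * (a / 2 * ‖x‖ - L) ^ 2 = a / 4 * ‖x‖ ^ 2 - L * ‖x‖ + L ^ 2 / a := by
    field_simp
    ring
  have h11 := mul_le_mul_of_nonneg_left h8 ha0.le
  simp only [pot]
  nlinarith

/-- `U m x = pot p x + ‖x‖ ^ 2 / (2 (m + 1)) + (m + 1) * ∑ k ∈ range (m + 1), fnv (r k x)` with
`r k x = ‖x - c k‖ ^ 2 / ρ k ^ 2` (`body_balls`). On `K` the sum vanishes (`fnv_zero`), off `K` it is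
eventually at least a fixed positive number (`fnv_pos`). Domination: the term `k = 0` and
`fnv_lower` give `U m x ≥ c ‖x‖ ^ 2 - C` (`fn_gauss`); compare `fn_limit`. -/
theorem approx {K : Set (E n)} (hn : 0 < n) (hK : Body K) (θ β : Fin n → ℝ) (hβ : ∀ i, 0 ≤ β i) :
    ∃ U : ℕ → E n → ℝ, (∀ m, Gd (U m) ∧ ∃ c, 0 < c ∧ ∀ x (v : Fin n → ℝ),
      c * (v ⬝ᵥ v) + v ⬝ᵥ diagonal β *ᵥ v ≤ v ⬝ᵥ hs (U m) x *ᵥ v) ∧
      ∀ (g : ℕ → E n → ℝ) (g' : E n → ℝ) (C : ℝ), (∀ m, Continuous (g m)) →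
        (∀ m x, |g m x| ≤ C * (1 + ‖x‖) ^ 3) → (∀ x, Tendsto (fun m => g m x) atTop (𝓝 (g' x))) →
        Tendsto (fun m => ∫ x, g m x * Real.exp (-U m x)) atTop
          (𝓝 (itg K (θ, diagonal β) g')) := by
  obtain ⟨c, ρ, hρ, hc⟩ := body_balls hn hK
  obtain ⟨hp, hp2⟩ := pot_gd θ β hβ
  obtain ⟨a, b, ha, hab⟩ := appr_low θ hβ (c 0) (hρ 0)
  obtain ⟨F, hF⟩ : ∃ F : ℕ → E n → ℝ, F = fun k x => fnv (‖x - c k‖ ^ 2 / ρ k ^ 2) := ⟨_, rfl⟩
  have hF0 : ∀ k x, 0 ≤ F k x := fun k x => hF ▸ fnv_nonneg (by positivity)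
  have hFG : ∀ k, Gd (F k) := fun k => hF ▸ fnv_gd (c k) (hρ k)
  have h1 : PD (1 : Mat n) 0 := ⟨isSymm_one, fun v => by
    rw [zero_mul, one_mulVec]
    exact Finset.sum_nonneg fun i _ => mul_self_nonneg (v i)⟩
  have hq : ∀ x : E n, 0 ≤ qf 1 x := fun x => by simpa using h1.lower x
  have gA : ∀ m : ℕ, Gd fun x : E n => 1 / ((m : ℝ) + 1) * qf 1 x := fun m =>
    (appr_gd_qf h1).const_mul (by positivity)
  have gB : ∀ m : ℕ, Gd fun x : E n => ((m : ℝ) + 1) * ∑ k ∈ Finset.range (m + 1), F k x :=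
    fun m => (Gd.sum _ fun k _ => hFG k).const_mul (by positivity)
  have gU := fun m => (hp.add (gA m)).add (gB m)
  have hlow : ∀ (m k : ℕ) x, k ≤ m → ((m : ℝ) + 1) * F k x + pot (θ, diagonal β) x ≤
      pot (θ, diagonal β) x + 1 / ((m : ℝ) + 1) * qf 1 x +
        ((m : ℝ) + 1) * ∑ k ∈ Finset.range (m + 1), F k x := fun m k x hk => by
    have a1 := Finset.single_le_sum (f := fun k => F k x) (fun k _ => hF0 k x)
      (Finset.mem_range.2 (Nat.lt_succ_of_le hk))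
    have a2 : 0 ≤ 1 / ((m : ℝ) + 1) * qf 1 x := mul_nonneg (by positivity) (hq x)
    have a3 := mul_le_mul_of_nonneg_left a1 (by positivity : (0 : ℝ) ≤ (m : ℝ) + 1)
    linarith
  refine ⟨fun m x => pot (θ, diagonal β) x + 1 / ((m : ℝ) + 1) * qf 1 x +
    ((m : ℝ) + 1) * ∑ k ∈ Finset.range (m + 1), F k x,
    fun m => ⟨gU m, 1 / ((m : ℝ) + 1) * 2, by positivity, fun x v => ?_⟩,
    fun g g' C hg hb hl => ?_⟩
  · have a1 := (gB m).2.1 x v
    rw [hs_add (hp.add (gA m)).c2 (gB m).c2, hs_add hp.c2 (gA m).c2, hp2, hs_const_mul,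
      appr_hs_qf isSymm_one]
    simp only [add_mulVec, dotProduct_add, smul_mulVec, dotProduct_smul, smul_eq_mul, one_mulVec]
    linarith
  · rw [itg, ← integral_indicator hK.1.measurableSet]
    refine tendsto_integral_of_dominated_convergence
      (fun x => C * Real.exp b * (1 + ‖x‖) ^ 3 * Real.exp (-(a * ‖x‖ ^ 2)))
      (fun m => ((hg m).mul (Real.continuous_exp.comp
        (gU m).1.continuous.neg)).aestronglyMeasurable) (fn_gauss ha _ 3)
      (fun m => Eventually.of_forall fun x => ?_) (Eventually.of_forall fun x => ?_)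
    · have a1 := hlow m 0 x (Nat.zero_le m)
      have a2 : 0 ≤ (m : ℝ) * F 0 x := mul_nonneg (Nat.cast_nonneg m) (hF0 0 x)
      have a3 : a * ‖x‖ ^ 2 - b ≤ pot (θ, diagonal β) x + F 0 x := hF ▸ hab x
      have a4 : C * Real.exp b * (1 + ‖x‖) ^ 3 * Real.exp (-(a * ‖x‖ ^ 2)) =
          C * (1 + ‖x‖) ^ 3 * Real.exp (b + -(a * ‖x‖ ^ 2)) := by
        rw [Real.exp_add]
        ring
      rw [norm_mul, Real.norm_of_nonneg (Real.exp_pos _).le, Real.norm_eq_abs, a4]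
      exact mul_le_mul (hb m x) (Real.exp_le_exp.2 (by linarith)) (Real.exp_pos _).le
        ((abs_nonneg _).trans (hb m x))
    · by_cases hx : x ∈ K
      · have a1 : ∀ k, F k x = 0 := fun k => hF ▸ fnv_zero (by positivity)
          ((div_le_one (pow_pos (hρ k) 2)).2
            (pow_le_pow_left₀ (norm_nonneg _) ((hc x).1 hx k) 2))
        have a2 := ((tendsto_one_div_add_atTop_nhds_zero_nat (𝕜 := ℝ)).mul_const
          (qf 1 x)).const_add (pot (θ, diagonal β) x)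
        rw [zero_mul, add_zero] at a2
        rw [indicator_of_mem hx]
        simp only [a1, Finset.sum_const_zero, mul_zero, add_zero]
        exact (hl x).mul ((Real.continuous_exp.tendsto _).comp a2.neg)
      · obtain ⟨k, hk⟩ := not_forall.1 fun h => hx ((hc x).2 h)
        have a1 : 0 < F k x := hF ▸ fnv_pos ((one_lt_div (pow_pos (hρ k) 2)).2
          (pow_lt_pow_left₀ (not_le.1 hk) (hρ k).le two_ne_zero))
        have a2 : Tendsto (fun m : ℕ => ((m : ℝ) + 1) * F k x + pot (θ, diagonal β) x)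
            atTop atTop := tendsto_atTop_add_const_right _ _
          ((tendsto_atTop_add_const_right _ 1 tendsto_natCast_atTop_atTop).atTop_mul_const a1)
        have a3 := Real.tendsto_exp_neg_atTop_nhds_zero.comp (tendsto_atTop_mono' _
          ((eventually_ge_atTop k).mono fun m hm => hlow m k x hm) a2)
        have a4 := (hl x).mul a3
        rw [mul_zero] at a4
        rw [indicator_of_notMem hx]
        exact a4

end Vale.Agent.P254
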