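import Vale.Agent.P254.Tilt

/-! The inscribed ball and Gaussian integrals. -/

set_option linter.all false

namespace Vale.Agent.P254

open Matrix MeasureTheory Filter Topology Set Vale.Agent.P227

open scoped Pointwise

variable {n : ℕ}

theorem ball_moments {K : Set (E n)} (hK : Body K) {p : Par n} (h : Iso K p)
    (hk : ∑ i, ∑ j, ∑ k, kap K p i j k ^ 2 ≤ 4 * n) (u : Fin n → ℝ) (hu : ∑ i, u i ^ 2 = 1) :
    ex K p (fun x => ∑ i, u i * x i) = 0 ∧ ex K p (fun x => (∑ i, u i * x i) ^ 2) = 1 ∧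
      |ex K p (fun x => (∑ i, u i * x i) ^ 3)| ≤ 2 * √n := by
  refine ⟨?_, ?_, ?_⟩
  · rw [ex_sum hK p _ fun i => by fun_prop]
    exact Finset.sum_eq_zero fun i _ => by rw [ex_const_mul, h.1, mul_zero]
  · have h1 : (fun x : E n => (∑ i, u i * x i) ^ 2) =
        fun x => ∑ t : Fin n × Fin n, u t.1 * u t.2 * (x t.1 * x t.2) := by
      funext x
      rw [sq, Finset.sum_mul_sum, Fintype.sum_prod_type]
      exact Finset.sum_congr rfl fun i _ => Finset.sum_congr rfl fun j _ => by ring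
    rw [h1, ex_sum hK p _ fun i => by fun_prop, Fintype.sum_prod_type, ← hu]
    refine Finset.sum_congr rfl fun i _ => ?_
    simp only [ex_const_mul, h.2, mul_ite, mul_one, mul_zero, Finset.sum_ite_eq, Finset.mem_univ,
      if_true, sq]
  · have h0 : ∀ a b : Fin n → ℝ, ∑ t : Fin n × Fin n × Fin n,
        a t.1 * a t.2.1 * a t.2.2 * (b t.1 * b t.2.1 * b t.2.2) = (∑ i, a i * b i) ^ 3 := by
      intro a b
      rw [pow_three, Finset.sum_mul_sum Finset.univ Finset.univ (fun i => a i * b i),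
        Finset.sum_mul, Fintype.sum_prod_type]
      refine Finset.sum_congr rfl fun i _ => ?_
      rw [Finset.mul_sum, Fintype.sum_prod_type]
      refine Finset.sum_congr rfl fun j _ => ?_
      rw [Finset.mul_sum]
      exact Finset.sum_congr rfl fun k _ => by ring
    have h1 : (fun x : E n => (∑ i, u i * x i) ^ 3) = fun x => ∑ t : Fin n × Fin n × Fin n,
        u t.1 * u t.2.1 * u t.2.2 * (x t.1 * x t.2.1 * x t.2.2) := by
      funext x
      exact (h0 u fun i => x i).symm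
    rw [h1, ex_sum hK p _ fun i => by fun_prop]
    simp only [ex_const_mul]
    have h2 := Finset.sum_mul_sq_le_sq_mul_sq (Finset.univ : Finset (Fin n × Fin n × Fin n))
      (fun t => u t.1 * u t.2.1 * u t.2.2) fun t => kap K p t.1 t.2.1 t.2.2
    have h3 : ∑ t : Fin n × Fin n × Fin n, (u t.1 * u t.2.1 * u t.2.2) ^ 2 = 1 := by
      have h4 := h0 u u
      simp only [← sq] at h4
      rw [h4, hu, one_pow]
    have h5 : ∑ t : Fin n × Fin n × Fin n, kap K p t.1 t.2.1 t.2.2 ^ 2 =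
        ∑ i, ∑ j, ∑ k, kap K p i j k ^ 2 := by
      simp only [Fintype.sum_prod_type]
    rw [h3, one_mul, h5] at h2
    refine abs_le_of_sq_le_sq ?_ (by positivity)
    rw [mul_pow, Real.sq_sqrt (Nat.cast_nonneg n)]
    exact (h2.trans hk).trans (le_of_eq (by ring))

/-- If `y ∉ K` separate by a unit vector `u`: `Y = u · x < s ≤ ‖y‖` on `K`. `Y` has mean `0`,
variance `1` and third moment `κ` with `κ ^ 2 ≤ 4 n` (Cauchy-Schwarz). Then
`0 ≤ ex ((s - Y) * (s * Y + 1) ^ 2) = s ^ 3 + s - 2 s - s ^ 2 κ`; `s > 0` because the mean of `Y` is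
zero; so `1 ≤ s ^ 2 + 2 √n s`, impossible for `s < rad n`. -/
theorem ball_subset {K : Set (E n)} (hK : Body K) {p : Par n} (h : Iso K p)
    (hk : ∑ i, ∑ j, ∑ k, kap K p i j k ^ 2 ≤ 4 * n) : Metric.ball 0 (rad n) ⊆ K := by
  intro y hy
  by_contra hyK
  obtain ⟨f, c, hc, hcy⟩ := geometric_hahn_banach_closed_point hK.2.1 hK.1.isClosed hyK
  obtain ⟨v, hv⟩ : ∃ v : E n, ∀ x, f x = inner ℝ v x :=
    ⟨(InnerProductSpace.toDual ℝ (E n)).symm f, fun x => by simp⟩
  obtain ⟨a, ha⟩ := hK.2.2.mono interior_subset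
  have hv0 : 0 < ‖v‖ := norm_pos_iff.2 fun e => by
    have h1 := (hc a ha).trans hcy
    rw [hv, hv, e, inner_zero_left, inner_zero_left] at h1
    exact lt_irrefl _ h1
  have h2 : ∀ x : E n, ∑ i, v i / ‖v‖ * x i = f x / ‖v‖ := by
    intro x
    rw [hv, PiLp.inner_apply, Finset.sum_div]
    exact Finset.sum_congr rfl fun i _ => by simp; ring
  obtain ⟨m1, m2, m3⟩ := ball_moments hK h hk (fun i => v i / ‖v‖) (by
    simp only [div_pow]
    rw [← Finset.sum_div, ← EuclideanSpace.real_norm_sq_eq, div_self (by positivity)])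
  simp only [h2] at m1 m2 m3
  obtain ⟨Y, hY⟩ : ∃ Y : E n → ℝ, Y = fun x => f x / ‖v‖ := ⟨_, rfl⟩
  have hY' : ∀ x, f x / ‖v‖ = Y x := fun x => by rw [hY]
  have hc' : Continuous Y := by rw [hY]; fun_prop
  simp only [hY'] at m1 m2 m3
  have h3 : ∀ x ∈ K, Y x ≤ c / ‖v‖ := fun x hx => by
    rw [← hY']
    exact div_le_div_of_nonneg_right (hc x hx).le hv0.le
  have h4 : c / ‖v‖ < Y y := by
    rw [← hY']
    exact div_lt_div_of_pos_right hcy hv0
  have h5 : Y y < rad n := by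
    rw [← hY', div_lt_iff₀ hv0, hv]
    refine (real_inner_le_norm v y).trans_lt ?_
    rw [mul_comm]
    exact mul_lt_mul_of_pos_right (mem_ball_zero_iff.1 hy) hv0
  have h6 := ex_mono hK p hc' continuous_const h3
  rw [ex_const hK] at h6
  have m1' : ex K p Y = 0 := m1
  obtain ⟨s, hs⟩ : ∃ s, s = Y y := ⟨_, rfl⟩
  rw [← hs] at h4 h5
  have h7 : 0 < s := by linarith
  have h8 := ex_mono hK p (f := fun _ => 0) (g := fun x =>
    s + ((2 * s ^ 2 - 1) * Y x + ((s ^ 3 - 2 * s) * Y x ^ 2 + -s ^ 2 * Y x ^ 3)))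
    continuous_const (by fun_prop) fun x hx => by
      have h9 : 0 ≤ (s - Y x) * (s * Y x + 1) ^ 2 :=
        mul_nonneg (by linarith [h3 x hx]) (sq_nonneg _)
      linarith
  rw [ex_const hK, ex_add hK p (by fun_prop) (by fun_prop), ex_add hK p (by fun_prop) (by fun_prop),
    ex_add hK p (by fun_prop) (by fun_prop), ex_const hK, ex_const_mul, ex_const_mul,
    ex_const_mul, m1', m2] at h8
  have h10 := mul_le_mul_of_nonneg_left (abs_le.1 m3).1 (sq_nonneg s)
  have h11 : 0 ≤ √(n : ℝ) := Real.sqrt_nonneg _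
  rw [rad, lt_div_iff₀ (by positivity)] at h5
  have h12 : 0 ≤ s * (s ^ 2 - 1 + 2 * √n * s) := by nlinarith
  have h13 := nonneg_of_mul_nonneg_right h12 h7
  nlinarith [mul_nonneg h7.le h11]

/-- symmetrize `x ↦ -x` on the ball: `exp (θ · x) + exp (- θ · x) ≥ 2`, and `β ≤ 1` -/
theorem gauss_le {θ β : Fin n → ℝ} (hβ : ∀ i, β i ≤ 1) (R : ℝ) :
    ∫ x in Metric.ball (0 : E n) R, Real.exp (-(‖x‖ ^ 2 / 2)) ≤
      ∫ x in Metric.ball (0 : E n) R, Real.exp (-pot (θ, diagonal β) x) := by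
  have hm : MeasurableSet (Metric.ball (0 : E n) R) := measurableSet_ball
  have hi : ∀ g : E n → ℝ, Continuous g → IntegrableOn g (Metric.ball (0 : E n) R) := fun g hg =>
    (hg.continuousOn.integrableOn_compact (isCompact_closedBall 0 R)).mono_set
      Metric.ball_subset_closedBall
  have hc := pot_cont' (θ, diagonal β)
  have h1 : ∫ x in Metric.ball (0 : E n) R, Real.exp (-pot (θ, diagonal β) (-x)) =
      ∫ x in Metric.ball (0 : E n) R, Real.exp (-pot (θ, diagonal β) x) := by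
    rw [← integral_indicator hm, ← integral_indicator hm, ← integral_neg_eq_self]
    refine integral_congr_ae (Eventually.of_forall fun x => ?_)
    by_cases hx : x ∈ Metric.ball (0 : E n) R
    · have hx' : -x ∈ Metric.ball (0 : E n) R := by simpa using hx
      simp only [indicator_of_mem hx, indicator_of_mem hx', neg_neg]
    · have hx' : -x ∉ Metric.ball (0 : E n) R := by simpa using hx
      simp only [indicator_of_notMem hx, indicator_of_notMem hx']
  have h2 : ∫ x in Metric.ball (0 : E n) R, 2 * Real.exp (-(‖x‖ ^ 2 / 2)) ≤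
      ∫ x in Metric.ball (0 : E n) R, (Real.exp (-pot (θ, diagonal β) x) +
        Real.exp (-pot (θ, diagonal β) (-x))) := by
    refine setIntegral_mono_on (hi _ (by fun_prop)) (hi _ (by fun_prop)) hm fun x _ => ?_
    have h3 : x.ofLp ⬝ᵥ diagonal β *ᵥ x.ofLp ≤ ‖x‖ ^ 2 := by
      rw [EuclideanSpace.real_norm_sq_eq]
      refine Finset.sum_le_sum fun i _ => ?_
      rw [mulVec_diagonal]
      nlinarith [mul_le_mul_of_nonneg_right (hβ i) (sq_nonneg (x.ofLp i))]
    simp only [pot, WithLp.ofLp_neg, mulVec_neg, dotProduct_neg, neg_dotProduct, neg_neg]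
    obtain ⟨q, hq⟩ : ∃ q, q = x.ofLp ⬝ᵥ diagonal β *ᵥ x.ofLp := ⟨_, rfl⟩
    obtain ⟨t, ht⟩ : ∃ t, t = θ ⬝ᵥ x.ofLp := ⟨_, rfl⟩
    rw [← hq] at h3 ⊢
    rw [← ht, show -(q / 2 - t) = -(q / 2) + t by ring, show -(q / 2 - -t) = -(q / 2) + -t by ring,
      Real.exp_add, Real.exp_add]
    have h4 : Real.exp (-(‖x‖ ^ 2 / 2)) ≤ Real.exp (-(q / 2)) := Real.exp_le_exp.2 (by linarith)
    have h5 := mul_le_mul_of_nonneg_left (Real.add_one_le_exp t) (Real.exp_pos (-(q / 2))).le
    have h6 := mul_le_mul_of_nonneg_left (Real.add_one_le_exp (-t)) (Real.exp_pos (-(q / 2))).le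
    linarith
  rw [integral_add (hi _ (by fun_prop)) (hi _ (by fun_prop)), h1, integral_const_mul] at h2
  linarith

/-- `GaussianFourier.integral_rexp_neg_mul_sq_norm`, `tendsto_setIntegral_of_monotone` -/
theorem gauss_ball (n : ℕ) {δ : ℝ} (hδ : 0 < δ) : ∃ R : ℝ, 0 < R ∧
    0 < ∫ x in Metric.ball (0 : E n) R, Real.exp (-(‖x‖ ^ 2 / 2)) ∧
    n / 2 * Real.log (2 * Real.pi) - δ ≤
      Real.log (∫ x in Metric.ball (0 : E n) R, Real.exp (-(‖x‖ ^ 2 / 2))) := by
  have h1 : ∫ x : E n, Real.exp (-(‖x‖ ^ 2 / 2)) = (2 * Real.pi) ^ ((n : ℝ) / 2) := by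
    have h2 := GaussianFourier.integral_rexp_neg_mul_sq_norm (V := E n) (b := 1 / 2) one_half_pos
    rw [finrank_euclideanSpace_fin, show Real.pi / (1 / 2) = 2 * Real.pi by ring] at h2
    rw [← h2]
    congr 1
    funext x
    congr 1
    ring
  have h3 : 0 < (2 * Real.pi) ^ ((n : ℝ) / 2) := by positivity
  have h4 : Integrable fun x : E n => Real.exp (-(‖x‖ ^ 2 / 2)) :=
    Integrable.of_integral_ne_zero (by rw [h1]; exact h3.ne')
  have h5 := tendsto_setIntegral_of_monotone (μ := volume)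
    (s := fun k : ℕ => Metric.ball (0 : E n) (k + 1)) (fun _ => measurableSet_ball)
    (fun a b hab => Metric.ball_subset_ball (by exact_mod_cast Nat.succ_le_succ hab))
    h4.integrableOn
  rw [Metric.iUnion_ball_nat_succ, Measure.restrict_univ, h1] at h5
  have h6 := h5.log h3.ne'
  rw [Real.log_rpow (by positivity)] at h6
  obtain ⟨k, h7, h8⟩ := ((h5.eventually (lt_mem_nhds h3)).and
    (h6.eventually (le_mem_nhds (sub_lt_self _ hδ)))).exists
  exact ⟨k + 1, by positivity, h7, h8⟩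

end Vale.Agent.P254
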