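import Vale.Agent.P227.Basic

/-! Notions used in the proof of the explicit slicing bound. -/

namespace Vale.Agent.P254

open Matrix MeasureTheory Vale.Agent.P227

variable {n : ℕ}

/-- smooth convex potentials, quadratic outside a ball (no symmetry) -/
def Gd (V : E n → ℝ) : Prop :=
  ContDiff ℝ ((⊤ : ℕ∞) : WithTop ℕ∞) V ∧ (∀ x (v : Fin n → ℝ), 0 ≤ v ⬝ᵥ hs V x *ᵥ v) ∧
    ∃ (R : ℝ) (Q : Mat n), ∀ x, R ≤ ‖x‖ → hs V x = Q

/-- convex bodies -/
def Body (K : Set (E n)) : Prop := IsCompact K ∧ Convex ℝ K ∧ (interior K).Nonempty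

/-- parameters of a Gaussian tilt -/
abbrev Par (n : ℕ) : Type := (Fin n → ℝ) × Mat n

/-- the potential `x · B x / 2 - θ · x` -/
noncomputable def pot (p : Par n) (x : E n) : ℝ :=
  (x.ofLp ⬝ᵥ p.2 *ᵥ x.ofLp) / 2 - p.1 ⬝ᵥ x.ofLp

/-- unnormalized integral against the tilted measure -/
noncomputable def itg (K : Set (E n)) (p : Par n) (g : E n → ℝ) : ℝ :=
  ∫ x in K, g x * Real.exp (-pot p x)

/-- partition function -/
noncomputable def Zp (K : Set (E n)) (p : Par n) : ℝ := itg K p fun _ => 1

/-- expectation under the tilted measure -/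
noncomputable def ex (K : Set (E n)) (p : Par n) (g : E n → ℝ) : ℝ := itg K p g / Zp K p

/-- covariance matrix of the tilted measure -/
noncomputable def cov (K : Set (E n)) (p : Par n) : Mat n :=
  Matrix.of fun i j => ex K p (fun x => x i * x j) - ex K p (fun x => x i) * ex K p (fun x => x j)

/-- third moments -/
noncomputable def kap (K : Set (E n)) (p : Par n) (i j k : Fin n) : ℝ :=
  ex K p fun x => x i * x j * x k

/-- entropy of the tilted measure -/
noncomputable def ent (K : Set (E n)) (p : Par n) : ℝ := ex K p (pot p) + Real.log (Zp K p)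

/-- relative entropy with respect to the Gaussian with the same covariance -/
noncomputable def Dp (K : Set (E n)) (p : Par n) : ℝ :=
  Real.log (cov K p).det / 2 - ent K p + n / 2 * Real.log (2 * Real.pi * Real.exp 1)

/-- the Brascamp-Lieb deficit -/
noncomputable def phi (K : Set (E n)) (p : Par n) : ℝ := n - (cov K p * p.2).trace

/-- the function to be minimized -/
noncomputable def wf (K : Set (E n)) (η ε : ℝ) (p : Par n) : ℝ :=
  n * Real.log 2 - Real.log (1 + cov K p * p.2).det - Dp K p + η * phi K p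
    - ε * Real.log (cov K p).det

/-- isotropic position -/
def Iso (K : Set (E n)) (p : Par n) : Prop :=
  (∀ i, ex K p (fun x => x i) = 0) ∧
    ∀ i j, ex K p (fun x => x i * x j) = if i = j then 1 else 0

/-- the affine map `x ↦ T (x - a)` -/
def aff (T : Mat n) (a : Fin n → ℝ) (x : E n) : E n := WithLp.toLp 2 (T *ᵥ (x.ofLp - a))

/-- pull back of the parameters under `aff T a` -/
def pull (T : Mat n) (a : Fin n → ℝ) (p : Par n) : Par n :=
  (Tᵀ *ᵥ p.1 + (Tᵀ * p.2 * T) *ᵥ a, Tᵀ * p.2 * T)

/-- the one-direction localization curve -/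
def crv (p : Par n) (k : Fin n) (r : ℝ) : Par n :=
  (p.1 + Pi.single k r, p.2 + diagonal (Pi.single k (r ^ 2)))

/-- inradius in isotropic position -/
noncomputable def rad (n : ℕ) : ℝ := 1 / (1 + 2 * √n)

end Vale.Agent.P254
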