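import Vale.Agent.P254.Frame

/-! Bounds for the parameters. -/

set_option linter.all false

namespace Vale.Agent.P254

open Matrix MeasureTheory Filter Topology Set Vale.Agent.P227

variable {n : ℕ}

theorem Bnd_rad_pos (n : ℕ) : 0 < rad n := by
  unfold rad
  positivity

theorem Bnd_rad_le (n : ℕ) : rad n ≤ 1 := by
  unfold rad
  rw [div_le_one (by positivity)]
  have : 0 ≤ √(n : ℝ) := Real.sqrt_nonneg _
  linarith

theorem Bnd_Z_le {K : Set (E n)} {θ β : Fin n → ℝ} (hK : Body K) (h0 : ∀ i, 0 ≤ β i)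
    (h : Iso K (θ, diagonal β)) : Zp K (θ, diagonal β) ≤ volume.real K := by
  have hc := pot_cont' (θ, diagonal β)
  have h1 := ex_mono hK (θ, diagonal β) (f := fun x => 1 + pot (θ, diagonal β) x)
    (g := fun x => Real.exp (pot (θ, diagonal β) x)) (continuous_const.add hc)
    (Real.continuous_exp.comp hc) fun x _ => by
      have := Real.add_one_le_exp (pot (θ, diagonal β) x)
      linarith
  rw [ex_add hK _ continuous_const hc, ex_const hK, h.ex_pot hK] at h1
  have h2 : 0 ≤ ∑ i, β i := Finset.sum_nonneg fun i _ => h0 i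
  have e : ex K (θ, diagonal β) (fun x => Real.exp (pot (θ, diagonal β) x)) =
      volume.real K / Zp K (θ, diagonal β) := by
    unfold ex itg
    simp only [← Real.exp_add, add_neg_cancel, Real.exp_zero, integral_const, smul_eq_mul,
      mul_one, measureReal_restrict_apply_univ]
  rw [e, le_div_iff₀ (Zp_pos hK _)] at h1
  have h3 := Zp_pos hK (θ, diagonal β)
  nlinarith

theorem Bnd_pot {θ β : Fin n → ℝ} (h1 : ∀ i, β i ≤ 1) {r : ℝ} (hr : 0 < r) (hr1 : r ≤ 1)
    {x : E n} (hx : x ∈ Metric.ball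
      ((3 * r / 4) • (‖(WithLp.toLp 2 θ : E n)‖⁻¹ • (WithLp.toLp 2 θ : E n))) (r / 4)) :
    ‖x‖ < r ∧ r / 2 * ‖(WithLp.toLp 2 θ : E n)‖ - 1 / 2 ≤ -pot (θ, diagonal β) x := by
  set t : E n := WithLp.toLp 2 θ with ht
  set c : E n := (3 * r / 4) • (‖t‖⁻¹ • t) with hc
  have hxc : ‖x - c‖ < r / 4 := by rwa [Metric.mem_ball, dist_eq_norm] at hx
  have hu : ‖(‖t‖⁻¹ • t : E n)‖ ≤ 1 := by
    rw [norm_smul, norm_inv, norm_norm]
    exact inv_mul_le_one_of_le₀ le_rfl (norm_nonneg _)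
  have hcn : ‖c‖ ≤ 3 * r / 4 := by
    rw [hc, norm_smul, Real.norm_of_nonneg (by positivity)]
    exact mul_le_of_le_one_right (by positivity) hu
  have hxn : ‖x‖ < r := by
    have := norm_add_le (x - c) c
    rw [sub_add_cancel] at this
    linarith
  refine ⟨hxn, ?_⟩
  have e1 : θ ⬝ᵥ x.ofLp = inner ℝ t x := by
    simp [ht, PiLp.inner_apply, dotProduct, mul_comm]
  have e2 : inner ℝ t c = 3 * r / 4 * ‖t‖ := by
    rw [hc, inner_smul_right, inner_smul_right, real_inner_self_eq_norm_sq]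
    by_cases k : ‖t‖ = 0
    · simp [k]
    · field_simp
  have e3 : inner ℝ t x = inner ℝ t c + inner ℝ t (x - c) := by
    rw [← inner_add_right, add_sub_cancel]
  have e4 : -(‖t‖ * (r / 4)) ≤ inner ℝ t (x - c) := by
    have a1 := abs_real_inner_le_norm t (x - c)
    have a2 := neg_abs_le (inner ℝ t (x - c))
    have a3 := mul_le_mul_of_nonneg_left hxc.le (norm_nonneg t)
    linarith
  have e5 : x.ofLp ⬝ᵥ diagonal β *ᵥ x.ofLp ≤ ‖x‖ ^ 2 := by
    rw [EuclideanSpace.real_norm_sq_eq, dotProduct]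
    refine Finset.sum_le_sum fun i _ => ?_
    rw [mulVec_diagonal]
    have := h1 i
    nlinarith [sq_nonneg (x.ofLp i)]
  have e6 : ‖x‖ ^ 2 ≤ 1 := pow_le_one₀ (norm_nonneg _) (by linarith)
  unfold pot
  simp only [e1]
  linarith

/-- Upper bound: `Zp ≤ |K|` because `|K| / Zp = ex (exp (pot)) ≥ 1 + ex pot ≥ 1` (`Iso.ex_pot`).
Lower bound: with `r = rad n ≤ 1`, `u = θ / ‖θ‖`, on `ball ((3 r / 4) • u) (r / 4) ⊆ ball 0 r` the
integrand is at least `exp (r / 2 * ‖θ‖ - 1 / 2)`. -/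
theorem theta_le (n : ℕ) : ∃ c : ℝ, 0 < c ∧ ∀ (K : Set (E n)) (θ β : Fin n → ℝ),
    Body K → (∀ i, 0 ≤ β i) → (∀ i, β i ≤ 1) → Iso K (θ, diagonal β) →
    Metric.ball 0 (rad n) ⊆ K → ∀ i, c * Real.exp (rad n / 2 * |θ i|) ≤ volume.real K := by
  have hr := Bnd_rad_pos n
  have hv : 0 < volume.real (Metric.ball (0 : E n) (rad n / 4)) :=
    ENNReal.toReal_pos (Metric.measure_ball_pos _ _ (by positivity)).ne' measure_ball_lt_top.ne
  refine ⟨volume.real (Metric.ball (0 : E n) (rad n / 4)) * Real.exp (-(1 / 2)), by positivity,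
    fun K θ β hK h0 h1 h hb i => le_trans ?_ (Bnd_Z_le hK h0 h)⟩
  set t : E n := WithLp.toLp 2 θ with ht
  set c : E n := (3 * rad n / 4) • (‖t‖⁻¹ • t) with hc
  have hs : Metric.ball c (rad n / 4) ⊆ K := fun x hx =>
    hb (mem_ball_zero_iff.2 (Bnd_pot (β := β) h1 hr (Bnd_rad_le n) hx).1)
  have hi := itg_int hK (θ, diagonal β) (g := fun _ => 1) continuous_const
  have a1 : ∫ x in Metric.ball c (rad n / 4), 1 * Real.exp (-pot (θ, diagonal β) x) ≤
      Zp K (θ, diagonal β) :=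
    setIntegral_mono_set hi (Eventually.of_forall fun x => by positivity) hs.eventuallyLE
  have a2 : ∫ x in Metric.ball c (rad n / 4), Real.exp (rad n / 2 * ‖t‖ - 1 / 2) ≤
      ∫ x in Metric.ball c (rad n / 4), 1 * Real.exp (-pot (θ, diagonal β) x) := by
    refine setIntegral_mono_on (integrableOn_const measure_ball_lt_top.ne) (hi.mono_set hs)
      Metric.isOpen_ball.measurableSet fun x hx => ?_
    rw [one_mul]
    exact Real.exp_le_exp.2 (Bnd_pot h1 hr (Bnd_rad_le n) hx).2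
  have e : volume.real (Metric.ball c (rad n / 4)) =
      volume.real (Metric.ball (0 : E n) (rad n / 4)) := by
    rw [Measure.real, Measure.real, Measure.addHaar_ball_center]
  rw [setIntegral_const, smul_eq_mul, e] at a2
  refine le_trans ?_ (a2.trans a1)
  rw [mul_assoc, ← Real.exp_add]
  refine mul_le_mul_of_nonneg_left (Real.exp_le_exp.2 ?_) hv.le
  have a3 : |θ i| ≤ ‖t‖ := PiLp.norm_apply_le t i
  have a4 := mul_le_mul_of_nonneg_left a3 (by positivity : 0 ≤ rad n / 2)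
  linarith

theorem Bnd_sum {f g : Fin n → ℝ} {a b : ℝ} (hf : ∀ k, |f k| ≤ a) (hg : ∀ k, |g k| ≤ b) :
    |∑ k, f k * g k| ≤ n * (a * b) := by
  refine (Finset.abs_sum_le_sum_abs _ _).trans ?_
  have : ∀ k ∈ (Finset.univ : Finset (Fin n)), |f k * g k| ≤ a * b := fun k _ => by
    rw [abs_mul]
    exact mul_le_mul (hf k) (hg k) (abs_nonneg _) ((abs_nonneg _).trans (hf k))
  simpa using Finset.sum_le_card_nsmul _ _ _ this

theorem Bnd_det {A : Mat n} {x : ℝ} (h : ∀ i j, |A i j| ≤ x) :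
    |A.det| ≤ n.factorial * x ^ n := by
  simpa using Matrix.det_le (abv := AbsoluteValue.abs) (x := x) h

theorem Bnd_T {A T : Mat n} {x g : ℝ} (h : ∀ i j, |A i j| ≤ x) (hx : 1 ≤ x) (hg : 0 < g)
    (hd : g ≤ A.det) (hT : T * A * Tᵀ = 1) (k i : Fin n) :
    |T k i| ≤ n.factorial * x ^ n / g + 1 := by
  have h1 : A * (Tᵀ * T) = 1 := by
    rw [← Matrix.mul_assoc, mul_eq_one_comm, ← Matrix.mul_assoc, hT]
  have h2 : A.det • (Tᵀ * T) = adjugate A := by
    have := congrArg (fun B => adjugate A * B) h1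
    simp only [← Matrix.mul_assoc, adjugate_mul, Matrix.mul_one] at this
    rw [← this, Matrix.mul_assoc, Matrix.smul_mul, Matrix.one_mul]
  have h3 : |adjugate A i i| ≤ n.factorial * x ^ n := by
    rw [adjugate_apply]
    refine Bnd_det fun a b => ?_
    rw [updateRow_apply]
    split_ifs
    · rw [Pi.single_apply]
      split_ifs
      · simpa using hx
      · simpa using zero_le_one.trans hx
    · exact h a b
  have h4 : T k i * T k i ≤ (Tᵀ * T) i i := by
    rw [Matrix.mul_apply]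
    exact Finset.single_le_sum (f := fun j => Tᵀ i j * T j i)
      (fun j _ => mul_self_nonneg (T j i)) (Finset.mem_univ k)
  have h5 : A.det * (Tᵀ * T) i i ≤ n.factorial * x ^ n := by
    rw [← h2, Matrix.smul_apply, smul_eq_mul] at h3
    exact (le_abs_self _).trans h3
  have h6 : T k i * T k i ≤ n.factorial * x ^ n / g := by
    rw [le_div_iff₀ hg]
    have := mul_le_mul hd h4 (mul_self_nonneg _) (hg.le.trans hd)
    linarith
  have h7 := abs_mul_abs_self (T k i)
  nlinarith [sq_nonneg (|T k i| - 1), abs_nonneg (T k i)]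

/-- `T * A * Tᵀ = 1` gives `Tᵀ * T = A⁻¹ = (det A)⁻¹ • adjugate A` and `det T ^ 2 * det A = 1`;
the entries of `A = cov K p` and the means are bounded in terms of `K` (`ex_abs_le`), hence the
entries of `T` are bounded (`∑ k, T k i ^ 2 = A⁻¹ i i`, continuity of `adjugate` on a compact
set or `Matrix.det_le`), `|K'| = |det T| |K|` is bounded (`vol_aff`), `θ` is bounded by
`theta_le`, and `p = pull T a (θ, diagonal β)`. The hypothesis `hiso` collects what is known in
isotropic position. -/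
theorem param_bdd {K : Set (E n)} (hK : Body K)
    (hiso : ∀ (K' : Set (E n)) (θ β : Fin n → ℝ), Body K' → (∀ i, 0 ≤ β i) →
      Iso K' (θ, diagonal β) → (∀ i, β i ≤ 1) ∧ Metric.ball 0 (rad n) ⊆ K') (γ : ℝ) :
    ∃ R : ℝ, ∀ p : Par n, p.2.PosSemidef → γ ≤ Real.log (cov K p).det →
      (∀ i, |p.1 i| ≤ R) ∧ ∀ i j, |p.2 i j| ≤ R := by
  obtain ⟨M, hM0, hM⟩ := hK.1.isBounded.exists_pos_norm_le
  have hx : ∀ i, ∀ x ∈ K, |x i| ≤ M := fun i x hx => (PiLp.norm_apply_le x i).trans (hM x hx)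
  have hcx : ∀ i, Continuous fun x : E n => x i := fun i => by fun_prop
  obtain ⟨c, hc, hθ⟩ := theta_le n
  have hr := Bnd_rad_pos n
  obtain ⟨τ, hτ⟩ : ∃ τ : ℝ, τ = n.factorial * (2 * (M * M) + 1) ^ n / Real.exp γ + 1 := ⟨_, rfl⟩
  have hτ0 : 0 ≤ τ := by rw [hτ]; positivity
  obtain ⟨Θ, hΘ⟩ : ∃ Θ : ℝ, Θ = n.factorial * τ ^ n * volume.real K / c / (rad n / 2) := ⟨_, rfl⟩
  have hΘ0 : 0 ≤ Θ := by rw [hΘ]; positivity
  refine ⟨n * (τ * Θ) + n * (n * (τ * τ) * M) + n * (τ * τ), fun p hp hγ => ?_⟩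
  obtain ⟨T, θ, β, hT, h0, hA, hpull, hI⟩ := exists_iso hK hp
  have ha : ∀ i, |ex K p fun x => x i| ≤ M := fun i => ex_abs_le hK p (hcx i) (hx i)
  have hcov : ∀ i j, |cov K p i j| ≤ 2 * (M * M) + 1 := by
    intro i j
    have a1 : |ex K p fun x => x i * x j| ≤ M * M :=
      ex_abs_le hK p ((hcx i).mul (hcx j)) fun x k => by
        rw [Pi.mul_apply, abs_mul]
        exact mul_le_mul (hx i x k) (hx j x k) (abs_nonneg _) hM0.le
    have a2 : |(ex K p fun x => x i) * ex K p fun x => x j| ≤ M * M := by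
      rw [abs_mul]
      exact mul_le_mul (ha i) (ha j) (abs_nonneg _) hM0.le
    have a3 := abs_sub (ex K p fun x => x i * x j) ((ex K p fun x => x i) * ex K p fun x => x j)
    have e : cov K p i j =
        (ex K p fun x => x i * x j) - (ex K p fun x => x i) * ex K p fun x => x j := rfl
    rw [e]
    linarith
  have hd : Real.exp γ ≤ (cov K p).det :=
    (Real.le_log_iff_exp_le (cov_posDef hK p).det_pos).1 hγ
  have hTb : ∀ k i, |T k i| ≤ τ := fun k i => by
    rw [hτ]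
    exact Bnd_T hcov (by nlinarith) (Real.exp_pos γ) hd hA k i
  have hK' := hK.aff hT (fun i => ex K p fun x => x i)
  obtain ⟨h1, hball⟩ := hiso _ θ β hK' h0 hI
  have hθb : ∀ i, |θ i| ≤ Θ := by
    intro i
    have a1 := hθ _ θ β hK' h0 h1 hI hball i
    rw [vol_aff hK hT] at a1
    have a2 := mul_le_mul_of_nonneg_right (Bnd_det hTb) hK.vol_pos.le
    have a3 := Real.add_one_le_exp (rad n / 2 * |θ i|)
    have a4 := mul_le_mul_of_nonneg_left a3 hc.le
    rw [hΘ, le_div_iff₀ (by positivity), le_div_iff₀ hc]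
    nlinarith
  have hB : ∀ i j, |(Tᵀ * diagonal β * T) i j| ≤ n * (τ * τ) := by
    intro i j
    rw [Matrix.mul_apply]
    refine Bnd_sum (fun k => ?_) fun k => hTb k j
    rw [mul_diagonal, abs_mul, abs_of_nonneg (h0 k)]
    exact (mul_le_of_le_one_right (abs_nonneg _) (h1 k)).trans (hTb k i)
  have p1 : 0 ≤ (n : ℝ) * (τ * Θ) := by positivity
  have p2 : 0 ≤ (n : ℝ) * (n * (τ * τ) * M) := by positivity
  have p3 : 0 ≤ (n : ℝ) * (τ * τ) := by positivity
  have e1 : p.1 = Tᵀ *ᵥ θ + (Tᵀ * diagonal β * T) *ᵥ fun i => ex K p fun x => x i :=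
    (congrArg Prod.fst hpull).symm
  have e2 : p.2 = Tᵀ * diagonal β * T := (congrArg Prod.snd hpull).symm
  refine ⟨fun i => ?_, fun i j => ?_⟩
  · have a1 : |(Tᵀ *ᵥ θ) i| ≤ n * (τ * Θ) := Bnd_sum (fun k => hTb k i) hθb
    have a2 : |((Tᵀ * diagonal β * T) *ᵥ fun i => ex K p fun x => x i) i| ≤
        n * (n * (τ * τ) * M) := Bnd_sum (hB i) ha
    rw [e1, Pi.add_apply]
    refine (abs_add_le _ _).trans ?_
    linarith
  · rw [e2]
    have := hB i j
    linarith

end Vale.Agent.P254
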