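import Vale.Agent.P254.Tilt

/-! Affine changes of variables. -/

set_option linter.all false

namespace Vale.Agent.P254

open Matrix MeasureTheory Filter Topology Set Vale.Agent.P227

variable {n : ℕ}

variable {K : Set (E n)} {T : Mat n} {a : Fin n → ℝ}

theorem aff_cont (T : Mat n) (a : Fin n → ℝ) : Continuous (aff T a) := by
  have : Continuous fun x : E n => T *ᵥ (x.ofLp - a) := by
    refine continuous_pi fun i => ?_
    simp only [mulVec, dotProduct, Pi.sub_apply]
    fun_prop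
  exact (PiLp.continuous_toLp 2 _).comp this

theorem Chg_left (hT : T.det ≠ 0) (a : Fin n → ℝ) (x : E n) :
    aff T⁻¹ (-(T *ᵥ a)) (aff T a x) = x := by
  unfold aff
  rw [WithLp.ofLp_toLp, sub_neg_eq_add, ← mulVec_add, sub_add_cancel, mulVec_mulVec,
    nonsing_inv_mul _ hT.isUnit, one_mulVec]

theorem Chg_right (hT : T.det ≠ 0) (a : Fin n → ℝ) (x : E n) :
    aff T a (aff T⁻¹ (-(T *ᵥ a)) x) = x := by
  unfold aff
  rw [WithLp.ofLp_toLp, mulVec_sub, mulVec_mulVec, mul_nonsing_inv _ hT.isUnit, one_mulVec,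
    sub_neg_eq_add, add_sub_cancel_right]

theorem Body.aff (hK : Body K) (hT : T.det ≠ 0) (a : Fin n → ℝ) : Body (aff T a '' K) := by
  let e : E n ≃ₜ E n :=
    { toFun := P254.aff T a
      invFun := P254.aff T⁻¹ (-(T *ᵥ a))
      left_inv := Chg_left hT a
      right_inv := Chg_right hT a
      continuous_toFun := aff_cont _ _
      continuous_invFun := aff_cont _ _ }
  refine ⟨hK.1.image (aff_cont T a), ?_,
    (hK.2.2.image _).mono (e.isOpenMap.image_interior_subset K)⟩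
  rintro _ ⟨x, hx, rfl⟩ _ ⟨y, hy, rfl⟩ s t hs ht hst
  refine ⟨s • x + t • y, hK.2.1 hx hy hs ht hst, ?_⟩
  refine congrArg (WithLp.toLp 2) (show T *ᵥ (s • x.ofLp + t • y.ofLp - a) =
    s • T *ᵥ (x.ofLp - a) + t • T *ᵥ (y.ofLp - a) from ?_)
  rw [← mulVec_smul, ← mulVec_smul, ← mulVec_add, smul_sub, smul_sub, sub_add_sub_comm,
    ← add_smul, hst, one_smul]

/-- `integral_image_eq_integral_abs_det_fderiv_smul` with the constant derivative
`Matrix.toEuclideanCLM` / `Matrix.toEuclideanLin` of determinant `T.det` -/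
theorem integral_aff (hK : Body K) (hT : T.det ≠ 0) (a : Fin n → ℝ) (g : E n → ℝ) :
    ∫ y in aff T a '' K, g y = |T.det| * ∫ x in K, g (aff T a x) := by
  have hd : ∀ x, HasFDerivAt (aff T a)
      (LinearMap.toContinuousLinearMap (toLpLin 2 2 T : E n →ₗ[ℝ] E n)) x := fun x =>
    (LinearMap.toContinuousLinearMap (toLpLin 2 2 T : E n →ₗ[ℝ] E n)).hasFDerivAt.comp x
      ((hasFDerivAt_id x).sub_const (WithLp.toLp 2 a))
  rw [integral_image_eq_integral_abs_det_fderiv_smul volume hK.1.measurableSet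
    (fun x _ => (hd x).hasFDerivWithinAt)
    (Function.LeftInverse.injective (Chg_left hT a)).injOn g, ← integral_const_mul]
  simp only [ContinuousLinearMap.det, LinearMap.coe_toContinuousLinearMap, LinearMap.det_toLpLin,
    smul_eq_mul]

theorem vol_aff (hK : Body K) (hT : T.det ≠ 0) (a : Fin n → ℝ) :
    volume.real (aff T a '' K) = |T.det| * volume.real K := by
  simpa using integral_aff hK hT a fun _ => 1

theorem pot_pull (T : Mat n) (a : Fin n → ℝ) {p : Par n} (hp : p.2.IsSymm) :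
    ∃ c, ∀ x, pot p (aff T a x) = pot (pull T a p) x + c := by
  have hG : (Tᵀ * p.2 * T).IsSymm := by
    rw [IsSymm, transpose_mul, transpose_mul, transpose_transpose, hp.eq, Matrix.mul_assoc]
  refine ⟨a ⬝ᵥ (Tᵀ * p.2 * T) *ᵥ a / 2 + (Tᵀ *ᵥ p.1) ⬝ᵥ a, fun x => ?_⟩
  have e1 : ∀ v : Fin n → ℝ, (T *ᵥ v) ⬝ᵥ p.2 *ᵥ (T *ᵥ v) = v ⬝ᵥ (Tᵀ * p.2 * T) *ᵥ v := fun v => by
    rw [← mulVec_mulVec, ← mulVec_mulVec, dotProduct_mulVec v, vecMul_transpose]
  have e2 : ∀ v : Fin n → ℝ, p.1 ⬝ᵥ (T *ᵥ v) = (Tᵀ *ᵥ p.1) ⬝ᵥ v := fun v => by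
    rw [dotProduct_mulVec, mulVec_transpose]
  have e3 := quad_expand hG a x.ofLp 1
  rw [one_smul] at e3
  unfold pot aff pull
  rw [WithLp.ofLp_toLp, e1, e2, e3, dotProduct_sub, add_dotProduct,
    dotProduct_comm (_ *ᵥ a) x.ofLp, symm_dot hG x.ofLp a]
  ring

theorem Chg_itg (hK : Body K) (hT : T.det ≠ 0) {p q : Par n} {c : ℝ}
    (h : ∀ x, pot p (aff T a x) = pot q x + c) (g : E n → ℝ) :
    itg (aff T a '' K) p g = |T.det| * Real.exp (-c) * itg K q fun x => g (aff T a x) := by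
  unfold itg
  rw [integral_aff hK hT, mul_assoc, ← integral_const_mul (Real.exp (-c))]
  simp only [h, neg_add, Real.exp_add]
  congr 2
  funext x
  ring

theorem ex_pull (hK : Body K) (hT : T.det ≠ 0) (a : Fin n → ℝ) {p : Par n} (hp : p.2.IsSymm)
    (g : E n → ℝ) :
    ex (aff T a '' K) p g = ex K (pull T a p) fun x => g (aff T a x) := by
  obtain ⟨c, hc⟩ := pot_pull T a hp
  unfold ex Zp
  rw [Chg_itg hK hT hc, Chg_itg hK hT hc,
    mul_div_mul_left _ _ (mul_pos (abs_pos.2 hT) (Real.exp_pos _)).ne']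

theorem cov_pull (hK : Body K) (hT : T.det ≠ 0) (a : Fin n → ℝ) {p : Par n} (hp : p.2.IsSymm) :
    cov (aff T a '' K) p = T * cov K (pull T a p) * Tᵀ := by
  ext i j
  have e : ∀ i (x : E n), aff T a x i = T i ⬝ᵥ x.ofLp - T i ⬝ᵥ a := fun i x =>
    dotProduct_sub (T i) x.ofLp a
  rw [cov, of_apply, ex_pull hK hT a hp, ex_pull hK hT a hp, ex_pull hK hT a hp]
  simp only [e]
  rw [Tilt_aff hK, Matrix.mul_assoc]
  rfl

theorem ent_pull (hK : Body K) (hT : T.det ≠ 0) (a : Fin n → ℝ) {p : Par n} (hp : p.2.IsSymm) :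
    ent (aff T a '' K) p = ent K (pull T a p) + Real.log |T.det| := by
  obtain ⟨c, hc⟩ := pot_pull T a hp
  have h0 := (abs_pos.2 hT).ne'
  have h1 := (Real.exp_pos (-c)).ne'
  unfold ent
  rw [ex_pull hK hT a hp, Zp, Chg_itg hK hT hc]
  simp only [hc]
  rw [ex_add hK _ (pot_cont' _) continuous_const, ex_const hK,
    show itg K (pull T a p) (fun _ => 1) = Zp K (pull T a p) from rfl,
    Real.log_mul (mul_ne_zero h0 h1) (Zp_pos hK _).ne', Real.log_mul h0 h1, Real.log_exp]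
  ring

theorem Chg_log (hK : Body K) (hT : T.det ≠ 0) (a : Fin n → ℝ) {p : Par n} (hp : p.2.IsSymm) :
    Real.log (cov (aff T a '' K) p).det =
      Real.log (cov K (pull T a p)).det + 2 * Real.log |T.det| := by
  have h := (cov_posDef hK (pull T a p)).det_pos.ne'
  rw [cov_pull hK hT a hp, det_mul, det_mul, det_transpose,
    Real.log_mul (mul_ne_zero hT h) hT, Real.log_mul hT h, Real.log_abs]
  ring

theorem Dp_pull (hK : Body K) (hT : T.det ≠ 0) (a : Fin n → ℝ) {p : Par n} (hp : p.2.IsSymm) :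
    Dp (aff T a '' K) p = Dp K (pull T a p) := by
  unfold Dp
  rw [Chg_log hK hT a hp, ent_pull hK hT a hp]
  ring

theorem phi_pull (hK : Body K) (hT : T.det ≠ 0) (a : Fin n → ℝ) {p : Par n} (hp : p.2.IsSymm) :
    phi (aff T a '' K) p = phi K (pull T a p) := by
  unfold phi
  rw [cov_pull hK hT a hp, Matrix.mul_assoc, Matrix.mul_assoc, trace_mul_comm]
  simp only [pull, Matrix.mul_assoc]

/-- `Matrix.det_one_add_mul_comm` -/
theorem detone_pull (hK : Body K) (hT : T.det ≠ 0) (a : Fin n → ℝ) {p : Par n} (hp : p.2.IsSymm) :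
    (1 + cov (aff T a '' K) p * p.2).det = (1 + cov K (pull T a p) * (pull T a p).2).det := by
  rw [cov_pull hK hT a hp, Matrix.mul_assoc, Matrix.mul_assoc, det_one_add_mul_comm]
  simp only [pull, Matrix.mul_assoc]

theorem wf_pull (hK : Body K) (hT : T.det ≠ 0) (a : Fin n → ℝ) {p : Par n} (hp : p.2.IsSymm)
    (η ε : ℝ) :
    wf (aff T a '' K) η ε p = wf K η ε (pull T a p) - ε * (2 * Real.log |T.det|) := by
  unfold wf
  rw [detone_pull hK hT a hp, Dp_pull hK hT a hp, phi_pull hK hT a hp, Chg_log hK hT a hp]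
  ring

theorem pull_psd (T : Mat n) (a : Fin n → ℝ) {p : Par n} (hp : p.2.PosSemidef) :
    (pull T a p).2.PosSemidef := by
  simpa only [pull, conjTranspose_eq_transpose_of_trivial] using hp.conjTranspose_mul_mul_same T


end Vale.Agent.P254
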