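import Mathlib

namespace Vale.Agent.P254

open MeasureTheory

/-- The `i`-th coordinate of the centroid `b_K = |K|⁻¹ ∫_K x dx`. -/
noncomputable def centroidCoord {n : ℕ} (K : Set (EuclideanSpace ℝ (Fin n))) (i : Fin n) : ℝ :=
  (volume.real K)⁻¹ * ∫ x in K, x i

/-- The covariance matrix `Σ_K = |K|⁻¹ ∫_K (x - b_K) (x - b_K)ᵀ dx`. -/
noncomputable def covMatrix {n : ℕ} (K : Set (EuclideanSpace ℝ (Fin n))) :
    Matrix (Fin n) (Fin n) ℝ :=
  Matrix.of fun i j =>
    (volume.real K)⁻¹ * ∫ x in K, (x i - centroidCoord K i) * (x j - centroidCoord K j)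

/-- The isotropic constant `L_K = (det Σ_K / |K| ^ 2) ^ (1 / (2 n))`. -/
noncomputable def isoConst {n : ℕ} (K : Set (EuclideanSpace ℝ (Fin n))) : ℝ :=
  ((covMatrix K).det / volume.real K ^ 2) ^ (1 / (2 * (n : ℝ)))

end Vale.Agent.P254
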