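import Vale.Agent.P254.Chg

/-! Isotropic frames. -/

set_option linter.all false

namespace Vale.Agent.P254

open Matrix MeasureTheory Filter Topology Set Vale.Agent.P227

variable {n : ℕ} {K : Set (E n)}

open scoped MatrixOrder in
theorem frame_sq {A : Mat n} (hA : A.PosDef) : ∃ y : Mat n, IsUnit y.det ∧ A = yᵀ * y := by
  obtain ⟨y, hy, h⟩ := CStarAlgebra.isStrictlyPositive_iff_eq_star_mul_self.mp
    hA.isStrictlyPositive
  exact ⟨y, (isUnit_iff_isUnit_det _).1 hy, by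
    rw [h, star_eq_conjTranspose, conjTranspose_eq_transpose_of_trivial]⟩

theorem frame_sp {C : Mat n} (hC : C.PosSemidef) : ∃ (O : Mat n) (β : Fin n → ℝ),
    (∀ i, 0 ≤ β i) ∧ Oᵀ * O = 1 ∧ C = O * diagonal β * Oᵀ := by
  refine ⟨hC.1.eigenvectorUnitary, hC.1.eigenvalues, hC.eigenvalues_nonneg, ?_, ?_⟩
  · have h := hC.1.eigenvectorUnitary.2.1
    rwa [star_eq_conjTranspose, conjTranspose_eq_transpose_of_trivial] at h
  · have h := hC.1.spectral_theorem
    rw [Unitary.conjStarAlgAut_apply, star_eq_conjTranspose,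
      conjTranspose_eq_transpose_of_trivial] at h
    exact h

/-- simultaneous diagonalization: `A = S * S` with `S = CFC.sqrt A` symmetric invertible,
`S * B * S = O * diagonal β * Oᵀ` (spectral theorem), `T = Oᵀ * S⁻¹`. -/
theorem frame {A B : Mat n} (hA : A.PosDef) (hB : B.PosSemidef) : ∃ (T : Mat n) (β : Fin n → ℝ),
    T.det ≠ 0 ∧ (∀ i, 0 ≤ β i) ∧ T * A * Tᵀ = 1 ∧ Tᵀ * diagonal β * T = B := by
  obtain ⟨y, hy, rfl⟩ := frame_sq hA
  have hC : (y * B * yᵀ).PosSemidef := by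
    simpa only [conjTranspose_eq_transpose_of_trivial] using hB.mul_mul_conjTranspose_same y
  obtain ⟨O, β, h0, h1, h2⟩ := frame_sp hC
  have hy' : IsUnit yᵀ.det := by rwa [det_transpose]
  have h3 : Oᵀ * yᵀ⁻¹ * (yᵀ * y) * (Oᵀ * yᵀ⁻¹)ᵀ = 1 := by
    rw [transpose_mul, transpose_transpose, transpose_nonsing_inv, transpose_transpose]
    simp only [Matrix.mul_assoc]
    rw [nonsing_inv_mul_cancel_left _ _ hy', mul_nonsing_inv_cancel_left _ _ hy, h1]
  refine ⟨Oᵀ * yᵀ⁻¹, β, fun h => ?_, h0, h3, ?_⟩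
  · have h4 := congrArg det h3
    rw [det_mul, det_mul, h] at h4
    simp at h4
  · rw [transpose_mul, transpose_transpose, transpose_nonsing_inv, transpose_transpose]
    calc y⁻¹ * O * diagonal β * (Oᵀ * yᵀ⁻¹) = y⁻¹ * (O * diagonal β * Oᵀ) * yᵀ⁻¹ := by
          simp only [Matrix.mul_assoc]
      _ = B := by
          rw [← h2]
          simp only [Matrix.mul_assoc]
          rw [nonsing_inv_mul_cancel_left _ _ hy, mul_nonsing_inv _ hy', Matrix.mul_one]

/-- `T, β` from `frame`, `a i = ex K p (x i)`, `θ = (Tᵀ)⁻¹ *ᵥ (p.1 - p.2 *ᵥ a)` -/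
theorem exists_iso (hK : Body K) {p : Par n} (hp : p.2.PosSemidef) :
    ∃ (T : Mat n) (θ β : Fin n → ℝ), T.det ≠ 0 ∧ (∀ i, 0 ≤ β i) ∧ T * cov K p * Tᵀ = 1 ∧
      pull T (fun i => ex K p fun x => x i) (θ, diagonal β) = p ∧
      Iso (aff T (fun i => ex K p fun x => x i) '' K) (θ, diagonal β) := by
  obtain ⟨T, β, h0, h1, h2, h3⟩ := frame (cov_posDef hK p) hp
  set a : Fin n → ℝ := fun i => ex K p fun x => x i with ha
  have hT : IsUnit Tᵀ.det := by rw [det_transpose]; exact h0.isUnit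
  have h4 : pull T a (Tᵀ⁻¹ *ᵥ (p.1 - p.2 *ᵥ a), diagonal β) = p := by
    rw [pull]
    simp only [h3, mulVec_mulVec, mul_nonsing_inv _ hT, one_mulVec, sub_add_cancel]
  refine ⟨T, _, β, h0, h1, h2, h4, ?_⟩
  have hs : (Tᵀ⁻¹ *ᵥ (p.1 - p.2 *ᵥ a), diagonal β).2.IsSymm := isSymm_diagonal β
  have h5 : ∀ i, ex (aff T a '' K) (Tᵀ⁻¹ *ᵥ (p.1 - p.2 *ᵥ a), diagonal β) (fun x => x i) = 0 := by
    intro i
    rw [ex_pull hK h0 a hs, h4]
    have e : (fun x : E n => aff T a x i) = fun x => ∑ j, T i j * (x j - a j) := by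
      funext x
      simp [aff, mulVec, dotProduct]
    rw [e, ex_sum hK p _ (fun j => by fun_prop)]
    refine Finset.sum_eq_zero fun j _ => ?_
    rw [ex_const_mul, ex_sub hK p (by fun_prop) (by fun_prop), ex_const hK, sub_self, mul_zero]
  refine ⟨h5, fun i j => ?_⟩
  have h6 := congrFun (congrFun (cov_pull hK h0 a hs) i) j
  rw [h4, h2, cov, of_apply, h5, zero_mul, sub_zero, one_apply] at h6
  exact h6

end Vale.Agent.P254
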