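import Vale.Agent.P254.Basic
import Vale.Agent.P227.Smooth

/-! Closure properties of admissible potentials. -/

set_option linter.all false

namespace Vale.Agent.P254

open Matrix MeasureTheory Filter Topology Set Vale.Agent.P227

variable {n : ℕ}

variable {f g : E n → ℝ}

theorem Gd.of_good (h : Good f) : Gd f := ⟨h.1, h.2.2.1, h.2.2.2⟩

theorem Gd.c2 (h : Gd f) : C2 f := c2_of_contDiff h.1

theorem Gd.hk (h : Gd f) (k : ℕ) (i j : Fin n) : Hk k fun x => hs f x i j := by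
  obtain ⟨R, Q, hQ⟩ := h.2.2
  exact Hk_of_far (contDiff_pd (contDiff_pd h.1 j) i) (R := R) (a := Q i j)
    (fun x hx => by rw [← hQ x hx]; rfl) k

theorem Gd.add (hf : Gd f) (hg : Gd g) : Gd fun x => f x + g x := by
  obtain ⟨R, Q, hQ⟩ := hf.2.2
  obtain ⟨R', Q', hQ'⟩ := hg.2.2
  refine ⟨hf.1.add hg.1, fun x v => ?_, max R R', Q + Q', fun x hx => ?_⟩
  · rw [hs_add hf.c2 hg.c2]
    simp only [add_mulVec, dotProduct_add]
    exact add_nonneg (hf.2.1 x v) (hg.2.1 x v)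
  · rw [hs_add hf.c2 hg.c2]
    simp only [hQ x ((le_max_left _ _).trans hx), hQ' x ((le_max_right _ _).trans hx)]

theorem Gd.const_mul (hf : Gd f) {a : ℝ} (ha : 0 ≤ a) : Gd fun x => a * f x := by
  obtain ⟨R, Q, hQ⟩ := hf.2.2
  refine ⟨contDiff_const.mul hf.1, fun x v => ?_, R, a • Q, fun x hx => ?_⟩
  · rw [hs_const_mul]
    simp only [smul_mulVec, dotProduct_smul, smul_eq_mul]
    exact mul_nonneg ha (hf.2.1 x v)
  · rw [hs_const_mul]
    simp only [hQ x hx]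

theorem Gd.const (a : ℝ) : Gd fun _ : E n => a :=
  ⟨contDiff_const, fun x v => by simp [hs_const], 0, 0, fun x _ => by simp [hs_const]⟩

theorem Gd.sum {ι : Type} (s : Finset ι) {F : ι → E n → ℝ} (h : ∀ i ∈ s, Gd (F i)) :
    Gd fun x => ∑ i ∈ s, F i x := by
  classical
  induction s using Finset.induction_on with
  | empty => simpa using Gd.const (n := n) 0
  | insert a s ha ih =>
    simp only [Finset.sum_insert ha]
    exact (h a (Finset.mem_insert_self _ _)).add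
      (ih fun i hi => h i (Finset.mem_insert_of_mem hi))

theorem Gd.shift (hf : Gd f) (d : E n) : Gd fun x => f (x + d) := by
  obtain ⟨R, Q, hQ⟩ := hf.2.2
  refine ⟨hf.1.comp (contDiff_id.add contDiff_const), fun x v => ?_, R + ‖d‖, Q, fun x hx => ?_⟩
  · rw [hs_shift]
    exact hf.2.1 _ v
  · rw [hs_shift]
    refine hQ _ ?_
    have h1 := norm_sub_le (x + d) d
    rw [add_sub_cancel_right] at h1
    linarith

/-- linear forms -/
def lf (v : Fin n → ℝ) (x : E n) : ℝ := ∑ i, v i * x i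

theorem lf_contDiff (v : Fin n → ℝ) : ContDiff ℝ ((⊤ : ℕ∞) : WithTop ℕ∞) (lf v) :=
  ContDiff.sum fun i _ => contDiff_const.mul
    (EuclideanSpace.proj (𝕜 := ℝ) i : E n →L[ℝ] ℝ).contDiff

theorem lf_c2 (v : Fin n → ℝ) : C2 (lf v) := c2_of_contDiff (lf_contDiff v)

theorem pd_lf (v : Fin n → ℝ) (i : Fin n) : pd i (lf v) = fun _ => v i := by
  have h1 := pd_sum (i := i) Finset.univ (F := fun l (x : E n) => v l * x l)
    fun l _ => (differentiable_coord l).const_mul _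
  have h2 : lf v = fun x => ∑ l, v l * x l := rfl
  rw [h2, h1]
  funext x
  simp only [pd_const_mul, pd_coord]
  simp

theorem hs_lf (v : Fin n → ℝ) : hs (lf v) = fun _ => 0 := by
  funext x
  ext i j
  rw [hs_apply, pd_lf, pd_const]
  rfl

theorem eu_lf (v : Fin n → ℝ) (x : E n) : eu (lf v) x = lf v x := by
  simp only [eu, pd_lf, lf, mul_comm]

theorem Gd.lf (v : Fin n → ℝ) : Gd (lf v) :=
  ⟨lf_contDiff v, fun x w => by simp [hs_lf], 0, 0, fun x _ => by simp [hs_lf]⟩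

theorem Gd.sm (hU : Gd f) (k : ℕ) : Sm k f := Sm.of_hs hU.c2 hU.hk k

theorem Gd.bdd (hU : Gd f) : ∃ K, 0 ≤ K ∧ ∀ x i j, |hs f x i j| ≤ K := by
  obtain ⟨K, hK0, hK⟩ := exists_HM fun i j => (hU.hk 0 i j).hn
  exact ⟨K, hK0, fun x i j => (hK i j).1 x⟩

theorem Gd.third (h : Gd f) : ∃ R B : ℝ, 0 ≤ B ∧ ∀ x i j l,
    |pd i (pd j (pd l f)) x| ≤ B ∧ (R ≤ ‖x‖ → pd i (pd j (pd l f)) x = 0) := by
  obtain ⟨R, Q, hQ⟩ := h.2.2
  have h3 : ∀ p : Fin n × Fin n × Fin n, ∀ x, R + 1 ≤ ‖x‖ →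
      pd p.1 (pd p.2.1 (pd p.2.2 f)) x = 0 := fun p x hx =>
    pd_eq_zero_far (R := R) (a := Q p.2.1 p.2.2) (fun y hy => by rw [← hQ y hy]; rfl) p.1 x hx
  have h1 := fun p : Fin n × Fin n × Fin n =>
    bdd_of_far (contDiff_pd (contDiff_pd (contDiff_pd h.1 p.2.2) p.2.1) p.1).continuous (h3 p)
  choose c hc0 hc using h1
  refine ⟨R + 1, ∑ p, c p, Finset.sum_nonneg fun p _ => hc0 p, fun x i j l =>
    ⟨(hc (i, j, l) x).trans ?_, h3 (i, j, l) x⟩⟩
  exact Finset.single_le_sum (fun p _ => hc0 p) (Finset.mem_univ _)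

/-- quadratic lower bound for a uniformly convex function -/
theorem Gd.lower (h : Gd f) {c : ℝ} (hc0 : 0 < c)
    (hc : ∀ x (v : Fin n → ℝ), c * (v ⬝ᵥ v) ≤ v ⬝ᵥ hs f x *ᵥ v) :
    ∃ b, ∀ x, b + c / 4 * ‖x‖ ^ 2 ≤ f x := by
  have key : ∀ x : E n, f 0 + ∑ i, x i * pd i f 0 + c / 2 * ‖x‖ ^ 2 ≤ f x := by
    intro x
    have h1 : ∀ t : ℝ, HasDerivAt (fun s : ℝ => f (0 + s • x) - c / 2 * ‖x‖ ^ 2 * s ^ 2)
        (∑ i, x i * pd i f (0 + t • x) - c * ‖x‖ ^ 2 * t) t := fun t =>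
      ((hasDerivAt_line h.c2.1 0 x t).sub
        ((hasDerivAt_pow 2 t).const_mul (c / 2 * ‖x‖ ^ 2))).congr_deriv (by simp; ring)
    have h2 : ∀ t : ℝ, HasDerivAt (fun s : ℝ => ∑ i, x i * pd i f (0 + s • x) - c * ‖x‖ ^ 2 * s)
        (x.ofLp ⬝ᵥ hs f (0 + t • x) *ᵥ x.ofLp - c * ‖x‖ ^ 2) t := fun t =>
      ((hasDerivAt_line2 h.c2 0 x t).sub
        ((hasDerivAt_id t).const_mul (c * ‖x‖ ^ 2))).congr_deriv (by simp)
    have h3 : Monotone fun s : ℝ => ∑ i, x i * pd i f (0 + s • x) - c * ‖x‖ ^ 2 * s :=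
      monotone_of_hasDerivAt_nonneg h2 fun t => by
        have := hc (0 + t • x) x.ofLp
        rw [dot_self_eq] at this
        simpa using this
    obtain ⟨ξ, hξ, e⟩ := exists_hasDerivAt_eq_slope _ _ zero_lt_one
      (fun t _ => (h1 t).continuousAt.continuousWithinAt) (fun t _ => h1 t)
    have h4 := h3 hξ.1.le
    simp only [zero_smul, add_zero, mul_zero, sub_zero] at h4
    rw [e] at h4
    simp only [one_smul, zero_add, one_pow, mul_one, zero_smul, add_zero, sub_zero, div_one] at h4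
    nlinarith
  obtain ⟨L, hL⟩ : ∃ L : ℝ, L = n * ∑ i, |pd i f 0| := ⟨_, rfl⟩
  refine ⟨f 0 - L ^ 2 / c, fun x => le_trans ?_ (key x)⟩
  have h1 := abs_sum_coord_le x (c := fun i => pd i f 0) (b := ∑ i, |pd i f 0|) fun i =>
    Finset.single_le_sum (f := fun i => |pd i f 0|) (fun _ _ => abs_nonneg _) (Finset.mem_univ i)
  rw [← hL] at h1
  have h2 := (abs_le.1 h1).1
  have h3 : 0 ≤ c⁻¹ * (c / 2 * ‖x‖ - L) ^ 2 := by positivity
  have h4 : c⁻¹ * (c / 2 * ‖x‖ - L) ^ 2 = c / 4 * ‖x‖ ^ 2 - L * ‖x‖ + L ^ 2 / c := by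
    field_simp
    ring
  linarith

end Vale.Agent.P254
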