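import Vale.Agent.P254.Basic
import Vale.Agent.P227.Smooth

/-! Second order jets of real functions. -/

set_option linter.all false

namespace Vale.Agent.P254

open Matrix MeasureTheory Filter Topology Set Vale.Agent.P227

variable {n : ℕ}

/-- `f` has first derivative `a` and second derivative `b` at zero -/
def J2 (f : ℝ → ℝ) (a b : ℝ) : Prop :=
  ∃ f' : ℝ → ℝ, (∀ᶠ r in 𝓝 (0 : ℝ), HasDerivAt f (f' r) r) ∧ f' 0 = a ∧ HasDerivAt f' b 0

theorem J2.add {f g : ℝ → ℝ} {a b a' b' : ℝ} (hf : J2 f a b) (hg : J2 g a' b') :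
    J2 (fun r => f r + g r) (a + a') (b + b') := by
  obtain ⟨f', h1, h2, h3⟩ := hf
  obtain ⟨g', k1, k2, k3⟩ := hg
  refine ⟨fun r => f' r + g' r, ?_, by simp only [h2, k2], h3.add k3⟩
  filter_upwards [h1, k1] with r a1 a2 using a1.add a2

theorem J2.const_mul {f : ℝ → ℝ} {a b : ℝ} (hf : J2 f a b) (t : ℝ) :
    J2 (fun r => t * f r) (t * a) (t * b) := by
  obtain ⟨f', h1, h2, h3⟩ := hf
  refine ⟨fun r => t * f' r, ?_, by simp only [h2], h3.const_mul t⟩
  filter_upwards [h1] with r a1 using a1.const_mul t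

theorem J2.mul {f g : ℝ → ℝ} {a b a' b' : ℝ} (hf : J2 f a b) (hg : J2 g a' b') :
    J2 (fun r => f r * g r) (a * g 0 + f 0 * a') (b * g 0 + 2 * a * a' + f 0 * b') := by
  obtain ⟨f', h1, h2, h3⟩ := hf
  obtain ⟨g', k1, k2, k3⟩ := hg
  refine ⟨fun r => f' r * g r + f r * g' r, ?_, by simp only [h2, k2], ?_⟩
  · filter_upwards [h1, k1] with r a1 a2 using a1.mul a2
  · refine ((h3.mul k1.self_of_nhds).add (h1.self_of_nhds.mul k3)).congr_deriv ?_
    rw [h2, k2]
    ring

theorem J2.const (c : ℝ) : J2 (fun _ => c) 0 0 :=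
  ⟨fun _ => 0, Eventually.of_forall fun r => hasDerivAt_const r c, rfl, hasDerivAt_const _ _⟩

theorem J2.id : J2 (fun r => r) 1 0 :=
  ⟨fun _ => 1, Eventually.of_forall fun r => hasDerivAt_id r, rfl, hasDerivAt_const _ _⟩

theorem J2.congr {f g : ℝ → ℝ} {a b : ℝ} (hf : J2 f a b) (h : ∀ᶠ r in 𝓝 (0 : ℝ), g r = f r) :
    J2 g a b := by
  obtain ⟨f', h1, h2, h3⟩ := hf
  refine ⟨f', ?_, h2, h3⟩
  filter_upwards [h1, h.eventually_nhds] with r a1 a2 using a1.congr_of_eventuallyEq a2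

theorem J2.sum {ι : Type} (s : Finset ι) {f : ι → ℝ → ℝ} {a b : ι → ℝ}
    (hf : ∀ i ∈ s, J2 (f i) (a i) (b i)) :
    J2 (fun r => ∑ i ∈ s, f i r) (∑ i ∈ s, a i) (∑ i ∈ s, b i) := by
  classical
  induction s using Finset.induction_on with
  | empty => simpa using J2.const 0
  | insert c s hc ih =>
    simp only [Finset.sum_insert hc]
    exact (hf c (Finset.mem_insert_self _ _)).add
      (ih fun i hi => hf i (Finset.mem_insert_of_mem hi))

theorem J2.continuousAt {f : ℝ → ℝ} {a b : ℝ} (hf : J2 f a b) : ContinuousAt f 0 := by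
  obtain ⟨f', h1, -, -⟩ := hf
  exact h1.self_of_nhds.continuousAt

theorem J2.inv {f : ℝ → ℝ} {a b : ℝ} (hf : J2 f a b) (h0 : f 0 ≠ 0) :
    J2 (fun r => (f r)⁻¹) (-a / f 0 ^ 2) (2 * a ^ 2 / f 0 ^ 3 - b / f 0 ^ 2) := by
  have hne := hf.continuousAt.eventually_ne h0
  obtain ⟨f', h1, h2, h3⟩ := hf
  refine ⟨fun r => -f' r / f r ^ 2, ?_, by simp only [h2], ?_⟩
  · filter_upwards [h1, hne] with r a1 a2 using a1.inv a2
  · refine (h3.neg.div (h1.self_of_nhds.pow 2) (pow_ne_zero 2 h0)).congr_deriv ?_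
    simp only [Pi.neg_apply, Pi.pow_apply, h2]
    field_simp
    ring

theorem J2.log {f : ℝ → ℝ} {a b : ℝ} (hf : J2 f a b) (h0 : f 0 ≠ 0) :
    J2 (fun r => Real.log (f r)) (a / f 0) (b / f 0 - a ^ 2 / f 0 ^ 2) := by
  have hne := hf.continuousAt.eventually_ne h0
  obtain ⟨f', h1, h2, h3⟩ := hf
  refine ⟨fun r => f' r / f r, ?_, by simp only [h2], ?_⟩
  · filter_upwards [h1, hne] with r a1 a2 using a1.log a2
  · refine (h3.div h1.self_of_nhds h0).congr_deriv ?_
    rw [h2]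
    field_simp

/-- at a minimum the second derivative is nonnegative (compare `second_test`) -/
theorem J2.nonneg {f : ℝ → ℝ} {a b : ℝ} (hf : J2 f a b) (h : ∀ r, f 0 ≤ f r) : 0 ≤ b := by
  obtain ⟨f', h1, -, h3⟩ := hf
  have h0 : f' 0 = 0 := IsLocalMin.hasDerivAt_eq_zero (Eventually.of_forall h) h1.self_of_nhds
  refine not_lt.1 fun hb => ?_
  have h4 := ((hasDerivAt_iff_tendsto_slope_zero.1 h3).mono_left
    (nhdsGT_le_nhdsNE (0 : ℝ))).eventually (gt_mem_nhds hb)
  have h5 : ∀ᶠ r in 𝓝[>] (0 : ℝ), HasDerivAt f (f' r) r := nhdsWithin_le_nhds h1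
  obtain ⟨δ, hδ, hδ'⟩ := (nhdsGT_basis_Ioc (0 : ℝ)).eventually_iff.1 (h4.and h5)
  obtain ⟨ξ, hξ, e⟩ := exists_hasDerivAt_eq_slope f f' hδ (fun t ht => by
      rcases eq_or_lt_of_le ht.1 with rfl | h6
      · exact h1.self_of_nhds.continuousAt.continuousWithinAt
      · exact (hδ' ⟨h6, ht.2⟩).2.continuousAt.continuousWithinAt)
    (fun t ht => (hδ' ⟨ht.1, ht.2.le⟩).2)
  have h6 : ξ⁻¹ • (f' (0 + ξ) - f' 0) < 0 := (hδ' ⟨hξ.1, hξ.2.le⟩).1
  rw [h0, zero_add, sub_zero, smul_eq_mul, e] at h6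
  have h7 : 0 ≤ (f δ - f 0) / (δ - 0) := div_nonneg (sub_nonneg.2 (h δ)) (by linarith)
  have h8 := mul_nonneg (inv_pos.2 hξ.1).le h7
  linarith

theorem J2_det {A : ℝ → Mat n} {A' : Mat n} {t : ℝ}
    (h : ∀ i j, HasDerivAt (fun s => A s i j) (A' i j) t) :
    HasDerivAt (fun s => (A s).det) (∑ k, ∑ i, adjugate (A t) k i * A' i k) t := by
  refine (hasDerivAt_det h).congr_deriv (Finset.sum_congr rfl fun k _ => ?_)
  rw [← cramer_apply, cramer_eq_adjugate_mulVec]
  rfl

theorem J2_adj {N : ℝ → Mat n} {N1 : Mat n} (h : ∀ i j, HasDerivAt (fun s => N s i j) (N1 i j) 0)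
    (h0 : N 0 = 1) (i j : Fin n) :
    HasDerivAt (fun s => adjugate (N s) i j) (N1.trace * (1 : Mat n) i j - N1 i j) 0 := by
  have hd : ∀ i j, ∃ c, HasDerivAt (fun s => adjugate (N s) i j) c 0 := by
    intro i j
    simp only [adjugate_apply]
    refine ⟨_, hasDerivAt_det (A := fun s => (N s).updateRow j (Pi.single i 1))
      (A' := N1.updateRow j 0) fun k l => ?_⟩
    by_cases hk : k = j
    · subst hk
      simp only [updateRow_self]
      exact hasDerivAt_const _ _
    · simp only [updateRow_ne hk]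
      exact h k l
  choose A' hA' using hd
  have h1 : HasDerivAt (fun s => ∑ l, adjugate (N s) i l * N s l j)
      (∑ l, (A' i l * N 0 l j + adjugate (N 0) i l * N1 l j)) 0 :=
    HasDerivAt.fun_sum fun l _ => (hA' i l).mul (h l j)
  have h2 := (J2_det h).mul_const ((1 : Mat n) i j)
  have h3 : (fun s => ∑ l, adjugate (N s) i l * N s l j) =
      fun s => (N s).det * (1 : Mat n) i j := by
    funext s
    rw [← Matrix.mul_apply, adjugate_mul, Matrix.smul_apply, smul_eq_mul]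
  rw [h3] at h1
  have h4 := h1.unique h2
  rw [h0, adjugate_one, Finset.sum_add_distrib] at h4
  simp only [Matrix.one_apply, mul_ite, mul_one, mul_zero, ite_mul, one_mul, zero_mul,
    Finset.sum_ite_eq, Finset.sum_ite_eq', Finset.mem_univ, if_true] at h4
  refine (hA' i j).congr_deriv ?_
  simp only [Matrix.one_apply, mul_ite, mul_one, mul_zero, Matrix.trace, Matrix.diag]
  linarith

/-- `hasDerivAt_det` gives `det' = trace (adjugate N * N')`; the entries of `adjugate (N r)` are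
differentiable at `0`, and `adjugate N * N = det N • 1` identifies their derivative
`trace N1 • 1 - N1`. -/
theorem J2.logdet {N : ℝ → Mat n} {N1 N2 : Mat n} (h : ∀ i j, J2 (fun r => N r i j) (N1 i j) (N2 i j))
    (h0 : N 0 = 1) :
    J2 (fun r => Real.log (N r).det) N1.trace (N2.trace - (N1 * N1).trace) := by
  choose N' h1 h2 h3 using h
  have hd0 : ∀ i j, HasDerivAt (fun s => N s i j) (N1 i j) 0 := fun i j =>
    h2 i j ▸ (h1 i j).self_of_nhds
  have hev : ∀ᶠ r in 𝓝 (0 : ℝ), ∀ i j, HasDerivAt (fun s => N s i j) (N' i j r) r :=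
    eventually_all.2 fun i => eventually_all.2 fun j => h1 i j
  have hD : J2 (fun r => (N r).det) N1.trace
      (N1.trace ^ 2 - (N1 * N1).trace + N2.trace) := by
    refine ⟨fun r => ∑ k, ∑ i, adjugate (N r) k i * N' i k r, ?_, ?_, ?_⟩
    · filter_upwards [hev] with r hr using J2_det (A' := Matrix.of fun i j => N' i j r) hr
    · simp only [h0, h2, adjugate_one, Matrix.one_apply, ite_mul, one_mul, zero_mul,
        Finset.sum_ite_eq, Finset.mem_univ, if_true, Matrix.trace, Matrix.diag]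
    · refine (HasDerivAt.fun_sum fun k _ => HasDerivAt.fun_sum fun i _ =>
        (J2_adj hd0 h0 k i).mul (h3 i k)).congr_deriv ?_
      simp only [h0, h2, adjugate_one, Matrix.one_apply, ite_mul, one_mul, zero_mul, mul_ite,
        mul_one, mul_zero, sub_mul, Finset.sum_add_distrib, Finset.sum_sub_distrib,
        Finset.sum_ite_eq, Finset.mem_univ, if_true]
      rw [← Finset.mul_sum, sq]
      simp only [Matrix.trace, Matrix.diag, Matrix.mul_apply]
  have h4 := hD.log (by simp [h0])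
  simp only [h0, det_one, div_one, one_pow] at h4
  have e : N1.trace ^ 2 - (N1 * N1).trace + N2.trace - N1.trace ^ 2 =
      N2.trace - (N1 * N1).trace := by ring
  rwa [e] at h4

end Vale.Agent.P254
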