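import Vale.Agent.P254.Basic
import Vale.Agent.P227.LogDet

/-! Basic properties of the tilted measures. -/

set_option linter.all false

namespace Vale.Agent.P254

open Matrix MeasureTheory Filter Topology Set Vale.Agent.P227

variable {n : ℕ}

variable {K : Set (E n)} {p : Par n} {f g : E n → ℝ}

theorem pot_cont : Continuous fun q : Par n × E n => pot q.1 q.2 := by
  unfold pot
  simp only [dotProduct, mulVec]
  fun_prop

theorem pot_cont' (p : Par n) : Continuous (pot p) :=
  pot_cont.comp (Continuous.prodMk_right p)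

theorem Body.vol_pos (hK : Body K) : 0 < volume.real K :=
  ENNReal.toReal_pos (Measure.measure_pos_of_nonempty_interior _ hK.2.2).ne' hK.1.measure_lt_top.ne

theorem itg_int (hK : Body K) (p : Par n) (hg : Continuous g) :
    IntegrableOn (fun x => g x * Real.exp (-pot p x)) K :=
  (hg.mul (pot_cont' p).neg.rexp).continuousOn.integrableOn_compact hK.1

theorem Tilt_pos (hK : Body K) (p : Par n) (hg : Continuous g) (h0 : ∀ x, 0 ≤ g x) {y : E n}
    (hy : y ∈ interior K) (h1 : g y ≠ 0) : 0 < itg K p g := by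
  refine (setIntegral_pos_iff_support_of_nonneg_ae (Eventually.of_forall fun x =>
    mul_nonneg (h0 x) (Real.exp_pos _).le) (itg_int hK p hg)).2 ?_
  refine (((isOpen_ne_fun hg continuous_const).inter isOpen_interior).measure_pos volume
    ⟨y, h1, hy⟩).trans_le (measure_mono fun x hx => ?_)
  exact ⟨mul_ne_zero hx.1 (Real.exp_pos _).ne', interior_subset hx.2⟩

theorem Zp_pos (hK : Body K) (p : Par n) : 0 < Zp K p := by
  obtain ⟨y, hy⟩ := hK.2.2
  exact Tilt_pos hK p continuous_const (fun _ => zero_le_one) hy one_ne_zero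

theorem ex_add (hK : Body K) (p : Par n) (hf : Continuous f) (hg : Continuous g) :
    ex K p (fun x => f x + g x) = ex K p f + ex K p g := by
  unfold ex itg
  simp only [add_mul]
  rw [integral_add (itg_int hK p hf) (itg_int hK p hg), add_div]

theorem ex_sub (hK : Body K) (p : Par n) (hf : Continuous f) (hg : Continuous g) :
    ex K p (fun x => f x - g x) = ex K p f - ex K p g := by
  unfold ex itg
  simp only [sub_mul]
  rw [integral_sub (itg_int hK p hf) (itg_int hK p hg), sub_div]

theorem ex_const_mul (p : Par n) (a : ℝ) (g : E n → ℝ) :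
    ex K p (fun x => a * g x) = a * ex K p g := by
  unfold ex itg
  simp only [mul_assoc]
  rw [integral_const_mul, mul_div_assoc]

theorem ex_const (hK : Body K) (p : Par n) (a : ℝ) : ex K p (fun _ => a) = a := by
  have h := ex_const_mul (K := K) p a fun _ => 1
  simp only [mul_one] at h
  rw [h, show ex K p (fun _ => 1) = 1 from div_self (Zp_pos hK p).ne', mul_one]

theorem ex_sum (hK : Body K) (p : Par n) {ι : Type} (s : Finset ι) {F : ι → E n → ℝ}
    (hF : ∀ i, Continuous (F i)) :
    ex K p (fun x => ∑ i ∈ s, F i x) = ∑ i ∈ s, ex K p (F i) := by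
  unfold ex itg
  simp only [Finset.sum_mul]
  rw [integral_finsetSum s fun i _ => itg_int hK p (hF i), Finset.sum_div]

theorem ex_congr (hK : Body K) (p : Par n) (h : ∀ x ∈ K, f x = g x) : ex K p f = ex K p g := by
  unfold ex itg
  rw [setIntegral_congr_fun hK.1.measurableSet fun x hx => by rw [h x hx]]

theorem ex_mono (hK : Body K) (p : Par n) (hf : Continuous f) (hg : Continuous g)
    (h : ∀ x ∈ K, f x ≤ g x) : ex K p f ≤ ex K p g :=
  div_le_div_of_nonneg_right (setIntegral_mono_on (itg_int hK p hf) (itg_int hK p hg)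
    hK.1.measurableSet fun x hx => mul_le_mul_of_nonneg_right (h x hx) (Real.exp_pos _).le)
    (Zp_pos hK p).le

theorem ex_abs_le (hK : Body K) (p : Par n) (hg : Continuous g) {M : ℝ}
    (h : ∀ x ∈ K, |g x| ≤ M) : |ex K p g| ≤ M := by
  have h1 := ex_mono hK p hg continuous_const fun x hx => (abs_le.1 (h x hx)).2
  have h2 := ex_mono hK p continuous_const hg fun x hx => (abs_le.1 (h x hx)).1
  rw [ex_const hK] at h1 h2
  exact abs_le.2 ⟨h2, h1⟩

/-- `continuous_parametric_integral_of_continuous` -/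
theorem itg_cont (hK : Body K) {G : Par n → E n → ℝ} (hG : Continuous fun q : Par n × E n => G q.1 q.2) :
    Continuous fun p => itg K p (G p) := by
  haveI : FirstCountableTopology (Mat n) :=
    inferInstanceAs (FirstCountableTopology (Fin n → Fin n → ℝ))
  haveI : LocallyCompactSpace (Mat n) := inferInstanceAs (LocallyCompactSpace (Fin n → Fin n → ℝ))
  exact continuous_parametric_integral_of_continuous
    (f := fun p x => G p x * Real.exp (-pot p x)) (hG.mul pot_cont.neg.rexp) hK.1

theorem ex_cont (hK : Body K) {G : Par n → E n → ℝ} (hG : Continuous fun q : Par n × E n => G q.1 q.2) :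
    Continuous fun p => ex K p (G p) :=
  (itg_cont hK hG).div (itg_cont hK (G := fun _ _ => 1) continuous_const)
    fun p => (Zp_pos hK p).ne'

theorem cov_cont (hK : Body K) : Continuous (cov K) := by
  refine continuous_matrix fun i j => ?_
  exact (ex_cont hK (G := fun _ x => x i * x j) (by fun_prop)).sub
    ((ex_cont hK (G := fun _ x => x i) (by fun_prop)).mul
      (ex_cont hK (G := fun _ x => x j) (by fun_prop)))

theorem ent_cont (hK : Body K) : Continuous (ent K) :=
  (ex_cont hK (G := pot) pot_cont).add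
    ((itg_cont hK (G := fun _ _ => 1) continuous_const).log fun p => (Zp_pos hK p).ne')

theorem Tilt_lin (hK : Body K) (p : Par n) (v : Fin n → ℝ) :
    ex K p (fun x => v ⬝ᵥ x.ofLp) = ∑ i, v i * ex K p fun x => x i := by
  unfold dotProduct
  rw [ex_sum hK p (F := fun i x => v i * x i) _ fun i => by fun_prop]
  simp only [ex_const_mul]

theorem Tilt_bil (hK : Body K) (p : Par n) (v w : Fin n → ℝ) :
    v ⬝ᵥ cov K p *ᵥ w = ex K p (fun x => (v ⬝ᵥ x.ofLp) * (w ⬝ᵥ x.ofLp)) -
      ex K p (fun x => v ⬝ᵥ x.ofLp) * ex K p fun x => w ⬝ᵥ x.ofLp := by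
  have e : (fun x : E n => (v ⬝ᵥ x.ofLp) * (w ⬝ᵥ x.ofLp)) =
      fun x => ∑ i, ∑ j, v i * w j * (x i * x j) := funext fun x => by
    simp only [dotProduct, Finset.sum_mul_sum]
    exact Finset.sum_congr rfl fun i _ => Finset.sum_congr rfl fun j _ => by ring
  rw [e, Tilt_lin hK, Tilt_lin hK,
    ex_sum hK p (F := fun i x => ∑ j, v i * w j * (x i * x j)) _ fun i => by fun_prop,
    Finset.sum_mul_sum, ← Finset.sum_sub_distrib]
  refine Finset.sum_congr rfl fun i _ => ?_
  rw [ex_sum hK p (F := fun j x => v i * w j * (x i * x j)) _ fun j => by fun_prop,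
    ← Finset.sum_sub_distrib, mulVec, dotProduct, Finset.mul_sum]
  refine Finset.sum_congr rfl fun j _ => ?_
  rw [ex_const_mul, cov, of_apply]
  ring

/-- covariance of two affine functions -/
theorem Tilt_aff (hK : Body K) (p : Par n) (v w : Fin n → ℝ) (a b : ℝ) :
    ex K p (fun x => (v ⬝ᵥ x.ofLp - a) * (w ⬝ᵥ x.ofLp - b)) -
      ex K p (fun x => v ⬝ᵥ x.ofLp - a) * ex K p (fun x => w ⬝ᵥ x.ofLp - b) =
        v ⬝ᵥ cov K p *ᵥ w := by
  have hc : ∀ u : Fin n → ℝ, Continuous fun x : E n => u ⬝ᵥ x.ofLp := fun u => by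
    unfold dotProduct
    fun_prop
  have e : (fun x : E n => (v ⬝ᵥ x.ofLp - a) * (w ⬝ᵥ x.ofLp - b)) = fun x =>
      (v ⬝ᵥ x.ofLp) * (w ⬝ᵥ x.ofLp) - b * (v ⬝ᵥ x.ofLp) - (a * (w ⬝ᵥ x.ofLp) - a * b) :=
    funext fun x => by ring
  rw [e, ex_sub hK p (((hc v).fun_mul (hc w)).fun_sub ((hc v).const_mul b))
      (((hc w).const_mul a).fun_sub continuous_const),
    ex_sub hK p ((hc v).fun_mul (hc w)) ((hc v).const_mul b),
    ex_sub hK p ((hc w).const_mul a) continuous_const, ex_sub hK p (hc v) continuous_const,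
    ex_sub hK p (hc w) continuous_const, ex_const_mul, ex_const_mul, ex_const hK, ex_const hK,
    ex_const hK, Tilt_bil hK]
  ring

/-- `v · cov v` is the expectation of `(v · x - m) ^ 2`; a continuous nonnegative function with
zero integral over `interior K` vanishes there, and an affine function that vanishes on a ball is
zero. -/
theorem cov_posDef (hK : Body K) (p : Par n) : (cov K p).PosDef := by
  refine PosDef.of_dotProduct_mulVec_pos ?_ fun v hv => ?_
  · ext i j
    simp only [conjTranspose_apply, cov, of_apply, star_trivial, mul_comm]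
  have hc : Continuous fun x : E n => v ⬝ᵥ x.ofLp := by
    unfold dotProduct
    fun_prop
  obtain ⟨m, hm⟩ : ∃ m, m = ex K p fun x => v ⬝ᵥ x.ofLp := ⟨_, rfl⟩
  rw [star_trivial, ← Tilt_aff hK p v v m m, ex_sub hK p hc continuous_const, ex_const hK, ← hm,
    sub_self, mul_zero, sub_zero]
  obtain ⟨y, hy, h1⟩ : ∃ y ∈ interior K, v ⬝ᵥ y.ofLp - m ≠ 0 := by
    obtain ⟨y, hy⟩ := hK.2.2
    by_cases h1 : v ⬝ᵥ y.ofLp - m = 0
    · have h2 : Continuous fun t : ℝ => y + t • WithLp.toLp 2 v := by fun_prop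
      have h3 : ∀ᶠ t in 𝓝 (0 : ℝ), y + t • WithLp.toLp 2 v ∈ interior K :=
        h2.continuousAt.eventually_mem (isOpen_interior.mem_nhds (by simpa using hy))
      obtain ⟨t, h4, h5⟩ := ((h3.filter_mono nhdsWithin_le_nhds).and
        (self_mem_nhdsWithin (s := {0}ᶜ))).exists
      refine ⟨_, h4, ?_⟩
      have h6 : v ⬝ᵥ v ≠ 0 := fun h => hv (dotProduct_self_eq_zero.1 h)
      rw [WithLp.ofLp_add, WithLp.ofLp_smul, dotProduct_add, dotProduct_smul, add_sub_right_comm,
        h1, zero_add]
      exact mul_ne_zero h5 h6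
    · exact ⟨y, hy, h1⟩
  exact div_pos (Tilt_pos hK p ((hc.sub continuous_const).mul (hc.sub continuous_const))
    (fun _ => mul_self_nonneg _) hy (mul_ne_zero h1 h1)) (Zp_pos hK p)

/-- entries are at most `2 R ^ 2`; `Matrix.det_le` -/
theorem cov_det_le (hK : Body K) : ∃ M, ∀ p, Real.log (cov K p).det ≤ M := by
  obtain ⟨R, hR⟩ := hK.1.isBounded.exists_norm_le
  have h1 : ∀ i, ∀ x ∈ K, |x i| ≤ R := fun i x hx => (PiLp.norm_apply_le x i).trans (hR x hx)
  refine ⟨(Fintype.card (Fin n)).factorial • (R * R + R * R) ^ Fintype.card (Fin n), fun p => ?_⟩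
  refine (Real.log_le_self (cov_posDef hK p).det_pos.le).trans ((le_abs_self _).trans
    (det_le (abv := AbsoluteValue.abs) fun i j => ?_))
  have h2 : ∀ i, |ex K p fun x => x i| ≤ R := fun i => ex_abs_le hK p (by fun_prop) (h1 i)
  have h3 : |ex K p fun x => x i * x j| ≤ R * R := ex_abs_le hK p (by fun_prop) fun x hx => by
    rw [abs_mul]
    exact mul_le_mul (h1 i x hx) (h1 j x hx) (abs_nonneg _) ((abs_nonneg _).trans (h1 i x hx))
  refine (abs_sub _ _).trans (add_le_add h3 ?_)
  rw [abs_mul]
  exact mul_le_mul (h2 i) (h2 j) (abs_nonneg _) ((abs_nonneg _).trans (h2 i))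

theorem Iso.cov_eq (h : Iso K p) : cov K p = 1 := by
  ext i j
  rw [cov, of_apply, h.1, h.2, zero_mul, sub_zero, one_apply]

/-- in isotropic position -/
theorem Iso.ex_pot (hK : Body K) {θ β : Fin n → ℝ} (h : Iso K (θ, diagonal β)) :
    ex K (θ, diagonal β) (pot (θ, diagonal β)) = (∑ i, β i) / 2 := by
  have e : pot (θ, diagonal β) = fun x : E n => ∑ i, (β i / 2 * (x i * x i) - θ i * x i) :=
    funext fun x => by
      simp only [pot, dotProduct, mulVec_diagonal, Finset.sum_div, ← Finset.sum_sub_distrib]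
      exact Finset.sum_congr rfl fun i _ => by ring
  rw [e, ex_sum hK _ (F := fun i x => β i / 2 * (x i * x i) - θ i * x i) _ fun i => by fun_prop,
    Finset.sum_div]
  refine Finset.sum_congr rfl fun i _ => ?_
  rw [ex_sub hK _ (by fun_prop) (by fun_prop), ex_const_mul, ex_const_mul, h.1, h.2, if_pos rfl]
  ring

theorem Iso.phi_eq {θ β : Fin n → ℝ} (h : Iso K (θ, diagonal β)) :
    phi K (θ, diagonal β) = ∑ i, (1 - β i) := by
  rw [phi, h.cov_eq, one_mul, trace_diagonal, Finset.sum_sub_distrib]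
  simp

theorem kap_symm (K : Set (E n)) (p : Par n) (i j k : Fin n) :
    kap K p i j k = kap K p j i k ∧ kap K p i j k = kap K p i k j := by
  unfold kap
  constructor
  · simp only [mul_comm]
  · simp only [mul_right_comm]

end Vale.Agent.P254
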