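import Vale.Agent.P254.AKey
import Vale.Agent.P254.Appr
import Vale.Agent.P254.Tilt

/-! The third moment inequality for tilted uniform measures. -/

set_option linter.all false

namespace Vale.Agent.P254

open Matrix MeasureTheory Filter Topology Set Vale.Agent.P227

variable {n : ℕ}

/-- the normalizing constant -/
noncomputable def Key_Z (U : E n → ℝ) : ℝ := ∫ x, Real.exp (-U x)

/-- the barycenter -/
noncomputable def Key_a (U : E n → ℝ) : E n :=
  WithLp.toLp 2 fun i => (∫ x : E n, x i * Real.exp (-U x)) / Key_Z U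

/-- the centered and normalized potential -/
noncomputable def Key_W (U : E n → ℝ) (x : E n) : ℝ := U (x + Key_a U) + Real.log (Key_Z U)

theorem Key_int {U : E n → ℝ} (hU : Gd U) {c : ℝ} (hc : 0 < c) {β : Fin n → ℝ}
    (hβ : ∀ i, 0 ≤ β i)
    (hE : ∀ x (v : Fin n → ℝ), c * (v ⬝ᵥ v) + v ⬝ᵥ diagonal β *ᵥ v ≤ v ⬝ᵥ hs U x *ᵥ v)
    {f : E n → ℝ} (hf : Continuous f) (hp : PG f) :
    Integrable fun x => f x * Real.exp (-U x) := by
  obtain ⟨b, hb⟩ := hU.lower hc fun x v => by
    refine le_trans (le_add_of_nonneg_right ?_) (hE x v)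
    simp only [dotProduct, mulVec_diagonal]
    exact Finset.sum_nonneg fun i _ => by nlinarith [hβ i, mul_self_nonneg (v i)]
  exact PG.integrable (by positivity) hU.1.continuous hb hf hp

theorem Key_shift {U : E n → ℝ} (hZ : 0 < Key_Z U) (g : E n → ℝ) :
    ∫ x, g x * Real.exp (-Key_W U x) = (∫ x, g (x - Key_a U) * Real.exp (-U x)) / Key_Z U := by
  rw [← integral_add_right_eq_self (fun x => g (x - Key_a U) * Real.exp (-U x)) (Key_a U),
    ← integral_div]
  refine integral_congr_ae (ae_of_all _ fun x => ?_)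
  simp only [Key_W, add_sub_cancel_right, neg_add, Real.exp_add, Real.exp_neg (Real.log _),
    Real.exp_log hZ, div_eq_mul_inv, mul_assoc]

theorem Key_one {U : E n → ℝ} (hU : Gd U) {c : ℝ} (hc : 0 < c) {β : Fin n → ℝ}
    (hβ : ∀ i, 0 ≤ β i)
    (hE : ∀ x (v : Fin n → ℝ), c * (v ⬝ᵥ v) + v ⬝ᵥ diagonal β *ᵥ v ≤ v ⬝ᵥ hs U x *ᵥ v)
    (t : Fin n → Fin n → Fin n → ℝ) : 0 < Key_Z U ∧
    (∀ i, β i * (∫ x : E n, x i * x i * Real.exp (-Key_W U x)) ^ 2 ≤
      ∫ x : E n, x i * x i * Real.exp (-Key_W U x)) ∧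
      ∑ i, ∑ j, (1 + 2 * β i) *
        (∑ k, t i j k * (∫ x : E n, x i * x j * x k * Real.exp (-Key_W U x)) -
          ∑ k, ∑ l, t i j k * t i j l * ∫ x : E n, x k * x l * Real.exp (-Key_W U x)) ≤
        ∑ i, ∑ j, (1 - 2 * β i) * (∫ x : E n, x i * x j * Real.exp (-Key_W U x)) ^ 2 +
          ∑ i, β i * ∫ x : E n, x i * x i * Real.exp (-Key_W U x) := by
  have h1 : Integrable fun x => Real.exp (-U x) := by
    simpa using Key_int hU hc hβ hE continuous_const (PG.const 1)
  have hZ : 0 < Key_Z U := integral_exp_pos h1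
  have hs1 := hU.shift (Key_a U)
  refine ⟨hZ, key_smooth (hs1.add (Gd.const _)) hc hβ (fun x v => ?_) ?_ (fun i => ?_) t⟩
  · rw [hs_add hs1.c2 (Gd.const _).c2, hs_const, hs_shift]
    simpa using hE (x + Key_a U) v
  · have h2 := Key_shift hZ fun _ => 1
    simp only [one_mul] at h2
    exact h2.trans (div_self hZ.ne')
  · refine (Key_shift hZ fun x => x i).trans ?_
    have h2 := Key_int hU hc hβ hE (f := fun x => x i) (by fun_prop) (PG.coord i)
    simp only [PiLp.sub_apply, sub_mul]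
    rw [integral_sub h2 (h1.const_mul _), integral_const_mul]
    change (_ - _ / Key_Z U * Key_Z U) / _ = _
    rw [div_mul_cancel₀ _ hZ.ne', sub_self, zero_div]

theorem Key_bd {a x : E n} {A : ℝ} (hA : ‖a‖ ≤ A) (i : Fin n) :
    |(x - a) i| ≤ (1 + A) * (1 + ‖x‖) := by
  have h1 : |(x - a) i| ≤ ‖x - a‖ := PiLp.norm_apply_le (x - a) i
  have h2 := norm_sub_le x a
  nlinarith [norm_nonneg x, norm_nonneg a, mul_nonneg ((norm_nonneg a).trans hA) (norm_nonneg x)]

/-- Take `U` from `approx`; `Z m = ∫ exp (- U m)` tends to `Zp > 0`, the barycenters `a m` tend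
to `0` (so they are bounded, for `m` large `Z m > 0` anyway since the integrand is positive and
integrable by `Gd.lower`, `PG.integrable`). Apply `key_smooth` to
`x ↦ U m (x + a m) + log (Z m)` (`Gd.shift`, `Gd.const`, `hs_shift`, `integral_add_right_eq_self`)
with `t i j k = kap i j k / 2`, and pass to the limit using `approx` with
`g m x = (x i - a m i) * (x j - a m j) * (x k - a m k)` etc. -/
theorem key {K : Set (E n)} (hn : 0 < n) (hK : Body K) {θ β : Fin n → ℝ} (hβ : ∀ i, 0 ≤ β i)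
    (h : Iso K (θ, diagonal β)) : (∀ i, β i ≤ 1) ∧
      ∑ i, ∑ j, ∑ k, (1 + 2 * β i) * kap K (θ, diagonal β) i j k ^ 2 ≤ 4 * ∑ i, (1 - β i) := by
  obtain ⟨U, hU, hl⟩ := approx hn hK θ β hβ
  have h1 := fun m => (hU m).2.elim fun c hc =>
    Key_one (hU m).1 hc.1 hβ hc.2 fun i j k => kap K (θ, diagonal β) i j k / 2
  have hp := Zp_pos hK (θ, diagonal β)
  have hx : ∀ x : E n, 1 ≤ 1 + ‖x‖ := fun x => le_add_of_nonneg_right (norm_nonneg x)
  have hZ : Tendsto (fun m => Key_Z (U m)) atTop (𝓝 (Zp K (θ, diagonal β))) := by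
    simpa [Key_Z, Zp] using hl (fun _ _ => 1) (fun _ => 1) 1 (fun _ => continuous_const)
      (fun _ x => by simpa using one_le_pow₀ (hx x)) fun _ => tendsto_const_nhds
  have ha : Tendsto (fun m => Key_a (U m)) atTop (𝓝 0) := by
    refine (PiLp.continuous_toLp 2 _).continuousAt.tendsto.comp
      (tendsto_pi_nhds.2 fun i => ?_ : Tendsto _ atTop (𝓝 (0 : Fin n → ℝ)))
    have h2 := (hl (fun _ x => x i) (fun x => x i) 1 (fun _ => by fun_prop) (fun _ x => by
      have h3 : |x i| ≤ ‖x‖ := PiLp.norm_apply_le x i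
      have h4 : 1 + ‖x‖ ≤ (1 + ‖x‖) ^ 3 := le_self_pow₀ (hx x) (by norm_num)
      linarith) fun _ => tendsto_const_nhds).div hZ hp.ne'
    rw [show itg K (θ, diagonal β) (fun x => x i) / Zp K (θ, diagonal β) = 0 from h.1 i] at h2
    exact h2
  obtain ⟨A, hA⟩ := ha.norm.bddAbove_range
  have hA' : ∀ m, ‖Key_a (U m)‖ ≤ A := fun m => hA ⟨m, rfl⟩
  have hA0 : 0 ≤ A := (norm_nonneg _).trans (hA' 0)
  have hc : ∀ (x : E n) i, Tendsto (fun m => (x - Key_a (U m)) i) atTop (𝓝 (x i)) := by
    intro x i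
    have h2 : Continuous fun a : E n => (x - a) i := by fun_prop
    simpa [Function.comp_def] using (h2.tendsto 0).comp ha
  have hb : ∀ m (x : E n) i, |(x - Key_a (U m)) i| ≤ (1 + A) * (1 + ‖x‖) :=
    fun m x i => Key_bd (hA' m) i
  have h1A : ∀ x : E n, 1 ≤ (1 + A) * (1 + ‖x‖) := fun x =>
    one_le_mul_of_one_le_of_one_le (by linarith) (hx x)
  have hM2 : ∀ i j, Tendsto (fun m => ∫ x : E n, x i * x j * Real.exp (-Key_W (U m) x)) atTop
      (𝓝 (if i = j then 1 else 0)) := by
    intro i j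
    rw [← h.2 i j]
    simp only [fun m => Key_shift (h1 m).1 fun x => x i * x j]
    refine (hl (fun m x => (x - Key_a (U m)) i * (x - Key_a (U m)) j) _ ((1 + A) ^ 3)
      (fun _ => by fun_prop) (fun m x => ?_) fun x => (hc x i).mul (hc x j)).div hZ hp.ne'
    rw [abs_mul, ← mul_pow, pow_succ, pow_two]
    exact (mul_le_mul (hb m x i) (hb m x j) (abs_nonneg _) (by linarith [h1A x])).trans
      (le_mul_of_one_le_right (mul_self_nonneg _) (h1A x))
  have hM3 : ∀ i j k, Tendsto (fun m => ∫ x : E n, x i * x j * x k * Real.exp (-Key_W (U m) x))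
      atTop (𝓝 (kap K (θ, diagonal β) i j k)) := by
    intro i j k
    simp only [fun m => Key_shift (h1 m).1 fun x => x i * x j * x k]
    refine (hl (fun m x => (x - Key_a (U m)) i * (x - Key_a (U m)) j * (x - Key_a (U m)) k) _
      ((1 + A) ^ 3) (fun _ => by fun_prop) (fun m x => ?_)
      fun x => ((hc x i).mul (hc x j)).mul (hc x k)).div hZ hp.ne'
    rw [abs_mul, abs_mul, ← mul_pow, pow_succ, pow_two]
    exact mul_le_mul (mul_le_mul (hb m x i) (hb m x j) (abs_nonneg _) (by linarith [h1A x]))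
      (hb m x k) (abs_nonneg _) (mul_self_nonneg _)
  refine ⟨fun i => ?_, ?_⟩
  · simpa using le_of_tendsto_of_tendsto' (((hM2 i i).pow 2).const_mul (β i)) (hM2 i i)
      fun m => (h1 m).2.1 i
  · have h2 := le_of_tendsto_of_tendsto'
      (tendsto_finset_sum Finset.univ fun i _ => tendsto_finset_sum Finset.univ fun j _ =>
        (((tendsto_finset_sum Finset.univ fun k _ => (hM3 i j k).const_mul
          (kap K (θ, diagonal β) i j k / 2)).sub
          (tendsto_finset_sum Finset.univ fun k _ => tendsto_finset_sum Finset.univ fun l _ =>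
            (hM2 k l).const_mul (kap K (θ, diagonal β) i j k / 2 *
              (kap K (θ, diagonal β) i j l / 2)))).const_mul (1 + 2 * β i)))
      ((tendsto_finset_sum Finset.univ fun i _ => tendsto_finset_sum Finset.univ fun j _ =>
        ((hM2 i j).pow 2).const_mul (1 - 2 * β i)).add
        (tendsto_finset_sum Finset.univ fun i _ => (hM2 i i).const_mul (β i)))
      fun m => (h1 m).2.2
    simp only [mul_ite, mul_one, mul_zero, Finset.sum_ite_eq, Finset.mem_univ, if_true, ite_pow,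
      one_pow, ne_eq, OfNat.ofNat_ne_zero, not_false_eq_true, zero_pow,
      ← Finset.sum_add_distrib, ← Finset.sum_sub_distrib] at h2
    have e1 : ∑ i, (1 - 2 * β i + β i) = ∑ i, (1 - β i) :=
      Finset.sum_congr rfl fun i _ => by ring
    rw [e1] at h2
    refine le_trans (le_of_eq ?_) (mul_le_mul_of_nonneg_left h2 (by norm_num : (0 : ℝ) ≤ 4))
    simp only [Finset.mul_sum]
    refine Finset.sum_congr rfl fun i _ => Finset.sum_congr rfl fun j _ =>
      Finset.sum_congr rfl fun k _ => by ring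

end Vale.Agent.P254
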