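import Vale.Agent.P254.Ball
import Vale.Agent.Lib.PrekopaLeindler

/-! The terminal estimate. -/

set_option linter.all false

namespace Vale.Agent.P254

open Matrix MeasureTheory Filter Topology Set Vale.Agent.P227

open scoped Pointwise

variable {n : ℕ}

theorem term_quad (β : Fin n → ℝ) (x : E n) :
    x.ofLp ⬝ᵥ diagonal β *ᵥ x.ofLp = ∑ i, β i * x i ^ 2 := by
  simp only [dotProduct, mulVec_diagonal]
  exact Finset.sum_congr rfl fun i _ => by ring

theorem term_pot (θ β : Fin n → ℝ) (x : E n) :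
    pot (θ, diagonal β) x = ∑ i, (β i * x i ^ 2 / 2 - θ i * x i) := by
  simp only [pot, term_quad]
  simp only [Finset.sum_sub_distrib, Finset.sum_div, dotProduct]

theorem term_convex {θ β : Fin n → ℝ} (hβ : ∀ i, 0 ≤ β i) {a b : ℝ} (ha : 0 ≤ a) (hb : 0 ≤ b)
    (hab : a + b = 1) (x y : E n) :
    pot (θ, diagonal β) (a • x + b • y) ≤
      a * pot (θ, diagonal β) x + b * pot (θ, diagonal β) y := by
  simp only [term_pot, Finset.mul_sum, ← Finset.sum_add_distrib]
  refine Finset.sum_le_sum fun i _ => ?_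
  have e : (a • x + b • y) i = a * x i + b * y i := by simp
  rw [e]
  have h1 : 0 ≤ β i * (a * b * (x i - y i) ^ 2) := mul_nonneg (hβ i) (by positivity)
  obtain rfl : b = 1 - a := by linarith
  nlinarith

theorem term_body {K : Set (E n)} (hK : Body K) {l : ℝ} (hl : 0 < l) : Body (l • K) := by
  refine ⟨hK.1.smul l, hK.2.1.smul l, ?_⟩
  rw [interior_smul₀ hl.ne']
  exact hK.2.2.smul_set

theorem term_Zp (K : Set (E n)) (p : Par n) : Zp K p = ∫ x in K, Real.exp (-pot p x) := by
  simp [Zp, itg]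

theorem term_lint {K : Set (E n)} (hK : Body K) (p : Par n) :
    ∫⁻ x, K.indicator (fun x => ENNReal.ofReal (Real.exp (-pot p x))) x =
      ENNReal.ofReal (Zp K p) := by
  rw [lintegral_indicator hK.1.measurableSet, term_Zp, ofReal_integral_eq_lintegral_ofReal]
  · have := itg_int hK p (g := fun _ => 1) continuous_const
    simp only [one_mul] at this
    exact this
  · exact Eventually.of_forall fun x => (Real.exp_pos _).le

theorem term_meas {K : Set (E n)} (hK : Body K) (p : Par n) :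
    Measurable (K.indicator (fun x => ENNReal.ofReal (Real.exp (-pot p x)))) :=
  Measurable.indicator (ENNReal.measurable_ofReal.comp
    (Real.continuous_exp.comp (pot_cont' p).neg).measurable) hK.1.measurableSet

theorem term_pl {K : Set (E n)} (hK : Body K) {θ β : Fin n → ℝ} (hβ : ∀ i, 0 ≤ β i) {l s : ℝ}
    (hl : 1 ≤ l) (hs0 : 0 < s) (hs1 : s < 1) :
    (1 - s) * Real.log (Zp K (θ, diagonal β)) + s * Real.log (Zp (l • K) (θ, diagonal β)) ≤
      Real.log (Zp ((1 + s * (l - 1)) • K) (θ, diagonal β)) := by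
  set p : Par n := (θ, diagonal β) with hp
  have hl0 : 0 < l := by linarith
  have ht : 0 < 1 + s * (l - 1) := by nlinarith
  have hK1 := term_body hK hl0
  have hK2 := term_body hK ht
  have H := Vale.Agent.Lib.PL.prekopa_leindler (volume : Measure (E n)) (a := 1 - s) (b := s)
    (by linarith) hs0 (by ring) (term_meas hK p) (term_meas hK1 p) (term_meas hK2 p) ?_
  · rw [term_lint hK, term_lint hK1, term_lint hK2,
      ENNReal.ofReal_rpow_of_pos (Zp_pos hK p), ENNReal.ofReal_rpow_of_pos (Zp_pos hK1 p),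
      ← ENNReal.ofReal_mul (Real.rpow_pos_of_pos (Zp_pos hK p) _).le,
      ENNReal.ofReal_le_ofReal_iff (Zp_pos hK2 p).le] at H
    have h2 := Real.log_le_log
      (mul_pos (Real.rpow_pos_of_pos (Zp_pos hK p) _) (Real.rpow_pos_of_pos (Zp_pos hK1 p) _)) H
    rwa [Real.log_mul (Real.rpow_pos_of_pos (Zp_pos hK p) _).ne'
      (Real.rpow_pos_of_pos (Zp_pos hK1 p) _).ne', Real.log_rpow (Zp_pos hK p),
      Real.log_rpow (Zp_pos hK1 p)] at h2
  · intro x y
    by_cases hx : x ∈ K
    swap
    · rw [indicator_of_notMem hx, ENNReal.zero_rpow_of_pos (by linarith), zero_mul]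
      exact zero_le
    by_cases hy : y ∈ l • K
    swap
    · rw [indicator_of_notMem hy, ENNReal.zero_rpow_of_pos hs0, mul_zero]
      exact zero_le
    have hz : (1 - s) • x + s • y ∈ (1 + s * (l - 1)) • K := by
      obtain ⟨z, hz, rfl⟩ := hy
      refine ⟨((1 - s) / (1 + s * (l - 1))) • x + (s * l / (1 + s * (l - 1))) • z,
        hK.2.1 hx hz (div_nonneg (by linarith) ht.le) (by positivity) ?_, ?_⟩
      · field_simp; ring
      · simp only [smul_add, smul_smul]
        congr 2 <;> field_simp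
    rw [indicator_of_mem hx, indicator_of_mem hy, indicator_of_mem hz,
      ENNReal.ofReal_rpow_of_pos (Real.exp_pos _), ENNReal.ofReal_rpow_of_pos (Real.exp_pos _),
      ← ENNReal.ofReal_mul (Real.rpow_pos_of_pos (Real.exp_pos _) _).le,
      ← Real.exp_mul, ← Real.exp_mul, ← Real.exp_add]
    refine ENNReal.ofReal_le_ofReal (Real.exp_le_exp.2 ?_)
    have := term_convex (θ := θ) hβ (a := 1 - s) (b := s) (by linarith) hs0.le (by ring) x y
    linarith

theorem term_W {K : Set (E n)} (hK : Body K) {θ β : Fin n → ℝ} (h : Iso K (θ, diagonal β)) :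
    ex K (θ, diagonal β) (fun x => 2 * pot (θ, diagonal β) x + ∑ i, θ i * x i) = ∑ i, β i := by
  have c1 : ∀ i : Fin n, Continuous fun x : E n => θ i * x i := fun i => by fun_prop
  have c2 : Continuous fun x : E n => 2 * pot (θ, diagonal β) x :=
    continuous_const.mul (pot_cont' _)
  have c3 : Continuous fun x : E n => ∑ i, θ i * x i := continuous_finsetSum _ fun i _ => c1 i
  rw [ex_add hK _ c2 c3, ex_const_mul, h.ex_pot hK, ex_sum hK _ _ c1]
  simp only [ex_const_mul, h.1, mul_zero, Finset.sum_const_zero]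
  ring

theorem term_up {K : Set (E n)} (hK : Body K) {θ β : Fin n → ℝ} (hβ : ∀ i, 0 ≤ β i)
    (h : Iso K (θ, diagonal β)) : ∃ M : ℝ, 0 < M ∧ ∀ t : ℝ, 0 ≤ t → t * M ≤ 1 →
    Real.log (Zp ((1 + t) • K) (θ, diagonal β)) ≤
      Real.log (Zp K (θ, diagonal β)) + t * ∑ i, (1 - β i) + t ^ 2 * M ^ 2 := by
  set p : Par n := (θ, diagonal β) with hp
  let W : E n → ℝ := fun x => 2 * pot p x + ∑ i, θ i * x i
  have c1 : ∀ i : Fin n, Continuous fun x : E n => θ i * x i := fun i => by fun_prop
  have cW : Continuous W :=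
    (continuous_const.mul (pot_cont' _)).add (continuous_finsetSum _ fun i _ => c1 i)
  obtain ⟨M0, hM0⟩ := hK.1.exists_bound_of_continuousOn cW.continuousOn
  refine ⟨max M0 1, lt_of_lt_of_le one_pos (le_max_right _ _), fun t ht htM => ?_⟩
  set M := max M0 1 with hM
  have hMW : ∀ x ∈ K, |W x| ≤ M := fun x hx => (hM0 x hx).trans (le_max_left _ _)
  have ht1 : 0 < 1 + t := by linarith
  have hK2 := term_body hK ht1
  have hZ := Zp_pos hK p
  have e1 : Zp ((1 + t) • K) p = (1 + t) ^ n * ∫ x in K, Real.exp (-pot p ((1 + t) • x)) := by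
    rw [term_Zp, Measure.setIntegral_comp_smul_of_pos volume (fun x => Real.exp (-pot p x)) K ht1]
    simp only [finrank_euclideanSpace, Fintype.card_fin, smul_eq_mul]
    have := (pow_pos ht1 n).ne'
    field_simp
  have cG : Continuous fun x => 1 - t * W x + t ^ 2 * M ^ 2 :=
    (continuous_const.sub (continuous_const.mul cW)).add continuous_const
  have e2 : ∫ x in K, Real.exp (-pot p ((1 + t) • x)) ≤
      itg K p (fun x => 1 - t * W x + t ^ 2 * M ^ 2) := by
    refine setIntegral_mono_on ?_ (itg_int hK p cG) hK.1.measurableSet fun x hx => ?_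
    · exact (Real.continuous_exp.comp ((pot_cont' p).comp
        (continuous_const_smul (1 + t))).neg).continuousOn.integrableOn_compact hK.1
    · have a1 : pot p x + t * W x ≤ pot p ((1 + t) • x) := by
        simp only [W, hp, term_pot, Finset.mul_sum, mul_add, ← Finset.sum_add_distrib]
        refine Finset.sum_le_sum fun i _ => ?_
        have e : ((1 + t) • x) i = (1 + t) * x i := by simp
        rw [e]
        have : 0 ≤ β i * (t ^ 2 * x i ^ 2) := mul_nonneg (hβ i) (by positivity)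
        nlinarith
      have a2 : |-(t * W x)| ≤ t * M := by
        rw [abs_neg, abs_mul, abs_of_nonneg ht]
        exact mul_le_mul_of_nonneg_left (hMW x hx) ht
      have a3 := Real.abs_exp_sub_one_sub_id_le (a2.trans htM)
      have a4 : (-(t * W x)) ^ 2 ≤ (t * M) ^ 2 := by
        rw [← sq_abs]; exact pow_le_pow_left₀ (abs_nonneg _) a2 2
      have a5 : Real.exp (-(t * W x)) ≤ 1 - t * W x + t ^ 2 * M ^ 2 := by
        have := (abs_le.1 a3).2
        nlinarith
      calc Real.exp (-pot p ((1 + t) • x)) ≤ Real.exp (-(t * W x) + -pot p x) :=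
            Real.exp_le_exp.2 (by linarith)
        _ = Real.exp (-(t * W x)) * Real.exp (-pot p x) := Real.exp_add _ _
        _ ≤ _ := mul_le_mul_of_nonneg_right a5 (Real.exp_pos _).le
  have e3 : ex K p (fun x => 1 - t * W x + t ^ 2 * M ^ 2) = 1 - t * ∑ i, β i + t ^ 2 * M ^ 2 := by
    have c2 : Continuous fun x => t * W x := continuous_const.mul cW
    have c3 : Continuous fun x => 1 - t * W x := continuous_const.sub c2
    have c4 : Continuous fun _ : E n => t ^ 2 * M ^ 2 := continuous_const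
    have c5 : Continuous fun _ : E n => (1 : ℝ) := continuous_const
    rw [ex_add hK p c3 c4, ex_sub hK p c5 c2, ex_const hK, ex_const hK,
      ex_const_mul, term_W hK h]
  have e4 : itg K p (fun x => 1 - t * W x + t ^ 2 * M ^ 2) =
      Zp K p * (1 - t * ∑ i, β i + t ^ 2 * M ^ 2) := by
    rw [← e3, ex]; field_simp
  have e5 : Zp ((1 + t) • K) p ≤
      Zp K p * Real.exp (t * ∑ i, (1 - β i) + t ^ 2 * M ^ 2) := by
    have b1 : (1 + t) ^ n ≤ Real.exp (n * t) := by
      rw [Real.exp_nat_mul]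
      exact pow_le_pow_left₀ ht1.le (by linarith [Real.add_one_le_exp t]) n
    have b2 : 1 - t * ∑ i, β i + t ^ 2 * M ^ 2 ≤
        Real.exp (-(t * ∑ i, β i) + t ^ 2 * M ^ 2) := by
      linarith [Real.add_one_le_exp (-(t * ∑ i, β i) + t ^ 2 * M ^ 2)]
    have b3 : ∫ x in K, Real.exp (-pot p ((1 + t) • x)) ≤
        Zp K p * Real.exp (-(t * ∑ i, β i) + t ^ 2 * M ^ 2) :=
      e2.trans (e4.le.trans (mul_le_mul_of_nonneg_left b2 hZ.le))
    have b4 : 0 ≤ ∫ x in K, Real.exp (-pot p ((1 + t) • x)) :=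
      integral_nonneg fun x => (Real.exp_pos _).le
    rw [e1]
    refine (mul_le_mul b1 b3 b4 (Real.exp_pos _).le).trans (le_of_eq ?_)
    rw [mul_left_comm, ← Real.exp_add]
    congr 2
    simp only [Finset.sum_sub_distrib, Finset.sum_const, Finset.card_univ, Fintype.card_fin,
      nsmul_eq_mul, mul_one]
    ring
  have e6 := Real.log_le_log (Zp_pos hK2 p) e5
  rw [Real.log_mul hZ.ne' (Real.exp_pos _).ne', Real.log_exp] at e6
  linarith

/-- Let `V = pot p` (convex), `F l = ∫ over l • K of exp (- V)`. Prekopa-Leindler with weights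
`1 - s`, `s` for `1_K e^{-V}`, `1_{l K} e^{-V}`, `1_{(1 + s (l - 1)) K} e^{-V}` gives
`F 1 ^ (1 - s) * F l ^ s ≤ F (1 + t)`, `t = s (l - 1)`. By scaling and convexity of `V`,
`F (1 + t) = (1 + t) ^ n ∫_K exp (- V ((1 + t) x)) ≤ (1 + t) ^ n Zp ex (exp (- t W))` with
`W x = x · B x - θ · x`, `ex W = ∑ β`; `exp u ≤ 1 + u + u ^ 2` for `|u| ≤ 1`. Take logarithms,
divide by `s`, let `s → 0`. -/
theorem scale_le {K : Set (E n)} (hK : Body K) {θ β : Fin n → ℝ} (hβ : ∀ i, 0 ≤ β i)
    (h : Iso K (θ, diagonal β)) {l : ℝ} (hl : 1 ≤ l) :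
    Real.log (∫ x in l • K, Real.exp (-pot (θ, diagonal β) x)) ≤
      Real.log (Zp K (θ, diagonal β)) + (l - 1) * ∑ i, (1 - β i) := by
  rw [← term_Zp]
  obtain ⟨M, hM, H⟩ := term_up hK hβ h
  refine le_of_forall_pos_le_add fun ε hε => ?_
  set A := (l - 1) * M with hA
  have hA0 : 0 ≤ A := mul_nonneg (by linarith) hM.le
  set s := min (1 / (A + 2)) (ε / (A ^ 2 + 1)) with hs
  have hs0 : 0 < s := lt_min (by positivity) (by positivity)
  have hs1 : s * (A + 2) ≤ 1 := by
    have : s ≤ 1 / (A + 2) := min_le_left _ _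
    rwa [le_div_iff₀ (by positivity)] at this
  have hs2 : s * (A ^ 2 + 1) ≤ ε := by
    have : s ≤ ε / (A ^ 2 + 1) := min_le_right _ _
    rwa [le_div_iff₀ (by positivity)] at this
  have hsA : 0 ≤ s * A := mul_nonneg hs0.le hA0
  have h1 := term_pl (θ := θ) hK hβ hl hs0 (by nlinarith)
  have h2 := H (s * (l - 1)) (mul_nonneg hs0.le (by linarith)) (by rw [mul_assoc]; nlinarith)
  have h3 : (s * (l - 1)) ^ 2 * M ^ 2 = s * (s * A ^ 2) := by rw [hA]; ring
  have h4 : s * (s * A ^ 2) ≤ s * ε := mul_le_mul_of_nonneg_left (by nlinarith) hs0.le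
  refine le_of_mul_le_mul_left ?_ hs0
  nlinarith

/-- `Dp = phi / 2 + n / 2 * log (2 π) - log Zp` in isotropic position (`Iso.cov_eq`, `Iso.ex_pot`);
take `l = max 1 (R / rad n)`, so that `ball 0 R ⊆ l • K`. -/
theorem terminal (n : ℕ) {δ : ℝ} (hδ : 0 < δ) : ∃ C : ℝ, 0 ≤ C ∧ ∀ (K : Set (E n)) (θ β : Fin n → ℝ),
    Body K → (∀ i, 0 ≤ β i) → (∀ i, β i ≤ 1) → Iso K (θ, diagonal β) →
    Metric.ball 0 (rad n) ⊆ K → Dp K (θ, diagonal β) ≤ δ + C * ∑ i, (1 - β i) := by
  obtain ⟨R, hR, hpos, hlog⟩ := gauss_ball n hδ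
  have hr : 0 < rad n := by unfold rad; positivity
  set l := max 1 (R / rad n) with hl
  have hl1 : 1 ≤ l := le_max_left _ _
  refine ⟨l - 1 / 2, by linarith, fun K θ β hK hβ0 hβ1 h hball => ?_⟩
  have hl0 : 0 < l := by linarith
  have hK1 := term_body hK hl0
  have hsub : Metric.ball (0 : E n) R ⊆ l • K := by
    refine Subset.trans ?_ (smul_set_mono hball)
    rw [_root_.smul_ball hl0.ne', smul_zero, Real.norm_of_nonneg hl0.le]
    refine Metric.ball_subset_ball ?_
    have : R / rad n ≤ l := le_max_right _ _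
    rwa [div_le_iff₀ hr] at this
  have h1 : ∫ x in Metric.ball (0 : E n) R, Real.exp (-pot (θ, diagonal β) x) ≤
      ∫ x in l • K, Real.exp (-pot (θ, diagonal β) x) := by
    refine setIntegral_mono_set ?_ (Eventually.of_forall fun x => (Real.exp_pos _).le)
      hsub.eventuallyLE
    simpa using itg_int hK1 (θ, diagonal β) (g := fun _ => 1) continuous_const
  have h2 := Real.log_le_log hpos ((gauss_le (θ := θ) hβ1 R).trans h1)
  have h3 := scale_le hK hβ0 h hl1
  have h4 : Real.log (2 * Real.pi * Real.exp 1) = Real.log (2 * Real.pi) + 1 := by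
    rw [Real.log_mul (by positivity) (Real.exp_pos _).ne', Real.log_exp]
  have h5 : ∑ i, (1 - β i) = n - ∑ i, β i := by
    simp [Finset.sum_sub_distrib]
  rw [Dp, ent, h.cov_eq, h.ex_pot hK, det_one, Real.log_one, h4]
  rw [h5] at h3 ⊢
  nlinarith

end Vale.Agent.P254
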