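import Vale.Agent.P254.Tilt
import Vale.Agent.P254.J2

/-! Second variation along the localization curves. -/

set_option linter.all false

namespace Vale.Agent.P254

open Matrix MeasureTheory Filter Topology Set Vale.Agent.P227

variable {n : ℕ}

theorem Var_deriv {K : Set (E n)} (hK : IsCompact K) {F F' : ℝ → E n → ℝ}
    (hF : ∀ r, Continuous (F r)) (hF' : Continuous fun q : ℝ × E n => F' q.1 q.2)
    (hd : ∀ x r, HasDerivAt (fun r => F r x) (F' r x) r) (r : ℝ) :
    HasDerivAt (fun r => ∫ x in K, F r x) (∫ x in K, F' r x) r := by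
  obtain ⟨M, hM⟩ := ((isCompact_closedBall r 1).prod hK).exists_bound_of_continuousOn
    hF'.continuousOn
  refine (hasDerivAt_integral_of_dominated_loc_of_deriv_le (μ := volume.restrict K)
    (bound := fun _ => M) (Metric.closedBall_mem_nhds r one_pos)
    (Eventually.of_forall fun s => (hF s).aestronglyMeasurable)
    ((hF r).continuousOn.integrableOn_compact hK)
    (hF'.comp (Continuous.prodMk_right r)).aestronglyMeasurable ?_
    (continuous_const.continuousOn.integrableOn_compact hK)
    (Eventually.of_forall fun x s _ => hd x s)).2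
  filter_upwards [ae_restrict_mem hK.measurableSet] with x hx s hs
  exact hM (s, x) ⟨hs, hx⟩

theorem Var_pot (p : Par n) (k : Fin n) (r : ℝ) (x : E n) :
    pot (crv p k r) x = pot p x - r * x k + r ^ 2 * x k ^ 2 / 2 := by
  have e : x.ofLp ⬝ᵥ diagonal (Pi.single k (r ^ 2) : Fin n → ℝ) *ᵥ x.ofLp = r ^ 2 * x k ^ 2 := by
    simp only [dotProduct, mulVec_diagonal]
    rw [Finset.sum_eq_single k (fun j _ hj => by simp [Pi.single_eq_of_ne hj]) (by simp),
      Pi.single_eq_same]
    ring
  simp only [pot, crv, add_mulVec, dotProduct_add, add_dotProduct, single_dotProduct, e]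
  ring

theorem Var_crv0 (p : Par n) (k : Fin n) : crv p k 0 = p := by
  simp [crv]

/-- `pot (crv p k r) x = pot p x - r * x k + r ^ 2 * x k ^ 2 / 2`; differentiate twice under the
integral over the compact set `K` (`hasDerivAt_integral_of_dominated_loc_of_deriv_le`). -/
theorem itg_J2 {K : Set (E n)} (hK : Body K) (p : Par n) (k : Fin n) {g : E n → ℝ}
    (hg : Continuous g) :
    J2 (fun r => itg K (crv p k r) g) (itg K p fun x => g x * x k) 0 := by
  have hp := pot_cont' p
  have d0 : ∀ (x : E n) (r : ℝ), HasDerivAt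
      (fun r : ℝ => Real.exp (-(pot p x - r * x k + r ^ 2 * x k ^ 2 / 2)))
      ((x k - r * x k ^ 2) * Real.exp (-(pot p x - r * x k + r ^ 2 * x k ^ 2 / 2))) r := by
    intro x r
    have h1 := ((((hasDerivAt_const r (pot p x)).fun_sub ((hasDerivAt_id' r).mul_const (x k))).fun_add
      (((hasDerivAt_pow 2 r).mul_const (x k ^ 2)).div_const 2)).fun_neg).exp
    refine h1.congr_deriv ?_
    push_cast
    ring
  have d1 := Var_deriv hK.1
    (F := fun r x => g x * Real.exp (-(pot p x - r * x k + r ^ 2 * x k ^ 2 / 2)))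
    (F' := fun r x => g x * ((x k - r * x k ^ 2) *
      Real.exp (-(pot p x - r * x k + r ^ 2 * x k ^ 2 / 2))))
    (fun r => by fun_prop) (by fun_prop) fun x r => (d0 x r).const_mul (g x)
  have d2 := Var_deriv hK.1
    (F := fun r x => g x * ((x k - r * x k ^ 2) *
      Real.exp (-(pot p x - r * x k + r ^ 2 * x k ^ 2 / 2))))
    (F' := fun r x => g x * (((x k - r * x k ^ 2) ^ 2 - x k ^ 2) *
      Real.exp (-(pot p x - r * x k + r ^ 2 * x k ^ 2 / 2))))
    (fun r => by fun_prop) (by fun_prop) (fun x r => by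
      have h1 := ((((hasDerivAt_const r (x k)).fun_sub
        ((hasDerivAt_id' r).mul_const (x k ^ 2))).fun_mul (d0 x r))).const_mul (g x)
      refine h1.congr_deriv ?_
      ring) 0
  refine ⟨_, Eventually.of_forall fun r => ?_, ?_, d2.congr_deriv ?_⟩
  · simp only [itg, Var_pot]
    exact d1 r
  · simp [itg, mul_assoc]
  · simp

/-- quotient by `Zp`, whose first and second derivatives vanish -/
theorem ex_J2 {K : Set (E n)} (hK : Body K) {p : Par n} (h : Iso K p) (k : Fin n) {g : E n → ℝ}
    (hg : Continuous g) :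
    J2 (fun r => ex K (crv p k r) g) (ex K p fun x => g x * x k) 0 := by
  have hZ := (Zp_pos hK p).ne'
  have h0 : itg K p (fun x => 1 * x k) = 0 := by
    simpa [ex, hZ] using h.1 k
  have h1 := itg_J2 hK p k (g := fun _ => 1) continuous_const
  rw [h0] at h1
  have h2 := (itg_J2 hK p k hg).mul (h1.inv (by rw [Var_crv0]; exact hZ))
  simp only [Var_crv0, neg_zero, zero_div, mul_zero, add_zero, zero_mul, ne_eq, OfNat.ofNat_ne_zero,
    not_false_eq_true, zero_pow, sub_self] at h2
  simp only [ex, Zp, div_eq_mul_inv]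
  exact h2

theorem Var_J2 {f g : ℝ → ℝ} {a b a' b' : ℝ} (hf : J2 f a b) (h : ∀ r, g r = f r) (ha : a' = a)
    (hb : b' = b) : J2 g a' b' := by
  rw [ha, hb]
  exact hf.congr (Eventually.of_forall h)

theorem Var_sq : J2 (fun r => r ^ 2) 0 2 :=
  Var_J2 (J2.id.mul J2.id) (fun r => sq r) (by simp) (by norm_num)

theorem Var_logZ {K : Set (E n)} (hK : Body K) {p : Par n} (h : Iso K p) (k : Fin n) :
    J2 (fun r => Real.log (Zp K (crv p k r))) 0 0 := by
  have hZ := (Zp_pos hK p).ne'
  have h0 : itg K p (fun x => 1 * x k) = 0 := by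
    simpa [ex, hZ] using h.1 k
  have h1 := itg_J2 hK p k (g := fun _ => 1) continuous_const
  rw [h0] at h1
  exact Var_J2 (h1.log (by rw [Var_crv0]; exact hZ)) (fun r => rfl) (by simp) (by simp)

theorem Var_cov {K : Set (E n)} (hK : Body K) {p : Par n} (h : Iso K p) (k i j : Fin n) :
    J2 (fun r => cov K (crv p k r) i j) (kap K p i j k)
      ((-2 : ℝ) * (if i = k then 1 else 0) * (if j = k then 1 else 0)) := by
  have h1 := ex_J2 hK h k (g := fun x => x i * x j) (by fun_prop)
  have h2 := ex_J2 hK h k (g := fun x => x i) (by fun_prop)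
  have h3 := ex_J2 hK h k (g := fun x => x j) (by fun_prop)
  refine Var_J2 (h1.add ((h2.mul h3).const_mul (-1))) (fun r => ?_) ?_ ?_
  · rw [cov, of_apply]; ring
  · simp only [Var_crv0, h.1, mul_zero, zero_mul, add_zero, kap]
  · simp only [Var_crv0, h.1, h.2]
    ring

theorem Var_ent {K : Set (E n)} (hK : Body K) {p : Par n} (h : Iso K p) (k : Fin n) :
    ∃ a, J2 (fun r => ent K (crv p k r)) a (-1) := by
  have hp := pot_cont' p
  have h1 := ex_J2 hK h k hp
  have h2 := ex_J2 hK h k (g := fun x => x k) (by fun_prop)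
  have h3 := ex_J2 hK h k (g := fun x => x k * x k) (by fun_prop)
  refine ⟨_, Var_J2 (((h1.add ((J2.id.mul h2).const_mul (-1))).add
    ((Var_sq.mul h3).const_mul (1 / 2))).add (Var_logZ hK h k)) (fun r => ?_) rfl ?_⟩
  · have e : pot (crv p k r) = fun x => (pot p x - r * x k) + r ^ 2 / 2 * (x k * x k) :=
      funext fun x => by rw [Var_pot]; ring
    rw [ent, e, ex_add hK _ (by fun_prop) (by fun_prop), ex_sub hK _ hp (by fun_prop),
      ex_const_mul, ex_const_mul]
    ring
  · simp only [Var_crv0, h.2, if_true]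
    ring

theorem Var_CB {K : Set (E n)} (hK : Body K) {θ β : Fin n → ℝ} (h : Iso K (θ, diagonal β))
    (k i j : Fin n) :
    J2 (fun r => (cov K (crv (θ, diagonal β) k r) * (crv (θ, diagonal β) k r).2) i j)
      (kap K (θ, diagonal β) i j k * β j)
      (2 * (1 - β k) * (if i = k then 1 else 0) * (if j = k then 1 else 0)) := by
  have h1 := (Var_cov hK h k i j).mul
    ((J2.const (β j)).add (Var_sq.const_mul (if j = k then 1 else 0)))
  refine Var_J2 h1 (fun r => ?_) ?_ ?_
  · have e : (crv (θ, diagonal β) k r).2 =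
        diagonal fun j => β j + (if j = k then 1 else 0) * r ^ 2 := by
      rw [crv, diagonal_add]
      refine congrArg Matrix.diagonal (funext fun j => ?_)
      rw [Pi.single_apply]
      split_ifs <;> simp
    rw [e, mul_diagonal]
  · simp
  · rw [Var_crv0, h.cov_eq, one_apply]
    by_cases hj : j = k
    · subst hj
      simp only [if_true]
      ring
    · simp [hj]

/-- With `C r = cov K (crv p k r)`: `C 0 = 1`, `C' = kap · · k`, `C'' = -2 E_kk`.
`ent`: `ex (crv) (pot (crv)) = ex (crv) (pot p) - r * ex (crv) (x k) + r ^ 2 / 2 * ex (crv) (x k ^ 2)`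
has second derivative `-1`, `log Zp` has second derivative `0`.
`log det (1 + C r * B r) = log det (diagonal (1 + β)) + log det (N r)` near `0` with
`N r = diagonal (1 / (1 + β)) * (1 + C r * B r)`. -/
theorem second_var {K : Set (E n)} (hK : Body K) {θ β : Fin n → ℝ} (hβ : ∀ i, 0 ≤ β i)
    (h : Iso K (θ, diagonal β)) (η ε : ℝ) (k : Fin n)
    (hmin : ∀ r, wf K η ε (θ, diagonal β) ≤ wf K η ε (crv (θ, diagonal β) k r)) :
    0 ≤ (∑ i, ∑ j, kap K (θ, diagonal β) i j k ^ 2) / 2 - 2 * (1 - β k) / (1 + β k) +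
      ∑ i, ∑ j, kap K (θ, diagonal β) i j k ^ 2 * (β i * β j / ((1 + β i) * (1 + β j))) -
      2 * η * (1 - β k) + ε * (2 + ∑ i, ∑ j, kap K (θ, diagonal β) i j k ^ 2) := by
  have hb : ∀ i, 1 + β i ≠ 0 := fun i => by have := hβ i; positivity
  set p : Par n := (θ, diagonal β) with hp
  have hs : ∀ i j, kap K p j i k = kap K p i j k := fun i j => (kap_symm K p j i k).1
  have h1 := J2.logdet (N := fun r => cov K (crv p k r)) (N1 := of fun i j => kap K p i j k)
    (N2 := of fun i j => (-2 : ℝ) * (if i = k then 1 else 0) * (if j = k then 1 else 0))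
    (fun i j => Var_cov hK h k i j) (by rw [Var_crv0, h.cov_eq])
  have e1 : (of fun i j => (-2 : ℝ) * (if i = k then 1 else 0) * (if j = k then 1 else 0) :
      Mat n).trace - ((of fun i j => kap K p i j k : Mat n) * of fun i j => kap K p i j k).trace =
      -2 - ∑ i, ∑ j, kap K p i j k ^ 2 := by
    simp only [trace, diag_apply, of_apply, mul_apply]
    congr 1
    · simp
    · exact Finset.sum_congr rfl fun i _ => Finset.sum_congr rfl fun j _ => by rw [hs i j, sq]
  rw [e1] at h1
  obtain ⟨a2, h2⟩ := Var_ent hK h k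
  have h3 := J2.sum Finset.univ fun i _ => Var_CB hK h k i i
  have e3 : ∑ i, 2 * (1 - β k) * (if i = k then 1 else 0) * (if i = k then 1 else 0) =
      2 * (1 - β k) := by simp
  rw [e3] at h3
  obtain ⟨N, hN⟩ : ∃ N : ℝ → Mat n, ∀ r,
      N r = diagonal (fun i => (1 + β i)⁻¹) * (1 + cov K (crv p k r) * (crv p k r).2) :=
    ⟨_, fun _ => rfl⟩
  have N0 : N 0 = 1 := by
    rw [hN, Var_crv0, h.cov_eq, Matrix.one_mul, hp, ← diagonal_one, diagonal_add,
      diagonal_mul_diagonal]
    congr 1
    funext i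
    exact inv_mul_cancel₀ (hb i)
  have hJ : ∀ i j, J2 (fun r => N r i j)
      ((of fun i j => (1 + β i)⁻¹ * (kap K p i j k * β j) : Mat n) i j)
      ((of fun i j => (1 + β i)⁻¹ *
        (2 * (1 - β k) * (if i = k then 1 else 0) * (if j = k then 1 else 0)) : Mat n) i j) :=
    fun i j => Var_J2 (((J2.const ((1 : Mat n) i j)).add (Var_CB hK h k i j)).const_mul (1 + β i)⁻¹)
      (fun r => by rw [hN, diagonal_mul, Matrix.add_apply]) (by rw [zero_add]; rfl) (by simp)
  have h4 := J2.logdet hJ N0
  have e4 : (of fun i j => (1 + β i)⁻¹ *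
        (2 * (1 - β k) * (if i = k then 1 else 0) * (if j = k then 1 else 0)) : Mat n).trace -
      ((of fun i j => (1 + β i)⁻¹ * (kap K p i j k * β j) : Mat n) *
        of fun i j => (1 + β i)⁻¹ * (kap K p i j k * β j)).trace =
      2 * (1 - β k) / (1 + β k) -
        ∑ i, ∑ j, kap K p i j k ^ 2 * (β i * β j / ((1 + β i) * (1 + β j))) := by
    simp only [trace, diag_apply, of_apply, mul_apply]
    congr 1
    · simp [div_eq_inv_mul]
    · refine Finset.sum_congr rfl fun i _ => Finset.sum_congr rfl fun j _ => ?_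
      have := hb i
      have := hb j
      rw [hs i j]
      field_simp
  rw [e4] at h4
  have hc : ContinuousAt (fun r => (N r).det) 0 :=
    (continuous_id.matrix_det.continuousAt (x := N 0)).comp
      (continuousAt_pi.2 fun i => continuousAt_pi.2 fun j => (hJ i j).continuousAt)
  have hne : ∀ᶠ r in 𝓝 (0 : ℝ), (N r).det ≠ 0 :=
    hc.eventually_ne (by rw [N0, det_one]; exact one_ne_zero)
  have h5 := ((J2.const (Real.log (∏ i, (1 + β i)))).add h4).congr
    (g := fun r => Real.log (1 + cov K (crv p k r) * (crv p k r).2).det) (by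
      filter_upwards [hne] with r hr
      have e : 1 + cov K (crv p k r) * (crv p k r).2 = diagonal (fun i => 1 + β i) * N r := by
        rw [hN, ← Matrix.mul_assoc, diagonal_mul_diagonal]
        simp only [mul_inv_cancel₀ (hb _), diagonal_one, Matrix.one_mul]
      rw [e, det_mul, det_diagonal, Real.log_mul (Finset.prod_ne_zero_iff.2 fun i _ => hb i) hr])
  have h6 := ((((J2.const (n * Real.log 2 - n / 2 * Real.log (2 * Real.pi * Real.exp 1) +
    η * n)).add (h5.const_mul (-1))).add (h1.const_mul (-(1 / 2 + ε)))).add h2).add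
      (h3.const_mul (-η))
  have h7 := (h6.congr (g := fun r => wf K η ε (crv p k r)) (Eventually.of_forall fun r => by
    simp only [wf, Dp, phi, trace, diag_apply, hp]
    ring)).nonneg fun r => by rw [Var_crv0]; exact hmin r
  linarith

end Vale.Agent.P254
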