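import Vale.Agent.P254.Key
import Vale.Agent.P254.Var
import Vale.Agent.P254.Term
import Vale.Agent.P254.Bnd
import Vale.Agent.P254.Defs

/-! The maximum principle. -/

set_option linter.all false

namespace Vale.Agent.P254

open Matrix MeasureTheory Filter Topology Set Vale.Agent.P227

variable {n : ℕ}

theorem iso_facts (hn : 0 < n) (K : Set (E n)) (θ β : Fin n → ℝ) (hK : Body K) (hβ : ∀ i, 0 ≤ β i)
    (h : Iso K (θ, diagonal β)) : (∀ i, β i ≤ 1) ∧ Metric.ball 0 (rad n) ⊆ K := by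
  obtain ⟨h1, h2⟩ := key hn hK hβ h
  refine ⟨h1, ball_subset hK h (le_trans ?_ (h2.trans ?_))⟩
  · exact Finset.sum_le_sum fun i _ => Finset.sum_le_sum fun j _ => Finset.sum_le_sum fun k _ =>
      le_mul_of_one_le_left (sq_nonneg _) (by linarith [hβ i])
  · have : ∑ i, (1 - β i) ≤ ∑ _i : Fin n, (1 : ℝ) := Finset.sum_le_sum fun i _ => by
      linarith [hβ i]
    simp only [Finset.sum_const, Finset.card_univ, Fintype.card_fin, nsmul_eq_mul, mul_one] at this
    linarith

theorem combine {β : Fin n → ℝ} {κ : Fin n → Fin n → Fin n → ℝ} {η ε : ℝ} (hε : 0 ≤ ε) (hη : 0 ≤ η)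
    (h0 : ∀ i, 0 ≤ β i) (h1 : ∀ i, β i ≤ 1)
    (hs : ∀ i j k, κ i j k = κ j i k ∧ κ i j k = κ i k j)
    (hk : ∑ i, ∑ j, ∑ k, (1 + 2 * β i) * κ i j k ^ 2 ≤ 4 * ∑ i, (1 - β i))
    (hv : ∀ k, 0 ≤ (∑ i, ∑ j, κ i j k ^ 2) / 2 - 2 * (1 - β k) / (1 + β k) +
      ∑ i, ∑ j, κ i j k ^ 2 * (β i * β j / ((1 + β i) * (1 + β j))) -
      2 * η * (1 - β k) + ε * (2 + ∑ i, ∑ j, κ i j k ^ 2)) :
    η * ∑ i, (1 - β i) ≤ 4 * n * ε := by
  set A := ∑ i, ∑ j, ∑ k, κ i j k ^ 2 with hA
  set B := ∑ i, ∑ j, ∑ k, β i * κ i j k ^ 2 with hB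
  set φ := ∑ i, (1 - β i) with hφ
  have e0 : ∑ i, ∑ j, ∑ k, (1 + 2 * β i) * κ i j k ^ 2 = A + 2 * B := by
    simp only [hA, hB, Finset.mul_sum, ← Finset.sum_add_distrib]
    exact Finset.sum_congr rfl fun i _ => Finset.sum_congr rfl fun j _ =>
      Finset.sum_congr rfl fun k _ => by ring
  have rot : ∀ F : Fin n → Fin n → Fin n → ℝ,
      ∑ k, ∑ i, ∑ j, F i j k = ∑ i, ∑ j, ∑ k, F i j k := fun F => by
    rw [Finset.sum_comm]
    exact Finset.sum_congr rfl fun i _ => Finset.sum_comm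
  have eA : ∑ k, ∑ i, ∑ j, κ i j k ^ 2 = A := rot _
  have eB1 : ∑ k, ∑ i, ∑ j, β i * κ i j k ^ 2 = B := rot _
  have eB2 : ∑ k, ∑ i, ∑ j, β j * κ i j k ^ 2 = B := by
    rw [← eB1]
    refine Finset.sum_congr rfl fun k _ => ?_
    rw [Finset.sum_comm]
    exact Finset.sum_congr rfl fun i _ => Finset.sum_congr rfl fun j _ => by rw [(hs j i k).1]
  have eB3 : ∑ k, ∑ i, ∑ j, β k * κ i j k ^ 2 = B :=
    Finset.sum_congr rfl fun k _ => Finset.sum_congr rfl fun i _ =>
      Finset.sum_congr rfl fun j _ => by rw [(hs i j k).2, (hs i k j).1]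
  have hB0 : 0 ≤ B := Finset.sum_nonneg fun i _ => Finset.sum_nonneg fun j _ =>
    Finset.sum_nonneg fun k _ => mul_nonneg (h0 i) (sq_nonneg _)
  have hφn : φ ≤ n := by
    have : φ ≤ ∑ _i : Fin n, (1 : ℝ) := Finset.sum_le_sum fun i _ => by linarith [h0 i]
    simpa using this
  have h2 : ∀ k, 0 ≤ (∑ i, ∑ j, κ i j k ^ 2) / 2 + (∑ i, ∑ j, β k * κ i j k ^ 2) / 2 - 2 * (1 - β k)
      + ((∑ i, ∑ j, β i * κ i j k ^ 2) + ∑ i, ∑ j, β j * κ i j k ^ 2) / 4 - 2 * η * (1 - β k)
      + ε * (4 + (∑ i, ∑ j, κ i j k ^ 2) + ∑ i, ∑ j, β k * κ i j k ^ 2) := by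
    intro k
    have hk0 : 0 < 1 + β k := by linarith [h0 k]
    have t0 := mul_nonneg hk0.le (hv k)
    set s := ∑ i, ∑ j, κ i j k ^ 2 with hs'
    have e1 : ∑ i, ∑ j, β k * κ i j k ^ 2 = β k * s := by simp only [hs', Finset.mul_sum]
    have t1 : (1 + β k) * ∑ i, ∑ j, κ i j k ^ 2 * (β i * β j / ((1 + β i) * (1 + β j))) ≤
        ((∑ i, ∑ j, β i * κ i j k ^ 2) + ∑ i, ∑ j, β j * κ i j k ^ 2) / 4 := by
      simp only [Finset.mul_sum, ← Finset.sum_add_distrib, Finset.sum_div]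
      refine Finset.sum_le_sum fun i _ => Finset.sum_le_sum fun j _ => ?_
      have a0 := h0 i
      have b0 := h0 j
      have t2 : (1 + β k) * (β i * β j / ((1 + β i) * (1 + β j))) ≤ (β i + β j) / 4 := by
        rw [← mul_div_assoc, div_le_div_iff₀ (by positivity) (by norm_num)]
        have t3 := mul_le_mul_of_nonneg_right (h1 k) (mul_nonneg a0 b0)
        nlinarith [sq_nonneg (β i - β j), mul_nonneg a0 (sq_nonneg (1 - β j)),
          mul_nonneg b0 (sq_nonneg (1 - β i))]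
      nlinarith [mul_le_mul_of_nonneg_left t2 (sq_nonneg (κ i j k))]
    have e2 : (1 + β k) * (2 * (1 - β k) / (1 + β k)) = 2 * (1 - β k) := by field_simp
    have t4 : 0 ≤ η * (1 - β k) * β k := mul_nonneg (mul_nonneg hη (by linarith [h1 k])) (h0 k)
    have t5 : 0 ≤ ε * (1 - β k) := mul_nonneg hε (by linarith [h1 k])
    rw [e1]
    nlinarith
  have h3 := Finset.sum_nonneg fun k (_ : k ∈ Finset.univ) => h2 k
  rw [Finset.sum_add_distrib, Finset.sum_sub_distrib, Finset.sum_add_distrib,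
    Finset.sum_sub_distrib, Finset.sum_add_distrib, ← Finset.sum_div, ← Finset.sum_div,
    ← Finset.sum_div, ← Finset.mul_sum, ← Finset.mul_sum, ← Finset.mul_sum, Finset.sum_add_distrib,
    Finset.sum_add_distrib, Finset.sum_add_distrib, eA, eB1, eB2, eB3, ← hφ, Finset.sum_const,
    Finset.card_univ, Fintype.card_fin, nsmul_eq_mul] at h3
  rw [e0] at hk
  nlinarith [mul_le_mul_of_nonneg_left hk hε, mul_le_mul_of_nonneg_left hφn hε,
    mul_nonneg hε hB0]

theorem psd_symm {B : Mat n} (h : B.PosSemidef) : B.IsSymm := by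
  have := h.isHermitian.eq
  rwa [conjTranspose_eq_transpose_of_trivial] at this

theorem min_phi (hn : 0 < n) {K : Set (E n)} (hK : Body K) {η ε : ℝ} (hη : 0 ≤ η) (hε : 0 ≤ ε)
    {p : Par n} (hp : p.2.PosSemidef)
    (hmin : ∀ q : Par n, q.2.PosSemidef → wf K η ε p ≤ wf K η ε q) :
    η * phi K p ≤ 4 * n * ε := by
  obtain ⟨T, θ, β, hT, hβ, -, hpull, hiso⟩ := exists_iso hK hp
  set a : Fin n → ℝ := fun i => ex K p fun x => x i with ha
  have hK' := hK.aff hT a
  obtain ⟨h1, h2⟩ := key hn hK' hβ hiso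
  have hd : (diagonal β).PosSemidef := PosSemidef.diagonal fun i => hβ i
  have e : phi K p = ∑ i, (1 - β i) := by
    rw [← hiso.phi_eq, phi_pull hK hT a (psd_symm hd), hpull]
  rw [e]
  refine combine hε hη hβ h1 (kap_symm _ _) h2 fun k =>
    second_var hK' hβ hiso η ε k fun r => ?_
  have hq : (crv (θ, diagonal β) k r).2.PosSemidef :=
    hd.add (PosSemidef.diagonal fun i => by
      show (0 : ℝ) ≤ (Pi.single k (r ^ 2) : Fin n → ℝ) i
      rw [Pi.single_apply]
      split_ifs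
      · positivity
      · exact le_rfl)
  rw [wf_pull hK hT a (psd_symm hd), wf_pull hK hT a (psd_symm hq), hpull]
  linarith [hmin _ (pull_psd T a hq)]

theorem all_facts (hn : 0 < n) {δ : ℝ} (hδ : 0 < δ) : ∃ C : ℝ, 0 ≤ C ∧
    ∀ (K : Set (E n)) (p : Par n), Body K → p.2.PosSemidef →
      Dp K p ≤ δ + C * phi K p ∧ 0 ≤ phi K p ∧ phi K p ≤ n ∧ 0 < (1 + cov K p * p.2).det ∧
        Real.log (1 + cov K p * p.2).det ≤ n * Real.log 2 := by
  obtain ⟨C, hC, hT⟩ := terminal n hδ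
  refine ⟨C, hC, fun K p hK hp => ?_⟩
  obtain ⟨T, θ, β, hT0, hβ, -, hpull, hiso⟩ := exists_iso hK hp
  set a : Fin n → ℝ := fun i => ex K p fun x => x i with ha
  have hK' := hK.aff hT0 a
  obtain ⟨h1, h2⟩ := iso_facts hn _ θ β hK' hβ hiso
  have hd : (diagonal β).IsSymm := isSymm_diagonal β
  have e1 : phi K p = ∑ i, (1 - β i) := by
    rw [← hiso.phi_eq, phi_pull hK hT0 a hd, hpull]
  have e2 : Dp K p = Dp (aff T a '' K) (θ, diagonal β) := by rw [Dp_pull hK hT0 a hd, hpull]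
  have e3 : (1 + cov K p * p.2).det = ∏ i, (1 + β i) := by
    have h3 := detone_pull hK hT0 a (p := (θ, diagonal β)) hd
    rw [hpull, hiso.cov_eq, Matrix.one_mul, ← diagonal_one, diagonal_add, det_diagonal] at h3
    exact h3.symm
  have hpos : ∀ i, 0 < 1 + β i := fun i => by linarith [hβ i]
  rw [e1, e2, e3]
  refine ⟨hT _ θ β hK' hβ h1 hiso h2, Finset.sum_nonneg fun i _ => by linarith [h1 i], ?_,
    Finset.prod_pos fun i _ => hpos i, ?_⟩
  · have : ∑ i, (1 - β i) ≤ ∑ _i : Fin n, (1 : ℝ) := Finset.sum_le_sum fun i _ => by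
      linarith [hβ i]
    simpa using this
  · rw [Real.log_prod fun i _ => (hpos i).ne']
    have : ∑ i, Real.log (1 + β i) ≤ ∑ _i : Fin n, Real.log 2 := Finset.sum_le_sum fun i _ =>
      Real.log_le_log (hpos i) (by linarith [h1 i])
    simpa using this

theorem isClosed_psd : IsClosed {p : Par n | p.2.PosSemidef} := by
  have e : {p : Par n | p.2.PosSemidef} =
      {p : Par n | p.2ᵀ = p.2} ∩ ⋂ v : Fin n → ℝ, {p : Par n | 0 ≤ v ⬝ᵥ p.2 *ᵥ v} := by
    ext p
    simp [posSemidef_iff_dotProduct_mulVec, Matrix.IsHermitian]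
  rw [e]
  exact (isClosed_eq (by fun_prop) (by fun_prop)).inter
    (isClosed_iInter fun v => isClosed_le continuous_const (by fun_prop))

theorem exists_min (hn : 0 < n) {K : Set (E n)} (hK : Body K) {η ε : ℝ} (hη : 0 ≤ η) (hε : 0 < ε) :
    ∃ p : Par n, p.2.PosSemidef ∧ ∀ q : Par n, q.2.PosSemidef → wf K η ε p ≤ wf K η ε q := by
  obtain ⟨C, hC, hF⟩ := all_facts hn one_pos
  obtain ⟨R, hR⟩ := param_bdd hK (iso_facts hn) ((-(1 + C * n) - wf K η ε 0) / ε)
  let D : Set (Par n) := (Set.pi univ fun _ => Icc (-|R|) |R|) ×ˢ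
    (Set.pi univ fun _ => Set.pi univ fun _ => Icc (-|R|) |R|)
  have hD : IsCompact D := (isCompact_univ_pi fun _ => isCompact_Icc).prod
    (isCompact_univ_pi fun _ => isCompact_univ_pi fun _ => isCompact_Icc)
  have h0 : (0 : Par n) ∈ D ∩ {p : Par n | p.2.PosSemidef} :=
    ⟨⟨fun i _ => abs_le.1 (by simp), fun i _ j _ => abs_le.1 (by simp)⟩, PosSemidef.zero⟩
  have hc := cov_cont hK
  have c1 : Continuous fun p => Real.log (cov K p).det :=
    hc.matrix_det.log fun p => (cov_posDef hK p).det_pos.ne'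
  have c2 : ContinuousOn (fun p : Par n => Real.log (1 + cov K p * p.2).det)
      (D ∩ {p : Par n | p.2.PosSemidef}) :=
    (continuous_const.add (hc.matrix_mul continuous_snd)).matrix_det.continuousOn.log
      fun p hp => (hF K p hK hp.2).2.2.2.1.ne'
  have c3 : Continuous (Dp K) := ((c1.div_const 2).sub (ent_cont hK)).add continuous_const
  have c4 : Continuous (phi K) := continuous_const.sub (hc.matrix_mul continuous_snd).matrix_trace
  have c5 : ContinuousOn (wf K η ε) (D ∩ {p : Par n | p.2.PosSemidef}) :=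
    (((continuousOn_const.sub c2).sub c3.continuousOn).add
      (continuous_const.mul c4).continuousOn).sub (continuous_const.mul c1).continuousOn
  obtain ⟨p, hp, hmin⟩ := (hD.inter_right isClosed_psd).exists_isMinOn ⟨0, h0⟩ c5
  refine ⟨p, hp.2, fun q hq => ?_⟩
  rcases le_total (wf K η ε 0) (wf K η ε q) with h | h
  · exact (hmin h0).trans h
  · obtain ⟨t1, t2, t3, -, t4⟩ := hF K q hK hq
    obtain ⟨b1, b2⟩ := hR q hq (by
      rw [div_le_iff₀ hε]
      have t5 := mul_le_mul_of_nonneg_left t3 hC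
      have t6 := mul_nonneg hη t2
      have t7 : wf K η ε q = n * Real.log 2 - Real.log (1 + cov K q * q.2).det - Dp K q +
        η * phi K q - ε * Real.log (cov K q).det := rfl
      linarith)
    exact hmin ⟨⟨fun i _ => abs_le.1 ((b1 i).trans (le_abs_self R)),
      fun i _ j _ => abs_le.1 ((b2 i j).trans (le_abs_self R))⟩, hq⟩

theorem le_of_lin {x a Q : ℝ} (h : ∀ ε, 0 < ε → x ≤ a + ε * Q) : x ≤ a := by
  have h1 : Tendsto (fun ε : ℝ => a + ε * Q) (𝓝[>] 0) (𝓝 (a + 0 * Q)) :=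
    ((continuous_const.add (continuous_id.mul continuous_const)).tendsto 0).mono_left
      nhdsWithin_le_nhds
  rw [zero_mul, add_zero] at h1
  exact ge_of_tendsto h1 (eventually_nhdsWithin_of_forall fun ε hε => h ε hε)

theorem Dp_zero_le (hn : 0 < n) {K : Set (E n)} (hK : Body K) : Dp K 0 ≤ n * Real.log 2 := by
  obtain ⟨M, hM⟩ := cov_det_le hK
  refine le_of_lin (Q := n + 1) fun δ hδ => ?_
  obtain ⟨C, hC, hF⟩ := all_facts hn hδ
  refine le_of_lin (Q := M - Real.log (cov K 0).det + C * (4 * n) / δ) fun ε hε => ?_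
  obtain ⟨p, hp, hmin⟩ := exists_min hn hK hδ.le hε
  have h1 := min_phi hn hK hδ.le hε.le hp hmin
  have h2 := hmin 0 PosSemidef.zero
  obtain ⟨t1, t2, -, -, t4⟩ := hF K p hK hp
  have t5 : C * phi K p ≤ ε * (C * (4 * n) / δ) := by
    rw [← mul_div_assoc, le_div_iff₀ hδ]
    nlinarith [mul_le_mul_of_nonneg_left h1 hC]
  have t6 := mul_nonneg hδ.le t2
  have t7 := mul_le_mul_of_nonneg_left (hM p) hε.le
  simp only [wf, phi, Prod.snd_zero, mul_zero, add_zero, det_one, Real.log_one, trace_zero,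
    sub_zero] at h2 t1 t5 t6
  nlinarith

theorem ex_zero (K : Set (E n)) (g : E n → ℝ) :
    ex K 0 g = (volume.real K)⁻¹ * ∫ x in K, g x := by
  simp [ex, Zp, itg, pot, div_eq_inv_mul]

theorem cov_zero {K : Set (E n)} (hK : Body K) : cov K 0 = covMatrix K := by
  ext i j
  have ci : ∀ i, Continuous fun x : E n => x i := fun i => (differentiable_coord i).continuous
  have e : (fun x : E n => (x i - centroidCoord K i) * (x j - centroidCoord K j)) = fun x =>
      x i * x j - centroidCoord K j * x i - centroidCoord K i * x j +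
        centroidCoord K i * centroidCoord K j := by
    funext x
    ring
  rw [covMatrix, of_apply, ← ex_zero, e, ex_add hK _ (by fun_prop) continuous_const,
    ex_sub hK _ (by fun_prop) (by fun_prop), ex_sub hK _ (by fun_prop) (by fun_prop),
    ex_const_mul, ex_const_mul, ex_const hK, cov, of_apply, centroidCoord, centroidCoord,
    ← ex_zero, ← ex_zero]
  ring

theorem iso_bound (hn : 0 < n) {K : Set (E n)} (hK : Body K) :
    isoConst K ≤ √(2 / (Real.pi * Real.exp 1)) := by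
  have h1 := Dp_zero_le hn hK
  have hv := hK.vol_pos
  have hd := (cov_posDef hK 0).det_pos
  have hπ := Real.pi_pos
  have he := Real.exp_pos 1
  have hn' : (0 : ℝ) < n := Nat.cast_pos.2 hn
  have e1 : ent K 0 = Real.log (volume.real K) := by simp [ent, ex, Zp, itg, pot]
  rw [Dp, e1, cov_zero hK] at h1
  rw [cov_zero hK] at hd
  have e2 : Real.log (2 / (Real.pi * Real.exp 1)) =
      2 * Real.log 2 - Real.log (2 * Real.pi * Real.exp 1) := by
    rw [show 2 / (Real.pi * Real.exp 1) = 2 ^ 2 / (2 * Real.pi * Real.exp 1) by field_simp,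
      Real.log_div (by positivity) (by positivity), Real.log_pow]
    norm_num
  rw [isoConst, Real.sqrt_eq_rpow, Real.rpow_def_of_pos (by positivity),
    Real.rpow_def_of_pos (by positivity), Real.exp_le_exp, e2,
    Real.log_div hd.ne' (by positivity), Real.log_pow, mul_one_div, div_le_iff₀ (by positivity)]
  push_cast
  nlinarith

end Vale.Agent.P254
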